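import Vale.Agent.P132.Base
import Mathlib.Topology.ContinuousMap.Weierstrass
import Mathlib.Analysis.SpecialFunctions.Trigonometric.Bounds

/-! The calculus of bounded continuous functions. -/

namespace Vale.Agent.P132

open scoped InnerProductSpace ComplexConjugate Topology
open Vale.Agent.P082 Filter

variable {H : Type*} [NormedAddCommGroup H] [InnerProductSpace ℂ H] [CompleteSpace H]

section bc

variable {F G : ℝ → ℂ}

lemma BC.const (c : ℂ) : BC fun _ => c := ⟨continuous_const, ‖c‖, fun _ => le_rfl⟩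
lemma BC.add (hF : BC F) (hG : BC G) : BC fun s => F s + G s := by
  obtain ⟨h1, C, h2⟩ := hF
  obtain ⟨h3, C', h4⟩ := hG
  exact ⟨h1.add h3, C + C', fun s => norm_add_le_of_le (h2 s) (h4 s)⟩
lemma BC.sub (hF : BC F) (hG : BC G) : BC fun s => F s - G s := by
  obtain ⟨h1, C, h2⟩ := hF
  obtain ⟨h3, C', h4⟩ := hG
  exact ⟨h1.sub h3, C + C', fun s => norm_sub_le_of_le (h2 s) (h4 s)⟩
lemma BC.mul (hF : BC F) (hG : BC G) : BC fun s => F s * G s := by
  obtain ⟨h1, C, h2⟩ := hF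
  obtain ⟨h3, C', h4⟩ := hG
  exact ⟨h1.mul h3, C * C', fun s => norm_mul_le_of_le (h2 s) (h4 s)⟩
lemma BC.cj (hF : BC F) : BC fun s => conj (F s) :=
  ⟨Complex.continuous_conj.comp hF.1, by simpa only [Complex.norm_conj] using hF.2⟩
lemma BC.refl (hF : BC F) : BC fun s => conj (F (-s)) :=
  BC.cj (F := fun s => F (-s)) ⟨hF.1.comp continuous_neg, hF.2.imp fun _ h s => h (-s)⟩
lemma BC.pow (hF : BC F) (n : ℕ) : BC fun s => F s ^ n := by
  induction n with
  | zero => simpa using BC.const 1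
  | succ n ih => simpa only [pow_succ] using ih.mul hF
lemma BC.sum {ι : Type*} (t : Finset ι) {F : ι → ℝ → ℂ} (h : ∀ i ∈ t, BC (F i)) :
    BC fun s => ∑ i ∈ t, F i s := by
  classical
  induction t using Finset.induction_on with
  | empty => simpa using BC.const 0
  | insert j t hj ih =>
    simpa only [Finset.sum_insert hj] using (h j (Finset.mem_insert_self _ _)).add
      (ih fun i hi => h i (Finset.mem_insert_of_mem hi))
/-- Compact support. -/
lemma BC.of_supp (hF : Continuous F) {L : ℝ} (h : ∀ s, L < |s| → F s = 0) : BC F := by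
  obtain ⟨C, hC⟩ := (isCompact_Icc (a := -L) (b := L)).exists_bound_of_continuousOn hF.continuousOn
  refine ⟨hF, max C 0, fun s => ?_⟩
  rcases lt_or_ge L |s| with hs | hs
  · simp [h s hs]
  · exact (hC s (abs_le.1 hs)).trans (le_max_left _ _)
/-- A compactly supported function times a continuous function. -/
lemma BC.mul_supp (hF : Continuous F) {L : ℝ} (h : ∀ s, L < |s| → F s = 0) (hG : Continuous G) :
    BC fun s => F s * G s := BC.of_supp (hF.mul hG) fun s hs => by rw [h s hs, zero_mul]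
lemma bc_ex (t : ℝ) : BC (ex t) :=
  ⟨by unfold ex; fun_prop, 1, fun _ => (Complex.norm_exp_ofReal_mul_I _).le⟩
lemma bc_real {f : ℝ → ℝ} (hf : Continuous f) (h : ∀ s, 0 ≤ f s ∧ f s ≤ 1) :
    BC fun s => (f s : ℂ) := ⟨Complex.continuous_ofReal.comp hf, 1, fun s => by
  rw [Complex.norm_real, Real.norm_of_nonneg (h s).1]; exact (h s).2⟩
lemma cont_inv_exp : Continuous fun s : ℝ => (1 + Real.exp s)⁻¹ :=
  Continuous.inv₀ (by fun_prop) fun s => by positivity
lemma bc_pp : BC pp := bc_real cont_inv_exp fun s =>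
  ⟨by positivity, inv_le_one_of_one_le₀ (by linarith [Real.exp_pos s])⟩
lemma bc_qq : BC qq := bc_real (Continuous.mul (by fun_prop) cont_inv_exp) fun s =>
  ⟨by positivity, mul_inv_le_one_of_le₀ (by
    have : Real.exp s = Real.exp (s / 2) * Real.exp (s / 2) := by rw [← Real.exp_add, add_halves]
    nlinarith [Real.exp_pos (s / 2)]) (by positivity)⟩
lemma bc_rr : BC rr := bc_real (Continuous.mul (by fun_prop) cont_inv_exp) fun s =>
  ⟨by positivity, mul_inv_le_one_of_le₀ (by linarith) (by positivity)⟩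
lemma norm_ex (t s : ℝ) : ‖ex t s‖ = 1 := Complex.norm_exp_ofReal_mul_I _
lemma ex_add (t t' s : ℝ) : ex (t + t') s = ex t s * ex t' s := by
  rw [ex, ex, ex, ← Complex.exp_add]
  congr 1
  push_cast
  ring
lemma conj_ex (t s : ℝ) : conj (ex t s) = ex (-t) s := by
  rw [ex, ex, ← Complex.exp_conj]
  simp
lemma continuous_EE : Continuous EE := by unfold EE; fun_prop
lemma pp_ne (s : ℝ) : pp s ≠ 0 := Complex.ofReal_ne_zero.2 (by positivity)
lemma qq_ne (s : ℝ) : qq s ≠ 0 := Complex.ofReal_ne_zero.2 (by positivity)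
lemma pp_add_rr (s : ℝ) : pp s + rr s = 1 := by
  rw [pp, rr, ← Complex.ofReal_add, Complex.ofReal_eq_one]
  field_simp
lemma qq_eq (s : ℝ) : qq s = pp s * EE s := by rw [pp, qq, EE, ← Complex.ofReal_mul, mul_comm]
lemma rr_eq (s : ℝ) : rr s = qq s * EE s := by
  rw [rr, qq, EE, ← Complex.ofReal_mul, mul_right_comm, ← Real.exp_add, add_halves]
lemma qq_neg (s : ℝ) : conj (qq (-s)) = qq s := by
  rw [qq, qq, Complex.conj_ofReal, Complex.ofReal_inj, neg_div, Real.exp_neg, Real.exp_neg]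
  have : Real.exp s = Real.exp (s / 2) * Real.exp (s / 2) := by rw [← Real.exp_add, add_halves]
  have := Real.exp_pos (s / 2)
  simp only [*]
  field_simp
  ring

/-- Cutoff functions. -/
noncomputable def chi (L s : ℝ) : ℂ := (max 0 (min 1 (L + 1 - |s|)) : ℝ)

lemma continuous_chi (L : ℝ) : Continuous (chi L) := by unfold chi; fun_prop
lemma chi_supp {L s : ℝ} (h : L + 1 < |s|) : chi L s = 0 := by
  rw [chi, max_eq_left ((min_le_right _ _).trans (by linarith)), Complex.ofReal_zero]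
lemma chi_one {L s : ℝ} (h : |s| ≤ L) : chi L s = 1 := by
  rw [chi, min_eq_left (by linarith), max_eq_right zero_le_one, Complex.ofReal_one]
lemma norm_chi (L s : ℝ) : ‖chi L s‖ ≤ 1 := by
  rw [chi, Complex.norm_real, Real.norm_of_nonneg (le_max_left _ _)]
  exact max_le zero_le_one (min_le_left _ _)
lemma norm_one_sub_chi (L s : ℝ) : ‖1 - chi L s‖ ≤ 1 := by
  rw [chi, ← Complex.ofReal_one, ← Complex.ofReal_sub, Complex.norm_real,
    Real.norm_of_nonneg (sub_nonneg.2 (max_le zero_le_one (min_le_left _ _)))]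
  simp
lemma conj_chi (L s : ℝ) : conj (chi L s) = chi L s := Complex.conj_ofReal _
lemma bc_chi (L : ℝ) : BC (chi L) := ⟨continuous_chi L, 1, norm_chi L⟩

end bc

namespace FC

variable (D : FC H) {F G : ℝ → ℂ}

lemma one : D.fb (fun _ => 1) = 1 := by rw [D.const, one_smul]
lemma zero : D.fb (fun _ => 0) = 0 := by rw [D.const, zero_smul]
lemma smul (hF : BC F) (c : ℂ) : D.fb (fun s => c * F s) = c • D.fb F := by
  rw [D.mul (.const c) hF, D.const, smul_mul_assoc, one_mul]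
lemma sub (hF : BC F) (hG : BC G) : D.fb (fun s => F s - G s) = D.fb F - D.fb G := by
  rw [eq_sub_iff_add_eq, ← D.add (hF.sub hG) hG]
  simp
lemma sum {ι : Type*} (t : Finset ι) {F : ι → ℝ → ℂ} (h : ∀ i ∈ t, BC (F i)) :
    D.fb (fun s => ∑ i ∈ t, F i s) = ∑ i ∈ t, D.fb (F i) := by
  classical
  induction t using Finset.induction_on with
  | empty => simpa using D.zero
  | insert j t hj ih =>
    have h' := fun i hi => h i (Finset.mem_insert_of_mem hi)
    simp only [Finset.sum_insert hj]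
    rw [D.add (h j (Finset.mem_insert_self _ _)) (BC.sum t h'), ih h']
lemma pow (hF : BC F) (n : ℕ) : D.fb (fun s => F s ^ n) = D.fb F ^ n := by
  induction n with
  | zero => simpa using D.one
  | succ n ih => simp only [pow_succ]; rw [D.mul (hF.pow n) hF, ih]
lemma mul_apply (hF : BC F) (hG : BC G) (α : H) :
    D.fb F (D.fb G α) = D.fb (fun s => F s * G s) α := by rw [D.mul hF hG]; rfl
lemma comm (hF : BC F) (hG : BC G) : D.fb F * D.fb G = D.fb G * D.fb F := by
  rw [← D.mul hF hG, ← D.mul hG hF]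
  simp only [mul_comm]
lemma inner_left (hF : BC F) (α β : H) :
    ⟪D.fb F α, β⟫_ℂ = ⟪α, D.fb (fun s => conj (F s)) β⟫_ℂ := by
  rw [D.cj hF, ContinuousLinearMap.star_eq_adjoint, ContinuousLinearMap.adjoint_inner_right]
lemma inner_right (hF : BC F) (α β : H) :
    ⟪α, D.fb F β⟫_ℂ = ⟪D.fb (fun s => conj (F s)) α, β⟫_ℂ := by
  rw [D.cj hF, ContinuousLinearMap.star_eq_adjoint, ContinuousLinearMap.adjoint_inner_left]

lemma nsq (hF : BC F) (α : H) :
    ‖D.fb F α‖ ^ 2 = (⟪α, D.fb (fun s => conj (F s) * F s) α⟫_ℂ).re := by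
  rw [← D.mul_apply hF.cj hF, ← D.inner_left hF, inner_self_eq_norm_sq_to_K]
  norm_cast

lemma pos (hF : BC F) {f : ℝ → ℝ} (e : ∀ s, F s = f s) (h : ∀ s, 0 ≤ f s) (α : H) :
    0 ≤ (⟪α, D.fb F α⟫_ℂ).re := by
  obtain ⟨h1, C, h2⟩ := hF
  have hQ : BC fun s => (√(F s).re : ℂ) := ⟨by fun_prop, √C, fun s => by
    rw [Complex.norm_real, Real.norm_of_nonneg (Real.sqrt_nonneg _)]
    exact Real.sqrt_le_sqrt ((Complex.re_le_norm _).trans (h2 s))⟩
  have : F = fun s => conj (√(F s).re : ℂ) * (√(F s).re : ℂ) := funext fun s => by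
    rw [Complex.conj_ofReal, ← Complex.ofReal_mul, e, Complex.ofReal_re, Real.mul_self_sqrt (h s)]
  rw [this, ← D.nsq hQ]
  positivity

lemma sum_nsq {ι : Type*} (t : Finset ι) {F : ι → ℝ → ℂ} (hF : ∀ i ∈ t, BC (F i)) (α : H) :
    ∑ i ∈ t, ‖D.fb (F i) α‖ ^ 2 = (⟪α, D.fb (fun s => ∑ i ∈ t, conj (F i s) * F i s) α⟫_ℂ).re := by
  rw [D.sum t fun i hi => (hF i hi).cj.mul (hF i hi), _root_.sum_apply, inner_sum, Complex.re_sum]
  exact Finset.sum_congr rfl fun i hi => D.nsq (hF i hi) α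

/-- Pointwise inequalities give norm inequalities. -/
lemma sum_sq_le {ι κ : Type*} (t : Finset ι) (u : Finset κ) {F : ι → ℝ → ℂ} {G : κ → ℝ → ℂ}
    (hF : ∀ i ∈ t, BC (F i)) (hG : ∀ j ∈ u, BC (G j))
    (h : ∀ s, ∑ i ∈ t, ‖F i s‖ ^ 2 ≤ ∑ j ∈ u, ‖G j s‖ ^ 2) (α : H) :
    ∑ i ∈ t, ‖D.fb (F i) α‖ ^ 2 ≤ ∑ j ∈ u, ‖D.fb (G j) α‖ ^ 2 := by
  have h1 := BC.sum t fun i hi => (hF i hi).cj.mul (hF i hi)
  have h2 := BC.sum u fun i hi => (hG i hi).cj.mul (hG i hi)
  have := D.pos (h2.sub h1) (fun s => by simp [Complex.conj_mul']) (fun s => sub_nonneg.2 (h s)) α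
  rwa [D.sub h2 h1, _root_.sub_apply, inner_sub_right, Complex.sub_re, ← D.sum_nsq u hG,
    ← D.sum_nsq t hF, sub_nonneg] at this

lemma mono (hF : BC F) (hG : BC G) {C : ℝ} (hC : 0 ≤ C) (h : ∀ s, ‖F s‖ ≤ C * ‖G s‖) (α : H) :
    ‖D.fb F α‖ ≤ C * ‖D.fb G α‖ := by
  have := D.sum_sq_le {()} {()} (F := fun _ => F) (G := fun _ s => C * G s) (fun _ _ => hF)
    (fun _ _ => (BC.const _).mul hG) (fun s => by
      simpa [abs_of_nonneg hC] using pow_le_pow_left₀ (norm_nonneg _) (h s) 2) α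
  rw [Finset.sum_singleton, Finset.sum_singleton, D.smul hG, _root_.smul_apply, norm_smul,
    Complex.norm_real, Real.norm_of_nonneg hC] at this
  exact (pow_le_pow_iff_left₀ (norm_nonneg _) (by positivity) two_ne_zero).1 this
lemma norm_le (hF : BC F) {C : ℝ} (h : ∀ s, ‖F s‖ ≤ C) (α : H) : ‖D.fb F α‖ ≤ C * ‖α‖ := by
  simpa [D.one] using D.mono hF (.const 1) ((norm_nonneg _).trans (h 0)) (by simpa using h) α
lemma sum_sq_le' {ι : Type*} (t : Finset ι) {F : ι → ℝ → ℂ} (hF : ∀ i ∈ t, BC (F i)) (hG : BC G)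
    {C : ℝ} (h : ∀ s, ∑ i ∈ t, ‖F i s‖ ^ 2 ≤ C * ‖G s‖ ^ 2) (α : H) :
    ∑ i ∈ t, ‖D.fb (F i) α‖ ^ 2 ≤ C * ‖D.fb G α‖ ^ 2 := by
  have h1 := BC.sum t fun i hi => (hF i hi).cj.mul (hF i hi)
  have h2 := hG.cj.mul hG
  have := D.pos (((BC.const (C : ℂ)).mul h2).sub h1) (fun s => by simp [Complex.conj_mul'])
    (fun s => sub_nonneg.2 (h s)) α
  rwa [D.sub ((BC.const (C : ℂ)).mul h2) h1, _root_.sub_apply, inner_sub_right, Complex.sub_re,
    ← D.sum_nsq t hF, D.smul h2, _root_.smul_apply, inner_smul_right, Complex.re_ofReal_mul,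
    ← D.nsq hG, sub_nonneg] at this

lemma chi_near (α : H) {ε : ℝ} (hε : 0 < ε) :
    ∃ L₀ : ℝ, ∀ L, L₀ ≤ L → ‖α - D.fb (chi L) α‖ ≤ ε := by
  obtain ⟨L₀, h⟩ := D.tight α ε hε
  refine ⟨L₀, fun L hL => ?_⟩
  have := h _ ((BC.const 1).sub (bc_chi L)) (norm_one_sub_chi L) fun s hs => by
    rw [chi_one (hs.trans hL), sub_self]
  rwa [D.sub (.const 1) (bc_chi L), D.one] at this
lemma inj (hF : BC F) (h : ∀ s, F s ≠ 0) {α : H} (h0 : D.fb F α = 0) : α = 0 := by
  refine norm_le_zero_iff.1 (le_of_forall_pos_le_add fun ε hε => ?_)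
  obtain ⟨L, hL⟩ := D.chi_near α hε
  have h1 := D.mul_apply (BC.mul_supp (continuous_chi L) (fun s hs => chi_supp hs)
    (hF.1.inv₀ h)) hF α
  simp only [h0, map_zero, Pi.inv_apply, inv_mul_cancel_right₀ (h _)] at h1
  simpa [← show 0 = D.fb (chi L) α from h1] using hL L le_rfl

/-- Some narrow bump does not kill a given nonzero vector. -/
lemma exists_bump {α : H} (h : α ≠ 0) {w : ℝ} (hw : 0 < w) :
    ∃ (s₁ : ℝ) (F : ℝ → ℂ), BC F ∧ (∀ s, w < |s - s₁| → F s = 0) ∧ D.fb F α ≠ 0 := by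
  by_contra! h0
  let r : ℝ → ℝ → ℝ := fun a s => max 0 (min 1 ((s - a) / w))
  have hr : ∀ a s, 0 ≤ r a s ∧ r a s ≤ 1 := fun a s =>
    ⟨le_max_left _ _, max_le zero_le_one (min_le_left _ _)⟩
  have hb : ∀ a, BC fun s => (r a s : ℂ) := fun a => bc_real (by fun_prop) (hr a)
  have r0 : ∀ a s, s ≤ a → r a s = 0 := fun a s hs => max_eq_left ((min_le_right _ _).trans
    (div_nonpos_of_nonpos_of_nonneg (by linarith) hw.le))
  have r1 : ∀ a s, a + w ≤ s → r a s = 1 := fun a s hs => by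
    simp only [r]
    rw [min_eq_left ((one_le_div hw).2 (by linarith)), max_eq_right zero_le_one]
  have h1 : ∀ a, D.fb (fun s => r a s) α = D.fb (fun s => r (a + w) s) α := fun a => by
    have := h0 (a + w) _ ((hb a).sub (hb (a + w))) fun s hs => by
      rcases lt_abs.1 hs with hs | hs
      · rw [r1 _ _ (by linarith), r1 _ _ (by linarith), sub_self]
      · rw [r0 _ _ (by linarith), r0 _ _ (by linarith), sub_self]
    rwa [D.sub (hb _) (hb _), _root_.sub_apply, sub_eq_zero] at this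
  have h2 : ∀ (n : ℕ) a, D.fb (fun s => r a s) α = D.fb (fun s => r (a + n * w) s) α := fun n => by
    induction n with
    | zero => simp
    | succ n ih => intro a; rw [ih, h1]; simp [add_mul, add_assoc]
  refine h (norm_le_zero_iff.1 (le_of_forall_pos_le_add fun ε hε => ?_))
  obtain ⟨L, hL⟩ := D.tight α ε hε
  obtain ⟨n, hn⟩ := exists_nat_ge ((2 * L + w) / w)
  rw [div_le_iff₀ hw] at hn
  have h3 := hL _ (((BC.const 1).sub (hb (-L - w))).add (hb (-L - w + n * w))) (fun s => by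
      rw [← Complex.ofReal_one, ← Complex.ofReal_sub, ← Complex.ofReal_add, Complex.norm_real,
        Real.norm_of_nonneg (by linarith [hr (-L - w) s, hr (-L - w + n * w) s])]
      have : r (-L - w + n * w) s ≤ r (-L - w) s := by
        simp only [r]
        gcongr
        linarith [show 0 ≤ n * w by positivity]
      linarith) fun s hs => by
    rw [r1 _ _ (by linarith [abs_le.1 hs]), r0 _ _ (by linarith [abs_le.1 hs])]
    simp
  rw [D.add ((BC.const 1).sub (hb _)) (hb _), D.sub (.const 1) (hb _), D.one, _root_.add_apply,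
    _root_.sub_apply, ← h2, sub_add_cancel] at h3
  simpa using h3

lemma U_add (t t' : ℝ) : D.U (t + t') = D.U t * D.U t' := by
  rw [U, U, U, ← D.mul (bc_ex t) (bc_ex t'), ← funext (ex_add t t')]
lemma U_zero : D.U 0 = 1 := by
  rw [U, ← D.one]
  congr 1
  funext s
  simp [ex]
lemma star_U (t : ℝ) : star (D.U t) = D.U (-t) := by rw [U, U, ← D.cj (bc_ex t), funext (conj_ex t)]
lemma U_neg_U (t : ℝ) (α : H) : D.U (-t) (D.U t α) = α := by
  rw [← mul_apply_eq_comp, ← U_add, neg_add_cancel, U_zero]; rfl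
lemma U_U_neg (t : ℝ) (α : H) : D.U t (D.U (-t) α) = α := by
  simpa using D.U_neg_U (-t) α
lemma norm_U (t : ℝ) (α : H) : ‖D.U t α‖ = ‖α‖ := by
  have h : ∀ t α, ‖D.U t α‖ ≤ ‖α‖ := fun t α => by
    simpa [U] using D.norm_le (bc_ex t) (fun s => (norm_ex t s).le) α
  exact (h t α).antisymm (by simpa [U_neg_U] using h (-t) (D.U t α))
lemma inner_U (t : ℝ) (α β : H) : ⟪D.U t α, D.U t β⟫_ℂ = ⟪α, β⟫_ℂ := by
  rw [← ContinuousLinearMap.adjoint_inner_right, ← ContinuousLinearMap.star_eq_adjoint, star_U,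
    U_neg_U]
lemma continuous_U (α : H) : Continuous fun t => D.U t α := by
  refine Metric.continuous_iff.2 fun t ε hε => ?_
  obtain ⟨L₀, hL⟩ := D.chi_near α (show 0 < ε / 4 by positivity)
  set L := max L₀ 0
  have hL0 : 0 ≤ L := le_max_right _ _
  have hp : 0 < (L + 1) * (‖α‖ + 1) := by positivity
  refine ⟨ε / 4 / ((L + 1) * (‖α‖ + 1)), by positivity, fun u hu => ?_⟩
  rw [Real.dist_eq, lt_div_iff₀ hp] at hu
  have h1 := hL L (le_max_left _ _)
  have h2 := D.norm_le (((bc_ex (u - t)).sub (.const 1)).mul (bc_chi L)) (C := |u - t| * (L + 1))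
    (fun s => by
      rcases lt_or_ge (L + 1) |s| with hs | hs
      · rw [chi_supp hs, mul_zero, norm_zero]; positivity
      · rw [← mul_one (|u - t| * _), ex, mul_comm _ Complex.I]
        refine norm_mul_le_of_le (Real.norm_exp_I_mul_ofReal_sub_one_le.trans ?_) (norm_chi L s)
        rw [Real.norm_eq_abs, abs_mul]
        gcongr) α
  rw [← D.mul_apply ((bc_ex _).sub (.const 1)) (bc_chi L), D.sub (bc_ex _) (.const 1), D.one,
    ← U] at h2
  have e : D.U u α - D.U t α = D.U t ((D.U (u - t) - 1) (D.fb (chi L) α) +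
      D.U (u - t) (α - D.fb (chi L) α) - (α - D.fb (chi L) α)) := by
    have : D.U u = D.U t * D.U (u - t) := by rw [← U_add, add_sub_cancel]
    rw [this]
    simp
  rw [dist_eq_norm, e, norm_U]
  refine (norm_sub_le_of_le (norm_add_le_of_le h2 ((D.norm_U _ _).trans_le h1)) h1).trans_lt ?_
  nlinarith [show 0 ≤ |u - t| * (L + 1) by positivity]

end FC

/-- Trigonometric polynomials. -/
inductive Trig : (ℝ → ℂ) → Prop
  | ex (t : ℝ) : Trig (ex t)
  | const (c : ℂ) : Trig fun _ => c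
  | add {F G} : Trig F → Trig G → Trig fun s => F s + G s
  | mul {F G} : Trig F → Trig G → Trig fun s => F s * G s

lemma Trig.bc {F : ℝ → ℂ} (h : Trig F) : BC F := by
  induction h with
  | ex t => exact bc_ex t
  | const c => exact .const c
  | add _ _ h1 h2 => exact h1.add h2
  | mul _ _ h1 h2 => exact h1.mul h2

lemma trig_poly (τ : ℝ) (p : Polynomial ℝ) : Trig fun s => (p.eval (Real.sin (τ * s)) : ℝ) := by
  have h : Trig fun s => (Real.sin (τ * s) : ℝ) := by
    have : (fun s => ((Real.sin (τ * s) : ℝ) : ℂ)) =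
        fun s => Complex.I / 2 * ex (-τ) s + -Complex.I / 2 * ex τ s := funext fun s => by
      rw [Complex.ofReal_sin, Complex.sin, ex, ex, neg_mul τ, Complex.ofReal_neg]
      ring
    rw [this]
    exact ((Trig.const _).mul (.ex _)).add ((Trig.const _).mul (.ex _))
  induction p using Polynomial.induction_on with
  | C a => simpa using Trig.const (a : ℂ)
  | add p q hp hq => simpa using hp.add hq
  | monomial n a hp => simpa [pow_succ, mul_assoc] using hp.mul h

lemma exists_trig {F : ℝ → ℂ} (hF : Continuous F) {C : ℝ} (hC : ∀ s, ‖F s‖ ≤ C) {L δ : ℝ}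
    (hL : 0 < L) (hδ : 0 < δ) : ∃ G, Trig G ∧ (∀ s, ‖G s‖ ≤ C + δ) ∧
      ∀ s, |s| ≤ L → ‖F s - G s‖ ≤ δ := by
  obtain ⟨p, hp⟩ := exists_polynomial_near_of_continuousOn (-1) 1
    (fun x => (F (Real.arcsin x * L)).re) (by fun_prop) _ (half_pos hδ)
  obtain ⟨q, hq⟩ := exists_polynomial_near_of_continuousOn (-1) 1
    (fun x => (F (Real.arcsin x * L)).im) (by fun_prop) _ (half_pos hδ)
  have key : ∀ s, ‖F (Real.arcsin (Real.sin (L⁻¹ * s)) * L) - ((p.eval (Real.sin (L⁻¹ * s)) : ℝ) +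
      Complex.I * (q.eval (Real.sin (L⁻¹ * s)) : ℝ))‖ ≤ δ := fun s => by
    have h1 := hp _ (Real.sin_mem_Icc (L⁻¹ * s))
    have h2 := hq _ (Real.sin_mem_Icc (L⁻¹ * s))
    rw [abs_sub_comm] at h1 h2
    refine (Complex.norm_le_abs_re_add_abs_im _).trans ?_
    simp only [Complex.sub_re, Complex.add_re, Complex.ofReal_re, Complex.mul_re, Complex.I_re,
      Complex.I_im, Complex.ofReal_im, Complex.sub_im, Complex.add_im, Complex.mul_im, zero_mul,
      mul_zero, one_mul, sub_zero, add_zero, zero_add]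
    linarith
  refine ⟨_, (trig_poly L⁻¹ p).add ((Trig.const Complex.I).mul (trig_poly L⁻¹ q)), fun s => ?_,
    fun s hs => ?_⟩
  · exact (norm_le_norm_add_norm_sub _ _).trans (add_le_add (hC _) (key s))
  · have h1 : |L⁻¹ * s| ≤ 1 := by
      rw [abs_mul, abs_of_pos (inv_pos.2 hL)]
      exact inv_mul_le_one_of_le₀ hs hL.le
    have h2 := key s
    rwa [Real.arcsin_sin (by linarith [abs_le.1 h1, Real.one_le_pi_div_two])
      (by linarith [abs_le.1 h1, Real.one_le_pi_div_two]), mul_right_comm,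
      inv_mul_cancel₀ hL.ne', one_mul] at h2

namespace FC

variable (D : FC H) {F : ℝ → ℂ}

lemma approx (hF : BC F) (α β : H) {ε : ℝ} (hε : 0 < ε) : ∃ G, Trig G ∧
    ‖D.fb F α - D.fb G α‖ ≤ ε ∧ ‖D.fb F β - D.fb G β‖ ≤ ε ∧ ‖F 0 - G 0‖ ≤ ε := by
  obtain ⟨C, hC⟩ := hF.2
  have hC0 := (norm_nonneg _).trans (hC 0)
  set δ := min 1 (ε / (2 * C + 2 + ‖α‖ + ‖β‖))
  have hp : 0 < 2 * C + 2 + ‖α‖ + ‖β‖ := by positivity
  have hδ : 0 < δ := lt_min one_pos (by positivity)
  have h1 : δ ≤ 1 := min_le_left _ _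
  have h2 : δ * (2 * C + 2 + ‖α‖ + ‖β‖) ≤ ε := (le_div_iff₀ hp).1 (min_le_right _ _)
  obtain ⟨L₁, hα⟩ := D.chi_near α hδ
  obtain ⟨L₂, hβ⟩ := D.chi_near β hδ
  set L := max (max L₁ L₂) 0
  obtain ⟨G, hG, h3, h4⟩ := exists_trig hF.1 hC (show 0 < L + 1 by positivity) hδ
  have key : ∀ γ, ‖γ - D.fb (chi L) γ‖ ≤ δ →
      ‖D.fb F γ - D.fb G γ‖ ≤ δ * ‖γ‖ + (C + (C + δ)) * δ := fun γ hγ => by
    have h5 := D.norm_le ((hF.sub hG.bc).mul (bc_chi L)) (C := δ) (fun s => by
      rcases lt_or_ge (L + 1) |s| with hs | hs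
      · rw [chi_supp hs, mul_zero, norm_zero]; exact hδ.le
      · exact (norm_mul_le_of_le (h4 s hs) (norm_chi L s)).trans_eq (mul_one _)) γ
    have h6 := D.norm_le (hF.sub hG.bc) (fun s => norm_sub_le_of_le (hC s) (h3 s))
      (γ - D.fb (chi L) γ)
    rw [← D.mul_apply (hF.sub hG.bc) (bc_chi L)] at h5
    have h7 := norm_add_le_of_le h5 (h6.trans (mul_le_mul_of_nonneg_left hγ (by positivity)))
    rwa [← map_add, add_sub_cancel, D.sub hF hG.bc] at h7
  have hα0 := norm_nonneg α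
  have hβ0 := norm_nonneg β
  refine ⟨G, hG, (key α (hα L ?_)).trans (by nlinarith), (key β (hβ L ?_)).trans (by nlinarith),
    (h4 0 (by simp; positivity)).trans (by nlinarith)⟩
  exacts [(le_max_left _ _).trans (le_max_left _ _), (le_max_right _ _).trans (le_max_left _ _)]

lemma commute {X : H →L[ℂ] H} (h : ∀ t, D.U t * X = X * D.U t) (hF : BC F) :
    D.fb F * X = X * D.fb F := by
  have h1 : ∀ G, Trig G → D.fb G * X = X * D.fb G := fun G hG => by
    induction hG with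
    | ex t => exact h t
    | const c => rw [D.const, smul_mul_assoc, mul_smul_comm, one_mul, mul_one]
    | add a b h1 h2 => rw [D.add a.bc b.bc, add_mul, mul_add, h1, h2]
    | mul a b h1 h2 => rw [D.mul a.bc b.bc, mul_assoc, h2, ← mul_assoc, h1, mul_assoc]
  refine ContinuousLinearMap.ext fun α =>
    eq_of_norm_sub_le_zero (le_of_forall_pos_le_add fun ε hε => ?_)
  have hp : 0 < 1 + ‖X‖ := by positivity
  obtain ⟨G, hG, h2, h3, -⟩ := D.approx hF α (X α) (div_pos hε hp)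
  have h4 := (X.le_opNorm _).trans (mul_le_mul_of_nonneg_left h2 (norm_nonneg X))
  rw [map_sub, norm_sub_rev, ← show D.fb G (X α) = X (D.fb G α) from congr($(h1 G hG) α)] at h4
  refine (norm_sub_le_norm_sub_add_norm_sub _ _ _).trans ((add_le_add h3 h4).trans_eq ?_)
  field_simp
  ring

lemma Fix.fb {D : FC H} {β : H} (h : D.Fix β) (hF : BC F) : D.fb F β = F 0 • β := by
  have h1 : ∀ G, Trig G → D.fb G β = G 0 • β := fun G hG => by
    induction hG with
    | ex t => simpa [ex, U] using h t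
    | const c => rw [D.const]; rfl
    | add a b h1 h2 => rw [D.add a.bc b.bc, _root_.add_apply, h1, h2, add_smul]
    | mul a b h1 h2 => rw [← D.mul_apply a.bc b.bc, h2, map_smul, h1, smul_smul, mul_comm]
  refine eq_of_norm_sub_le_zero (le_of_forall_pos_le_add fun ε hε => ?_)
  have hp : 0 < 1 + ‖β‖ := by positivity
  obtain ⟨G, hG, h2, -, h3⟩ := D.approx hF β β (div_pos hε hp)
  have h4 := mul_le_mul_of_nonneg_right h3 (norm_nonneg β)
  rw [norm_sub_rev, ← norm_smul, sub_smul, ← h1 G hG] at h4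
  refine (norm_sub_le_norm_sub_add_norm_sub _ _ _).trans ((add_le_add h2 h4).trans_eq ?_)
  field_simp
  ring

lemma mem_of_inv {K : Submodule ℂ H} (hK : IsClosed (K : Set H)) (h : ∀ t, ∀ α ∈ K, D.U t α ∈ K)
    (hF : BC F) {α : H} (hα : α ∈ K) : D.fb F α ∈ K := by
  have h1 : ∀ G, Trig G → ∀ α ∈ K, D.fb G α ∈ K := fun G hG => by
    induction hG with
    | ex t => exact h t
    | const c => intro α hα; rw [D.const]; exact K.smul_mem c hα
    | add a b h1 h2 => intro α hα; rw [D.add a.bc b.bc]; exact K.add_mem (h1 α hα) (h2 α hα)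
    | mul a b h1 h2 => intro α hα; rw [← D.mul_apply a.bc b.bc]; exact h1 _ (h2 α hα)
  refine hK.closure_subset (Metric.mem_closure_iff.2 fun ε hε => ?_)
  obtain ⟨G, hG, h2, -⟩ := D.approx hF α α (half_pos hε)
  exact ⟨_, h1 G hG α hα, by rw [dist_eq_norm]; linarith⟩

end FC

end Vale.Agent.P132
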