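import Vale.Agent.P132.MinN

/-! Truncation of families. -/

namespace Vale.Agent.P132

open scoped InnerProductSpace ComplexConjugate Topology
open Vale.Agent.P082 Filter

variable {A : Type*} [CStarAlgebra A] [PartialOrder A] [StarOrderedRing A] {H : Type*}
  [NormedAddCommGroup H] [InnerProductSpace ℂ H] [CompleteSpace H] {S : Std A H}

namespace Fm

lemma real_cut {K : ℝ} (hK : 0 < K) (s : ℝ) : √(K / max s K) ≤ 1 ∧
    √(K / max s K) * s * √(K / max s K) ≤ K ∧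
    (1 - √(K / max s K)) * (1 - √(K / max s K)) ≤ (K ^ 2)⁻¹ * ((s - K) * (s - K)) ∧
    (1 - √(K / max s K)) * s * (1 - √(K / max s K)) ≤ K⁻¹ * ((s - K) * (s - K)) := by
  rcases le_total s K with h | h
  · rw [max_eq_right h, div_self hK.ne', Real.sqrt_one]
    refine ⟨le_rfl, by linarith, ?_, ?_⟩ <;> simp only [sub_self, mul_zero] <;>
      exact mul_nonneg (by positivity) (mul_self_nonneg _)
  · rw [max_eq_left h]
    have hs : 0 < s := hK.trans_le h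
    have h1 : K / s ≤ 1 := (div_le_one hs).2 h
    have h2 : √(K / s) ≤ 1 := Real.sqrt_le_one.2 h1
    have h3 : √(K / s) * √(K / s) = K / s := Real.mul_self_sqrt (by positivity)
    have h4 : K / s ≤ √(K / s) := by nlinarith [Real.sqrt_nonneg (K / s)]
    have h5 : K / s * s = K := div_mul_cancel₀ _ hs.ne'
    generalize √(K / s) = r at *
    have h6 : (1 - r) * s ≤ s - K := by nlinarith
    have h7 : (1 - r) * K ≤ s - K := by nlinarith
    have h8 : 0 ≤ (1 - r) * K := mul_nonneg (by linarith) hK.le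
    have h9 : 0 ≤ (1 - r) * s := mul_nonneg (by linarith) hs.le
    refine ⟨h2, by nlinarith, ?_, ?_⟩
    · rw [le_inv_mul_iff₀ (by positivity)]; nlinarith
    · rw [le_inv_mul_iff₀ hK]; nlinarith

lemma exists_g {b : A} (hb : IsSelfAdjoint b) {K : ℝ} (hK : 0 < K) : ∃ g : A, 0 ≤ g ∧ g ≤ 1 ∧
    (∀ f, b * f = f * b → g * f = f * g) ∧ g * b * g ≤ K • (1 : A) ∧
    (1 - g) * (1 - g) ≤ (K ^ 2)⁻¹ • ((b - K • 1) * (b - K • 1)) ∧
    (1 - g) * b * (1 - g) ≤ K⁻¹ • ((b - K • 1) * (b - K • 1)) := by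
  obtain ⟨G, hG⟩ : ∃ G : ℝ → ℝ, G = fun s => √(K / max s K) := ⟨_, rfl⟩
  have hc : Continuous G := by
    rw [hG]
    exact (continuous_const.div (by fun_prop) fun s => (hK.trans_le (le_max_right _ _)).ne').sqrt
  have h := real_cut hK
  have hG' : ∀ s, √(K / max s K) = G s := fun s => by rw [hG]
  simp only [hG'] at h
  have e0 : cfc (fun _ : ℝ => K) b = K • (1 : A) := by
    rw [cfc_const K b, Algebra.algebraMap_eq_smul_one]
  have e1 : cfc (fun s => 1 - G s) b = 1 - cfc G b := by rw [cfc_sub .., cfc_const_one ℝ b]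
  have e2 : cfc (fun s => s - K) b = b - K • 1 := by rw [cfc_sub .., cfc_id' ℝ b, e0]
  refine ⟨cfc G b, cfc_nonneg fun s _ => hG' s ▸ Real.sqrt_nonneg _, cfc_le_one _ _ fun s _ => (h s).1,
    fun f hf => Commute.cfc_real hf G, ?_, ?_, ?_⟩
  · have := cfc_mono (a := b) (f := fun s => G s * s * G s) (g := fun _ => K)
      fun s _ => (h s).2.1
    rwa [cfc_mul .., cfc_mul .., cfc_id' ℝ b, e0] at this
  · have := cfc_mono (a := b) (f := fun s => (1 - G s) * (1 - G s))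
      (g := fun s => (K ^ 2)⁻¹ * ((s - K) * (s - K))) fun s _ => (h s).2.2.1
    rwa [cfc_mul .., cfc_const_mul .., cfc_mul .., e1, e2] at this
  · have := cfc_mono (a := b) (f := fun s => (1 - G s) * s * (1 - G s))
      (g := fun s => K⁻¹ * ((s - K) * (s - K))) fun s _ => (h s).2.2.2
    rwa [cfc_mul .., cfc_mul .., cfc_const_mul .., cfc_mul .., cfc_id' ℝ b, e1, e2] at this

lemma re_le {a d : A} (hd : IsSelfAdjoint d) {r : ℝ} (h : a ≤ r • (d * d)) (α : H) :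
    (⟪α, S.π a α⟫_ℂ).re ≤ r * ‖S.π d α‖ ^ 2 := by
  refine (S.re_mono h α).trans_eq ?_
  rw [Mn.π_rsmul, inner_smul_right, Complex.re_ofReal_mul, S.norm_sq, hd.star_eq]

lemma norm_le_one {g : A} (h0 : 0 ≤ g) (h1 : g ≤ 1) (α : H) : ‖S.π g α‖ ≤ ‖α‖ :=
  (S.norm_apply_le g α).trans (mul_le_of_le_one_left (norm_nonneg _)
    ((CStarAlgebra.norm_le_one_iff_of_nonneg g h0).2 h1))

omit [CompleteSpace H] [InnerProductSpace ℂ H] in
lemma sq_sub_le (x y : H) : ‖x - y‖ ^ 2 ≤ 2 * ‖x‖ ^ 2 + 2 * ‖y‖ ^ 2 := by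
  have := pow_le_pow_left₀ (norm_nonneg _) (norm_sub_le x y) 2
  nlinarith [sq_nonneg (‖x‖ - ‖y‖)]

omit [CompleteSpace H] [InnerProductSpace ℂ H] in
lemma sq_add_le (x y : H) : ‖x + y‖ ^ 2 ≤ 2 * ‖x‖ ^ 2 + 2 * ‖y‖ ^ 2 := by
  simpa using sq_sub_le x (-y)

lemma left_est (D : MD S) {c : ℝ} {ι : Type} [Fintype ι] {w : ι → A} {b k : A} (h0 : 0 ≤ k)
    (h1 : k ≤ 1) (hb : ∑ i, w i * star (w i) ≤ b) (hs : IsSelfAdjoint b) :
    c ^ 2 * ∑ i, ‖S.π (k * w i) S.ξ‖ ^ 2 ≤ 2 * (‖S.π k S.ξ‖ * ‖S.π b S.ξ‖) + 2 * D.cost c w := by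
  have h2 : ∑ i, ‖D.ρ (w i) (S.π k S.ξ)‖ ^ 2 ≤ ‖S.π k S.ξ‖ * ‖S.π b S.ξ‖ := by
    rw [D.col_eq]
    refine (D.re_mono hb _).trans ?_
    rw [← D.π_ρ, ← S.inner_star_left, h0.isSelfAdjoint.star_eq]
    refine (re_inner_le_norm (𝕜 := ℂ) _ _).trans ?_
    rw [D.norm_ρ_ξ, hs.star_eq]
    gcongr
    exact norm_le_one h0 h1 _
  unfold MD.cost
  refine le_trans ?_ (add_le_add (mul_le_mul_of_nonneg_left h2 zero_le_two) le_rfl)
  simp only [Finset.mul_sum, ← Finset.sum_add_distrib]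
  refine Finset.sum_le_sum fun i _ => ?_
  have e : (c : ℂ) • S.π (k * w i) S.ξ =
      D.ρ (w i) (S.π k S.ξ) - S.π k (D.ρ (w i) S.ξ - (c : ℂ) • S.π (w i) S.ξ) := by
    rw [map_sub, map_smul, D.π_ρ, S.mul_apply, sub_sub_cancel]
  have h3 := sq_sub_le (D.ρ (w i) (S.π k S.ξ)) (S.π k (D.ρ (w i) S.ξ - (c : ℂ) • S.π (w i) S.ξ))
  rw [← e, norm_smul, mul_pow, Complex.norm_real, Real.norm_eq_abs, sq_abs] at h3
  have h4 := pow_le_pow_left₀ (norm_nonneg _)
    (norm_le_one (S := S) h0 h1 (D.ρ (w i) S.ξ - (c : ℂ) • S.π (w i) S.ξ)) 2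
  linarith

omit [StarOrderedRing A] in
lemma perturb (D : MD S) {c κ : ℝ} (hκ : 0 < κ) {ι : Type} [Fintype ι] {w v : ι → A}
    (h1 : ∑ i, ‖S.π (w i) S.ξ‖ ^ 2 = 1) (h2 : D.cost c w ≤ κ ^ 2)
    (h3 : ∑ i, ‖S.π (w i - v i) S.ξ‖ ^ 2 ≤ κ ^ 2) (h4 : ∑ i, ‖D.ρ (w i - v i) S.ξ‖ ^ 2 ≤ κ ^ 2) :
    1 - 2 * κ ≤ ∑ i, ‖S.π (v i) S.ξ‖ ^ 2 ∧ ∑ i, ‖S.π (v i) S.ξ‖ ^ 2 ≤ (1 + κ) ^ 2 ∧
      D.cost c v ≤ (6 + 4 * c ^ 2) * κ ^ 2 := by
  have e : ∀ i, ‖S.π (v i) S.ξ - ((1 : ℝ) : ℂ) • S.π (w i) S.ξ‖ = ‖S.π (w i - v i) S.ξ‖ :=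
    fun i => by rw [Complex.ofReal_one, one_smul, map_sub, _root_.sub_apply, norm_sub_rev]
  have h5 := Finset.sum_le_sum fun i (_ : i ∈ Finset.univ) =>
    (Mn.sq_bounds (S.π (v i) S.ξ) (S.π (w i) S.ξ) zero_le_one hκ).1
  have h6 := Finset.sum_le_sum fun i (_ : i ∈ Finset.univ) =>
    (Mn.sq_bounds (S.π (v i) S.ξ) (S.π (w i) S.ξ) zero_le_one hκ).2
  simp only [Finset.sum_add_distrib, Finset.sum_sub_distrib, ← Finset.mul_sum, ← Finset.sum_div,
    h1, e] at h5 h6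
  have h7 : (∑ i, ‖S.π (w i - v i) S.ξ‖ ^ 2) / κ ≤ κ := by rw [div_le_iff₀ hκ]; linarith
  refine ⟨by linarith, by nlinarith, ?_⟩
  have h8 : D.cost c v ≤ 2 * D.cost c w + (4 * ∑ i, ‖D.ρ (w i - v i) S.ξ‖ ^ 2 +
      4 * c ^ 2 * ∑ i, ‖S.π (w i - v i) S.ξ‖ ^ 2) := by
    unfold MD.cost
    simp only [Finset.mul_sum, ← Finset.sum_add_distrib]
    refine Finset.sum_le_sum fun i _ => ?_
    have e1 : D.ρ (v i) S.ξ - (c : ℂ) • S.π (v i) S.ξ = (D.ρ (w i) S.ξ - (c : ℂ) • S.π (w i) S.ξ) -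
        (D.ρ (w i - v i) S.ξ - (c : ℂ) • S.π (w i - v i) S.ξ) := by
      rw [D.ρ_sub, map_sub, _root_.sub_apply, _root_.sub_apply, smul_sub]; abel
    have a1 := sq_sub_le (D.ρ (w i - v i) S.ξ) ((c : ℂ) • S.π (w i - v i) S.ξ)
    rw [norm_smul, mul_pow, Complex.norm_real, Real.norm_eq_abs, sq_abs] at a1
    rw [e1]
    exact (sq_sub_le _ _).trans (by linarith)
  nlinarith [sq_nonneg c]

lemma exists_kappa (c : ℝ) {ε : ℝ} (hε : 0 < ε) :
    ∃ κ : ℝ, 0 < κ ∧ (1 + κ) ^ 2 ≤ 1 + ε ∧ (6 + 4 * c ^ 2) * κ ^ 2 ≤ ε := by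
  have c1 : ∀ᶠ κ in 𝓝 (0 : ℝ), (1 + κ) ^ 2 < 1 + ε :=
    ContinuousAt.eventually_lt (by fun_prop) (by fun_prop) (by simpa using hε)
  have c2 : ∀ᶠ κ in 𝓝 (0 : ℝ), (6 + 4 * c ^ 2) * κ ^ 2 < ε :=
    ContinuousAt.eventually_lt (by fun_prop) (by fun_prop) (by simpa using hε)
  obtain ⟨κ, ⟨k1, k2⟩, hκ⟩ := (((c1.and c2).filter_mono nhdsWithin_le_nhds).and
    (self_mem_nhdsWithin (s := Set.Ioi (0 : ℝ)))).exists
  exact ⟨κ, hκ, k1.le, k2.le⟩

omit [PartialOrder A] [StarOrderedRing A] in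
lemma cor_left {e f y : A} (hf : IsStarProjection f) (h : f * y * e = y) : f * y = y := by
  rw [← h, ← mul_assoc, ← mul_assoc, hf.isIdempotentElem.eq]

omit [PartialOrder A] [StarOrderedRing A] in
lemma cor_right {e f y : A} (he : IsStarProjection e) (h : f * y * e = y) : y * e = y := by
  rw [← h, mul_assoc, he.isIdempotentElem.eq]

omit [PartialOrder A] [StarOrderedRing A] in
lemma proj_swap {e e' : A} (he : IsStarProjection e) (he' : IsStarProjection e') (h : e * e' = e') :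
    e' * e = e' := by
  simpa only [star_mul, he.isSelfAdjoint.star_eq, he'.isSelfAdjoint.star_eq] using congrArg star h

lemma conj_le {g : A} (h0 : 0 ≤ g) (h1 : g ≤ 1) (x : A) : star (g * x) * (g * x) ≤ star x * x := by
  have h2 : g * g ≤ 1 := by
    have := (CStarAlgebra.norm_le_one_iff_of_nonneg g h0).2 h1
    refine (CStarAlgebra.norm_le_one_iff_of_nonneg _ ?_).1 ((norm_mul_le _ _).trans ?_)
    · simpa only [h0.isSelfAdjoint.star_eq] using star_mul_self_nonneg g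
    · nlinarith [norm_nonneg g]
  have := star_left_conjugate_le_conjugate h2 x
  rwa [mul_one, star_mul, h0.isSelfAdjoint.star_eq, mul_assoc, ← mul_assoc g, ← mul_assoc] at *

end Fm

open Fm in
theorem cut_left (D : MD S) {c K ε : ℝ} (hc : 0 < c) (hK : 0 < K) (hε : 0 < ε) :
    ∃ δ : ℝ, 0 < δ ∧ ∀ (ι : Type) [Fintype ι] (w : ι → A) (f b : A), IsStarProjection f →
      ∑ i, w i * star (w i) ≤ b → f * b = b → D.cost c w ≤ δ → ‖S.π (b - K • f) S.ξ‖ ≤ δ →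
      ∃ g : A, 0 ≤ g ∧ g ≤ 1 ∧ g * f = f * g ∧ ∑ i, g * w i * star (g * w i) ≤ K • f ∧
        ∑ i, ‖S.π (w i - g * w i) S.ξ‖ ^ 2 ≤ ε ∧ ∑ i, ‖D.ρ (w i - g * w i) S.ξ‖ ^ 2 ≤ ε := by
  have c1 : ∀ᶠ δ in 𝓝 (0 : ℝ), K⁻¹ * δ ^ 2 < ε :=
    ContinuousAt.eventually_lt (by fun_prop) (by fun_prop) (by simpa using hε)
  have c2 : ∀ᶠ δ in 𝓝 (0 : ℝ), 2 * (K⁻¹ * δ * (δ + K)) + 2 * δ < c ^ 2 * ε :=
    ContinuousAt.eventually_lt (by fun_prop) (by fun_prop) (by simp; positivity)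
  obtain ⟨δ, ⟨k1, k2⟩, hδ⟩ := (((c1.and c2).filter_mono nhdsWithin_le_nhds).and
    (self_mem_nhdsWithin (s := Set.Ioi (0 : ℝ)))).exists
  replace hδ : 0 < δ := hδ
  refine ⟨δ, hδ, fun ι _ w f b hf hb hfb h1 h2 => ?_⟩
  have b0 : 0 ≤ b := (Finset.sum_nonneg fun i _ => mul_star_self_nonneg _).trans hb
  have hbf : b * f = b := by
    simpa only [star_mul, hf.isSelfAdjoint.star_eq, b0.isSelfAdjoint.star_eq] using
      congrArg star hfb
  have ff := hf.isIdempotentElem.eq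
  have b1 : b ≤ b + K • (1 - f) := le_add_of_nonneg_right (smul_nonneg hK.le hf.one_sub_nonneg)
  obtain ⟨g, g0, g1, g2, g3, g4, g5⟩ := exists_g (b0.trans b1).isSelfAdjoint hK
  have e : b + K • (1 - f) - K • 1 = b - K • f := by rw [smul_sub]; abel
  have hd : IsSelfAdjoint (b - K • f) := b0.isSelfAdjoint.sub ((IsSelfAdjoint.all K).smul hf.isSelfAdjoint)
  rw [e] at g4 g5
  have gf : g * f = f * g := g2 f (by simp [add_mul, mul_add, sub_mul, mul_sub, hbf, hfb, ff])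
  have k0 : 0 ≤ 1 - g := sub_nonneg.2 g1
  have e1 : ∀ i, w i - g * w i = (1 - g) * w i := fun i => by rw [sub_mul, one_mul]
  have e2 : ∀ {k : A}, 0 ≤ k → ∑ i, k * w i * star (k * w i) ≤ k * b * k := fun {k} hk => by
    refine le_trans (le_of_eq ?_) (hk.isSelfAdjoint.conjugate_le_conjugate hb)
    simp only [star_mul, hk.isSelfAdjoint.star_eq, Finset.mul_sum, Finset.sum_mul, mul_assoc]
  refine ⟨g, g0, g1, gf, (e2 g0).trans ?_, ?_, ?_⟩
  · refine le_trans (le_of_eq ?_) ((hf.isSelfAdjoint.conjugate_le_conjugate g3).trans_eq ?_)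
    · have e3 : f * (b + K • (1 - f)) * f = b := by
        simp [add_mul, mul_add, sub_mul, mul_sub, hbf, hfb, ff]
      calc g * b * g = g * (f * (b + K • (1 - f)) * f) * g := by rw [e3]
        _ = g * f * (b + K • (1 - f)) * (f * g) := by simp only [mul_assoc]
        _ = f * g * (b + K • (1 - f)) * (g * f) := by rw [gf]
        _ = _ := by simp only [mul_assoc]
    · simp [ff]
  · simp only [e1]
    have h3 := left_est D (c := c) k0 (sub_le_self _ g0) hb b0.isSelfAdjoint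
    have h4 : ‖S.π (1 - g) S.ξ‖ ≤ K⁻¹ * δ := by
      refine abs_le_of_sq_le_sq' ?_ (by positivity) |>.2
      rw [S.norm_sq, k0.isSelfAdjoint.star_eq, mul_pow, inv_pow]
      exact (re_le hd g4 _).trans (by gcongr)
    have h5 : ‖S.π b S.ξ‖ ≤ δ + K := by
      have := norm_le_one (S := S) hf.nonneg hf.le_one S.ξ
      rw [← sub_add_cancel b (K • f), map_add, _root_.add_apply, Mn.π_rsmul]
      refine (norm_add_le _ _).trans (add_le_add h2 ?_)
      rw [norm_smul, Complex.norm_real, Real.norm_of_nonneg hK.le]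
      exact mul_le_of_le_one_right hK.le (this.trans S.norm_ξ.le)
    have h6 := mul_le_mul h4 h5 (norm_nonneg _) (by positivity)
    exact le_of_mul_le_mul_left (by linarith) (pow_pos hc 2)
  · simp only [e1, D.norm_ρ_ξ]
    rw [S.col_eq]
    simp only [star_star]
    refine (re_le hd (((e2 k0).trans (k0.isSelfAdjoint.conjugate_le_conjugate b1)).trans g5)
      _).trans (le_trans ?_ k1.le)
    gcongr

open Fm in
theorem famL {D : MD S} (h : D.H1) {e : A} (he : D.IP e) {c ε : ℝ} (hc : 0 < c) (hε : 0 < ε) :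
    ∃ (ι : Type) (_ : Fintype ι) (w : ι → A), D.GoodL e e c ε w := by
  obtain ⟨κ, hκ, k1, k2⟩ := exists_kappa c hε
  obtain ⟨δ, hδ, H⟩ := cut_left D hc (div_pos (pow_pos hc 2) (pow_pos he.pos 2)) (pow_pos hκ 2)
  obtain ⟨ι, _, w, h1, h2, h3, h4, -⟩ := minN False he he hc (fun κ hκ e' f' _ hf' _ hff => by
    obtain ⟨y, hy, hy'⟩ := h f' hf' c κ hc hκ
    refine ⟨y, ?_, cor_left hf'.1 hy, False.elim, hy'⟩
    rw [← hy, ← mul_assoc, ← mul_assoc, hff, mul_assoc, proj_swap he.1 hf'.1 hff])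
    (lt_min hδ (pow_pos hκ 2))
  obtain ⟨g, -, -, g2, g3, g4, g5⟩ := H ι w e _ he.1 le_rfl
    (by simp only [Finset.mul_sum, ← mul_assoc, fun i => cor_left he.1 (h1 i)])
    (h3.trans (min_le_left _ _)) (h4.trans (min_le_left _ _))
  obtain ⟨p1, p2, p3⟩ := perturb D hκ h2 (h3.trans (min_le_right _ _)) g4 g5
  refine ⟨ι, inferInstance, fun i => g * w i, fun i => ?_, g3, by nlinarith, p2.trans k1,
    p3.trans k2⟩
  rw [← mul_assoc, ← g2, mul_assoc g, mul_assoc g, h1]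

open Fm in
theorem h3_of_h2 {D : MD S} (h : D.H2) : D.H3 := by
  intro e f he hf c ε hc hε
  obtain ⟨κ, hκ, k1, k2⟩ := exists_kappa c hε
  obtain ⟨δ1, hδ1, H1⟩ := cut_left D (inv_pos.2 hc) (inv_pos.2 (pow_pos he.pos 2))
    (show 0 < κ ^ 2 / 4 by positivity)
  obtain ⟨κ1, hκ1, -, k3⟩ := exists_kappa c (lt_min (show 0 < κ ^ 2 by positivity)
    (mul_pos (pow_pos hc 2) hδ1))
  obtain ⟨δ2, hδ2, H2⟩ := cut_left D hc (div_pos (pow_pos hc 2) (pow_pos hf.pos 2)) (pow_pos hκ1 2)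
  obtain ⟨ι, _, w, h1, h2, h3, h4, h5⟩ := minN True he hf hc (fun κ hκ e' f' he' hf' hee hff => by
    obtain ⟨y, hy, hy'⟩ := h e' f' he' hf' c κ hc hκ
    refine ⟨y, ?_, cor_left hf'.1 hy, fun _ => cor_right he'.1 hy, hy'⟩
    rw [← hy, ← mul_assoc, ← mul_assoc, hff, mul_assoc, proj_swap he.1 he'.1 hee])
    (lt_min hδ2 (lt_min hδ1 (pow_pos hκ1 2)))
  obtain ⟨g, g0, g1, g2, g3, g4, g5⟩ := H2 ι w f _ hf.1 le_rfl
    (by simp only [Finset.mul_sum, ← mul_assoc, fun i => cor_left hf.1 (h1 i)])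
    (h3.trans (min_le_left _ _)) (h4.trans (min_le_left _ _))
  have h6 := h3.trans ((min_le_right _ _).trans (min_le_right _ _))
  obtain ⟨-, -, p3⟩ := perturb D hκ1 h2 h6 g4 g5
  have k4 := k3.trans (min_le_left _ _)
  have k5 : κ1 ^ 2 ≤ κ ^ 2 / 4 := by nlinarith [sq_nonneg c, sq_nonneg κ1]
  have e1 : ∀ i, e * star (w i) = star (w i) := fun i => by
    rw [← he.1.isSelfAdjoint.star_eq, ← star_mul, cor_right he.1 (h1 i)]
  obtain ⟨k, l0, l1, l2, l3, l4, l5⟩ := H1 ι (fun i => star (g * w i)) e (∑ i, star (w i) * w i)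
    he.1 (Finset.sum_le_sum fun i _ => by rw [star_star]; exact conj_le g0 g1 _)
    (by simp only [Finset.mul_sum, ← mul_assoc, e1]) (by
      refine le_of_mul_le_mul_left (le_trans (le_of_eq ?_)
        (p3.trans (k3.trans (min_le_right _ _)))) (pow_pos hc 2)
      unfold MD.cost
      rw [Finset.mul_sum]
      refine Finset.sum_congr rfl fun i _ => ?_
      have e0 : ∀ x y : H, c * ‖x - ((c⁻¹ : ℝ) : ℂ) • y‖ = ‖y - (c : ℂ) • x‖ := fun x y => by
        nth_rw 1 [← Real.norm_of_nonneg hc.le]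
        rw [← Complex.norm_real, ← norm_smul, smul_sub, smul_smul, ← Complex.ofReal_mul,
          mul_inv_cancel₀ hc.ne', Complex.ofReal_one, one_smul, norm_sub_rev]
      rw [← mul_pow, e0, D.norm_def_star])
    ((h5 trivial).trans ((min_le_right _ _).trans (min_le_left _ _)))
  have e2 : ∀ i, w i - star (k * star (g * w i)) =
      (w i - g * w i) + star (star (g * w i) - k * star (g * w i)) := fun i => by
    rw [star_sub, star_star]; abel
  obtain ⟨q1, q2, q3⟩ := perturb D (v := fun i => star (k * star (g * w i))) hκ h2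
    (h6.trans (by linarith [sq_nonneg κ])) (by
      simp only [e2, map_add, _root_.add_apply]
      refine (Finset.sum_le_sum fun i _ => sq_add_le _ _).trans ?_
      simp only [Finset.sum_add_distrib, ← Finset.mul_sum, ← D.norm_ρ_ξ]
      linarith) (by
      simp only [e2, D.ρ_add, _root_.add_apply]
      refine (Finset.sum_le_sum fun i _ => sq_add_le _ _).trans ?_
      simp only [Finset.sum_add_distrib, ← Finset.mul_sum, D.norm_ρ_ξ (star _), star_star]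
      linarith)
  refine ⟨ι, inferInstance, fun i => star (k * star (g * w i)), ⟨fun i => ?_,
    (Finset.sum_le_sum fun i _ => ?_).trans g3, by nlinarith, q2.trans k1, q3.trans k2⟩, ?_⟩
  · rw [star_mul, star_star, l0.isSelfAdjoint.star_eq, mul_assoc, mul_assoc, l2, ← mul_assoc,
      ← mul_assoc, ← mul_assoc, ← g2, mul_assoc g, mul_assoc g, h1]
  · simpa only [star_star] using conj_le l0 l1 (star (g * w i))
  · simpa only [star_star] using l3

end Vale.Agent.P132
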