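import Vale.Agent.P132.ApiP

/-! Basic consequences of the modular data. -/

namespace Vale.Agent.P132

open scoped InnerProductSpace ComplexConjugate Topology
open Vale.Agent.P082 Filter

variable {A : Type*} [CStarAlgebra A] {H : Type*}
  [NormedAddCommGroup H] [InnerProductSpace ℂ H] [CompleteSpace H] {S : Std A H}

namespace MD

variable (D : MD S) {F : ℝ → ℂ}

lemma π_ρ (a b : A) (α : H) : S.π a (D.ρ b α) = D.ρ b (S.π a α) :=
  (D.comm (star b) a α).symm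
lemma π_mul_ρ (a b : A) : S.π a * D.ρ b = D.ρ b * S.π a :=
  ContinuousLinearMap.ext (D.π_ρ a b)

lemma π_choose (t : ℝ) (a : A) : S.π (D.inv t a).choose = D.U t * S.π a * D.U (-t) :=
  (D.inv t a).choose_spec

lemma U_mul_neg (t : ℝ) : D.U t * D.U (-t) = 1 := by
  rw [← D.toFC.U_add, add_neg_cancel, D.toFC.U_zero]

lemma neg_mul_U (t : ℝ) : D.U (-t) * D.U t = 1 := by
  rw [← D.toFC.U_add, neg_add_cancel, D.toFC.U_zero]

/-- The modular automorphisms. -/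
noncomputable def σ (t : ℝ) : A →⋆ₐ[ℂ] A where
  toFun a := (D.inv t a).choose
  map_one' := S.inj (by rw [π_choose, map_one, mul_one, U_mul_neg])
  map_mul' a b := S.inj (by
    rw [π_choose, map_mul, map_mul, π_choose, π_choose]
    simp only [mul_assoc]
    rw [← mul_assoc (D.U (-t)), neg_mul_U, one_mul])
  map_zero' := S.inj (by rw [π_choose, map_zero, mul_zero, zero_mul])
  map_add' a b := S.inj (by
    rw [π_choose, map_add, map_add, π_choose, π_choose, mul_add, add_mul])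
  commutes' c := S.inj (by
    rw [π_choose, Algebra.algebraMap_eq_smul_one, map_smul, map_one, mul_smul_comm, smul_mul_assoc,
      mul_one, U_mul_neg])
  map_star' a := S.inj (by
    rw [π_choose, map_star, map_star, π_choose]
    simp only [star_mul, D.toFC.star_U, neg_neg, mul_assoc])

lemma π_σ' (t : ℝ) (a : A) : S.π (D.σ t a) = D.U t * S.π a * D.U (-t) := D.π_choose t a

lemma π_σ (t : ℝ) (a : A) (α : H) : S.π (D.σ t a) α = D.U t (S.π a (D.U (-t) α)) := by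
  rw [π_σ']; rfl
lemma ρ_σ (t : ℝ) (a : A) (α : H) : D.ρ (D.σ t a) α = D.U t (D.ρ a (D.U (-t) α)) := by
  rw [PM.ρ_apply, PM.ρ_apply, ← map_star, π_σ, D.J_U, D.J_U]
lemma π_σ_ξ (t : ℝ) (a : A) : S.π (D.σ t a) S.ξ = D.U t (S.π a S.ξ) := by
  rw [π_σ, D.U_ξ]
lemma ρ_σ_ξ (t : ℝ) (a : A) : D.ρ (D.σ t a) S.ξ = D.U t (D.ρ a S.ξ) := by
  rw [ρ_σ, D.U_ξ]

lemma σ_σ_neg (t : ℝ) (a : A) : D.σ t (D.σ (-t) a) = a := S.ext' fun α => by
  rw [π_σ, π_σ, neg_neg, D.toFC.U_U_neg, D.toFC.U_U_neg]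

variable {D} {a b e : A}

lemma inv_iff : D.Inv a ↔ ∀ t, D.σ t a = a := by
  refine forall_congr' fun t => ⟨fun h => S.inj ?_, fun h => ?_⟩
  · rw [π_σ', h, mul_assoc, U_mul_neg, mul_one]
  · nth_rw 2 [← h]
    rw [π_σ', mul_assoc, neg_mul_U, mul_one]
lemma inv_iff_fix : D.Inv a ↔ D.Fix (S.π a S.ξ) := by
  rw [inv_iff]
  refine forall_congr' fun t => ⟨fun h => by rw [← π_σ_ξ, h], fun h => ?_⟩
  refine sub_eq_zero.1 (S.sep _ ?_)
  rw [map_sub, _root_.sub_apply, π_σ_ξ, h, sub_self]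
lemma inv_one : D.Inv 1 := fun t => by rw [map_one, mul_one, one_mul]
lemma Inv.sub (h : D.Inv a) (h' : D.Inv b) : D.Inv (a - b) := fun t => by
  rw [map_sub, mul_sub, sub_mul, h t, h' t]
lemma Inv.rsmul (h : D.Inv a) (c : ℝ) : D.Inv (c • a) := fun t => by
  rw [← Complex.coe_smul, map_smul, mul_smul_comm, smul_mul_assoc, h t]
lemma Inv.ρ_ξ (h : D.Inv a) : D.ρ a S.ξ = S.π a S.ξ := by
  have h1 := inv_iff_fix.1 h
  refine sub_eq_zero.1 (D.toFC.inj bc_qq qq_ne ?_)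
  rw [map_sub, D.ρ_ξ, D.gr1, h1.fb bc_rr, h1.fb bc_qq, rr_eq]
  simp [EE]
lemma Inv.U_ρ (h : D.Inv a) (t : ℝ) : D.U t * D.ρ a = D.ρ a * D.U t :=
  ContinuousLinearMap.ext fun α => by
    have := D.ρ_σ t a (D.U t α)
    rw [inv_iff.1 h, D.toFC.U_neg_U] at this
    exact this.symm
lemma Inv.fb_π (h : D.Inv a) (hF : BC F) (α : H) : D.fb F (S.π a α) = S.π a (D.fb F α) :=
  congr($(D.toFC.commute h hF) α)
lemma Inv.fb_ρ (h : D.Inv a) (hF : BC F) (α : H) : D.fb F (D.ρ a α) = D.ρ a (D.fb F α) :=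
  congr($(D.toFC.commute h.U_ρ hF) α)
/-- Compression to a corner, left vectors. -/
lemma Inv.π_cor (h : D.Inv e) (f a : A) :
    S.π (f * a * e) S.ξ = S.π f (D.ρ e (S.π a S.ξ)) := by
  rw [mul_assoc, S.mul_apply, S.mul_apply, ← h.ρ_ξ, π_ρ]
/-- Compression to a corner, right vectors. -/
lemma Inv.ρ_cor {f : A} (h : D.Inv f) (e a : A) :
    D.ρ (f * a * e) S.ξ = S.π f (D.ρ e (D.ρ a S.ξ)) := by
  rw [D.ρ_mul_apply, D.ρ_mul_apply, h.ρ_ξ, π_ρ, π_ρ]
lemma ip_one : D.IP 1 := by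
  refine ⟨.one _, fun h => ?_, inv_one⟩
  have h1 : S.π 1 S.ξ = 0 := by rw [h, map_zero]; rfl
  have h2 := S.norm_ξ
  rw [map_one, one_apply_eq_self] at h1
  rw [h1, norm_zero] at h2
  exact zero_ne_one h2
lemma IP.pos (h : D.IP e) : 0 < ‖S.π e S.ξ‖ := norm_pos_iff.2 fun h0 => h.2.1 (S.sep _ h0)
lemma IP.inner_ξ (h : D.IP e) : ⟪S.ξ, S.π e S.ξ⟫_ℂ = (‖S.π e S.ξ‖ ^ 2 : ℝ) := by
  have h1 := S.inner_star_right e S.ξ (S.π e S.ξ)
  rw [← S.mul_apply, h.1.isSelfAdjoint.star_eq, h.1.isIdempotentElem.eq,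
    inner_self_eq_norm_sq_to_K] at h1
  rw [h1]
  norm_cast

variable [PartialOrder A] [StarOrderedRing A]

lemma Inv.pair_nonneg (h : D.Inv a) (h0 : 0 ≤ a) (h1 : 0 ≤ b) :
    0 ≤ (⟪S.π a S.ξ, S.π b S.ξ⟫_ℂ).re := by
  obtain ⟨r, hr⟩ : ∃ r, a = r * star r :=
    ⟨CFC.sqrt a, by rw [(CFC.sqrt_nonneg a).isSelfAdjoint.star_eq, CFC.sqrt_mul_sqrt_self a h0]⟩
  rw [← h.ρ_ξ, hr, D.ρ_mul_apply, D.inner_ρ_left, ← π_ρ]
  exact (Rep.nonneg_iff.1 h1).2 _
lemma σ_mono (t : ℝ) (h : a ≤ b) : D.σ t a ≤ D.σ t b := OrderHomClass.mono (D.σ t) h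

open scoped CStarAlgebra in
lemma cut_le {δ : ℝ} (ha : 0 ≤ a) (he : IsStarProjection e)
    (h1 : ∀ y, y * (a - δ • 1)⁺ = 0 ↔ y * e = 0) :
    a - δ • e = (a - δ • 1)⁺ + (1 - e) * a * (1 - e) := by
  set b := a - δ • (1 : A) with hb
  have hs : IsSelfAdjoint b := ha.isSelfAdjoint.sub ((IsSelfAdjoint.all δ).smul (.one _))
  have e1 : b⁻ * e = 0 := (h1 _).1 (CFC.negPart_mul_posPart b)
  have e2 : e * b⁺ = b⁺ := by
    have := (h1 (1 - e)).2 he.isIdempotentElem.one_sub_mul_self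
    rwa [sub_mul, one_mul, sub_eq_zero, eq_comm] at this
  have e4 : e * b⁻ = 0 := by
    simpa [he.isSelfAdjoint.star_eq, (CFC.negPart_nonneg b).isSelfAdjoint.star_eq] using
      congrArg star e1
  have e6 : a = b⁺ - b⁻ + δ • 1 := by rw [CFC.posPart_sub_negPart b hs, hb]; abel
  clear_value b
  rw [e6]
  simp only [mul_add, add_mul, mul_sub, sub_mul, one_mul, mul_one, e1, e2, e4, mul_smul_comm,
    smul_mul_assoc, he.isIdempotentElem.eq, zero_mul, sub_self, smul_sub]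
  abel

open scoped CStarAlgebra in
/-- Invariant spectral cuts. -/
lemma Inv.exists_cut (h : D.Inv a) (h0 : 0 ≤ a) (h1 : a ≠ 0) :
    ∃ (δ : ℝ) (e : A), 0 < δ ∧ D.IP e ∧ δ • e ≤ a := by
  have hp : 0 < ‖a‖ / 2 := half_pos (norm_pos_iff.2 h1)
  set b := a - (‖a‖ / 2) • (1 : A) with hb
  have hs : IsSelfAdjoint b := h0.isSelfAdjoint.sub ((IsSelfAdjoint.all _).smul (.one _))
  have e5 := CFC.posPart_sub_negPart b hs
  obtain ⟨e, he, h2⟩ := exists_rp S.toRep (CFC.posPart_nonneg b).isSelfAdjoint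
  have hσ : ∀ t, D.σ t b⁺ = b⁺ := fun t => by
    have h3 : D.σ t b = b := inv_iff.1 (h.sub (inv_one.rsmul _)) t
    refine (CFC.posPart_negPart_unique (c := D.σ t b⁻) ?_ ?_ ?_ ?_).1.symm
    · rw [← map_sub, e5, h3]
    · rw [← map_mul, CFC.posPart_mul_negPart, map_zero]
    · simpa using σ_mono (D := D) t (CFC.posPart_nonneg b)
    · simpa using σ_mono (D := D) t (CFC.negPart_nonneg b)
  have h4 : ∀ t, D.σ t e * e = e := fun t => by
    have h5 := congrArg (D.σ t) ((h2 (1 - e)).2 he.isIdempotentElem.one_sub_mul_self)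
    rw [map_mul, hσ, map_zero, h2, map_sub, map_one, sub_mul, one_mul, sub_eq_zero] at h5
    exact h5.symm
  refine ⟨_, e, hp, ⟨he, fun h0' => ?_, inv_iff.2 fun t => ?_⟩, ?_⟩
  · have h5 : b⁺ = 0 := by simpa using (h2 1).2 (by rw [h0', mul_zero])
    have h6 : a ≤ algebraMap ℝ A (‖a‖ / 2) := by
      rw [← sub_nonpos, Algebra.algebraMap_eq_smul_one, ← hb, ← e5, h5, zero_sub, neg_nonpos]
      exact CFC.negPart_nonneg b
    have := (CStarAlgebra.norm_le_iff_le_algebraMap _ hp.le h0).2 h6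
    linarith
  · have h5 := congrArg (D.σ t) (h4 (-t))
    have h6 := congrArg star (h4 t)
    rw [map_mul, σ_σ_neg] at h5
    rw [star_mul, ← map_star, he.isSelfAdjoint.star_eq] at h6
    rw [← h5, h6]
  · rw [← sub_nonneg, cut_le h0 he h2]
    exact add_nonneg (CFC.posPart_nonneg _) (he.one_sub.isSelfAdjoint.conjugate_nonneg h0)

end MD

end Vale.Agent.P132
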