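import Vale.Agent.P132.Base
import Mathlib.Analysis.InnerProductSpace.Projection.Minimal

/-! Nearest points of convex sets; density of the commutant orbit. -/

namespace Vale.Agent.P132

open scoped InnerProductSpace ComplexConjugate Topology
open Vale.Agent.P082 Filter

variable {H : Type*} [NormedAddCommGroup H] [InnerProductSpace ℂ H] [CompleteSpace H]

/-- Nearest point of the closure of a convex set, with uniqueness. -/
theorem exists_near {K : Set H} (hne : K.Nonempty) (hc : Convex ℝ K) (β : H) :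
    ∃ p ∈ closure K, (∀ q ∈ closure K, (⟪β - p, q - p⟫_ℂ).re ≤ 0) ∧
      ∀ q ∈ closure K, ‖β - q‖ ≤ ‖β - p‖ → q = p := by
  let := InnerProductSpace.rclikeToReal ℂ H
  obtain ⟨p, hp, h⟩ := exists_norm_eq_iInf_of_complete_convex hne.closure
    isClosed_closure.isComplete hc.closure β
  have h1 : ∀ q ∈ closure K, (⟪β - p, q - p⟫_ℂ).re ≤ 0 :=
    (norm_eq_iInf_iff_real_inner_le_zero hc.closure hp).1 h
  refine ⟨p, hp, h1, fun q hq h2 => ?_⟩
  have h3 := norm_sub_sq (𝕜 := ℂ) (β - p) (q - p)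
  rw [sub_sub_sub_cancel_right, RCLike.re_to_complex] at h3
  have h4 := h1 q hq
  have h5 := pow_le_pow_left₀ (norm_nonneg _) h2 2
  have h6 : ‖q - p‖ ^ 2 = 0 := le_antisymm (by linarith) (sq_nonneg _)
  exact sub_eq_zero.1 (norm_eq_zero.1 (pow_eq_zero_iff two_ne_zero |>.1 h6))

/-- Nearest point, invariant under a family of isometries. -/
theorem exists_near_inv {K : Set H} (hne : K.Nonempty) (hc : Convex ℝ K) (β : H) {ι : Type*}
    (T : ι → H →L[ℂ] H) (h1 : ∀ i α, ‖T i α‖ = ‖α‖) (h2 : ∀ i, T i β = β)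
    (h3 : ∀ i, ∀ q ∈ K, T i q ∈ K) :
    ∃ p ∈ closure K, (∀ q ∈ closure K, (⟪β - p, q - p⟫_ℂ).re ≤ 0) ∧ ∀ i, T i p = p := by
  obtain ⟨p, hp, h4, h5⟩ := exists_near hne hc β
  refine ⟨p, hp, h4, fun i => h5 _ (map_mem_closure (T i).continuous hp (h3 i)) (le_of_eq ?_)⟩
  rw [← h1 i (β - p), map_sub, h2]

omit [CompleteSpace H] in
lemma inner_eq_zero_of_sa {B : Type*} [Ring B] [StarRing B] [Algebra ℂ B] [StarModule ℂ B]
    {P : B → Prop} (L : B →ₗ[ℂ] H) {γ : H} (hs : ∀ y, P y → P (star y))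
    (ha : ∀ y y', P y → P y' → ∀ c : ℂ, P (c • (y + y')))
    (h : ∀ y, IsSelfAdjoint y → P y → ⟪L y, γ⟫_ℂ = 0) {y : B} (hy : P y) : ⟪L y, γ⟫_ℂ = 0 := by
  have h1 := h _ (IsSelfAdjoint.add_star_self y) (by simpa using ha _ _ hy (hs _ hy) 1)
  have h0 : P (Complex.I • y) := by
    have := ha _ _ hy hy (Complex.I / 2)
    rwa [← two_smul ℂ y, smul_smul, div_mul_cancel₀ _ two_ne_zero] at this
  have h2 := h _ (IsSelfAdjoint.add_star_self (Complex.I • y))
    (by simpa using ha _ _ h0 (hs _ h0) 1)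
  simp only [map_add, inner_add_left, star_smul, map_smul, inner_smul_left, Complex.star_def,
    Complex.conj_I, map_neg, neg_neg] at h1 h2
  have h3 : Complex.I * (2 * ⟪L y, γ⟫_ℂ) = 0 := by linear_combination Complex.I * h1 - h2
  simpa using h3

variable {A : Type*} [CStarAlgebra A] (S : Std A H)

/-- The vector is cyclic for the commutant. -/
theorem Std.dense_comm {γ : H} (h : ∀ y : H →L[ℂ] H, IsSelfAdjoint y →
    (∀ a, y * S.π a = S.π a * y) → ⟪y S.ξ, γ⟫_ℂ = 0) : γ = 0 := by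
  let L : Submodule ℂ H :=
    { carrier := {β | ∃ y : H →L[ℂ] H, (∀ a, y * S.π a = S.π a * y) ∧ y S.ξ = β}
      add_mem' := by
        rintro _ _ ⟨y, hy, rfl⟩ ⟨y', hy', rfl⟩
        exact ⟨y + y', fun a => by rw [add_mul, mul_add, hy, hy'], rfl⟩
      zero_mem' := ⟨0, fun a => by simp, rfl⟩
      smul_mem' := by
        rintro c _ ⟨y, hy, rfl⟩
        exact ⟨c • y, fun a => by rw [smul_mul_assoc, mul_smul_comm, hy], rfl⟩ }
  obtain ⟨e, -, he⟩ := exists_proj S.toRep L.topologicalClosure L.isClosed_topologicalClosure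
    fun T hT β hβ => map_mem_closure T.continuous hβ (by
      rintro _ ⟨y, hy, rfl⟩
      exact ⟨T * y, fun a => by rw [mul_assoc, hy, ← mul_assoc, hT, mul_assoc], rfl⟩)
  have h1 : S.π e S.ξ = S.ξ := (he _).2 (subset_closure ⟨1, fun a => by simp, rfl⟩)
  have h2 : e = 1 := sub_eq_zero.1 (S.sep _ (by simp [h1]))
  have h3 : γ ∈ closure (L : Set H) := (he γ).1 (by simp [h2])
  refine inner_self_eq_zero.1 (closure_minimal (t := {β | ⟪β, γ⟫_ℂ = 0}) ?_
    (isClosed_eq (by fun_prop) continuous_const) h3)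
  rintro _ ⟨y, hy, rfl⟩
  refine inner_eq_zero_of_sa (P := fun y : H →L[ℂ] H => ∀ a, y * S.π a = S.π a * y)
    (ContinuousLinearMap.apply ℂ H S.ξ).toLinearMap (fun y hy a => ?_) (fun y y' hy hy' c a => ?_)
    h hy
  · simpa [map_star] using congrArg star (hy (star a)).symm
  · rw [smul_mul_assoc, mul_smul_comm, add_mul, mul_add, hy, hy']

/-- A vector really orthogonal to both `K` and `i K` vanishes. -/
theorem Std.dense_sa {γ : H} (h : ∀ a, IsSelfAdjoint a → ⟪S.π a S.ξ, γ⟫_ℂ = 0) : γ = 0 := by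
  refine inner_self_eq_zero.1 (S.cyc.induction_on (p := fun β => ⟪β, γ⟫_ℂ = 0) γ
    (isClosed_eq (by fun_prop) continuous_const) fun a => ?_)
  exact inner_eq_zero_of_sa (P := fun _ : A => True)
    ((ContinuousLinearMap.apply ℂ H S.ξ).toLinearMap ∘ₗ S.π.toAlgHom.toLinearMap)
    (fun _ _ => trivial) (fun _ _ _ _ _ => trivial) (fun y hy _ => h y hy) trivial

/-- Norm limits of bounded orbits come from the algebra. -/
theorem Std.exists_lim {P : A → Prop} {r : ℝ} (hr : ∀ x, P x → ‖x‖ ≤ r) {γ : H}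
    (h : γ ∈ closure {β | ∃ x, P x ∧ S.π x S.ξ = β}) :
    ∃ (l : Filter A) (y : A), l.NeBot ∧ (∀ᶠ x in l, P x) ∧ S.W.T l id y ∧ S.π y S.ξ = γ := by
  obtain ⟨u, hu, hγ⟩ := mem_closure_iff_seq_limit.1 h
  choose x hx hx' using hu
  obtain ⟨y, hy⟩ := S.W.exists_T (hyperfilter ℕ) (x := x) (.of_forall fun n => hr _ (hx n))
  refine ⟨map x (hyperfilter ℕ), y, inferInstance, eventually_map.2 (.of_forall hx), hy,
    ext_inner_left ℂ fun η => tendsto_nhds_unique (Rep.W_T.1 hy S.ξ η) ?_⟩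
  simp only [hx']
  exact (tendsto_const_nhds.inner hγ).mono_left (hyperfilter_le_cofinite.trans
    Nat.cofinite_eq_atTop.le)

end Vale.Agent.P132
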