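import Vale.Agent.P132.Calc
import Vale.Agent.P132.Hil

/-! The polar decomposition, after Rieffel and van Daele. -/

namespace Vale.Agent.P132

open scoped InnerProductSpace ComplexConjugate Topology
open Vale.Agent.P082 Filter

variable {H : Type*} [NormedAddCommGroup H] [InnerProductSpace ℂ H] [CompleteSpace H]

namespace Pre

open Complex (I)

/-- Real orthogonal projections. -/
lemma exists_P (K : Submodule ℝ H) (hK : IsClosed (K : Set H)) : ∃ P : H →L[ℝ] H,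
    (∀ α, P α ∈ K) ∧ ∀ α, ∀ k ∈ K, (⟪α - P α, k⟫_ℂ).re = 0 := by
  let := InnerProductSpace.rclikeToReal ℂ H
  have : CompleteSpace K := hK.completeSpace_coe
  exact ⟨K.starProjection, K.starProjection_apply_mem,
    fun α k hk => K.starProjection_inner_eq_zero α k hk⟩

omit [CompleteSpace H] in
lemma smul_eq (c : ℂ) (α : H) : c • α = c.re • α + c.im • I • α := by
  conv_lhs => rw [← c.re_add_im, add_smul, mul_smul, Complex.coe_smul, Complex.coe_smul]

omit [CompleteSpace H] in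
lemma exists_lin (T : H →L[ℝ] H) (h : ∀ α, T (I • α) = I • T α) :
    ∃ R : H →L[ℂ] H, ∀ α, R α = T α :=
  ⟨{ toFun := T
     map_add' := T.map_add
     map_smul' := fun c α => by
      rw [smul_eq c α, map_add, map_smul, map_smul, h, RingHom.id_apply, smul_eq c (T α)]
     cont := T.continuous }, fun _ => rfl⟩

omit [CompleteSpace H] in
lemma exists_anti (T : H →L[ℝ] H) (h : ∀ α, T (I • α) = -(I • T α)) :
    ∃ B : H →L⋆[ℂ] H, ∀ α, B α = T α :=
  ⟨{ toFun := T
     map_add' := T.map_add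
     map_smul' := fun c α => by
      rw [smul_eq c α, map_add, map_smul, map_smul, h, smul_eq (conj c) (T α), Complex.conj_re,
        Complex.conj_im, smul_neg, neg_smul]
     cont := T.continuous }, fun _ => rfl⟩

omit [CompleteSpace H] in
lemma re_self (α : H) : (⟪α, α⟫_ℂ).re = ‖α‖ ^ 2 := inner_self_eq_norm_sq (𝕜 := ℂ) α

omit [CompleteSpace H] in
lemma re_comm (α β : H) : (⟪α, β⟫_ℂ).re = (⟪β, α⟫_ℂ).re := inner_re_symm (𝕜 := ℂ) α β

omit [CompleteSpace H] in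
lemma II (α : H) : I • I • α = -α := by rw [smul_smul, Complex.I_mul_I, neg_one_smul]

/-- The operators of Rieffel and van Daele. -/
lemma exists_RB (K : Submodule ℝ H) (hK : IsClosed (K : Set H))
    (h1 : ∀ α, (∀ k ∈ K, ⟪k, α⟫_ℂ = 0) → α = 0) (h2 : ∀ α ∈ K, I • α ∈ K → α = 0) :
    ∃ (R : H →L[ℂ] H) (B : H →L⋆[ℂ] H), 0 ≤ R ∧ R ≤ 1 ∧ (∀ α, R α = 0 → α = 0) ∧
      (∀ α, R α = α → α = 0) ∧ (∀ α, B (R α) = B α - R (B α)) ∧
      (∀ α, B (B α) = R (α - R α)) ∧ (∀ α β, ⟪B α, β⟫_ℂ = ⟪B β, α⟫_ℂ) ∧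
      (∀ k ∈ K, B k = k - R k) ∧ (∀ k ∈ K, (∀ k' ∈ K, (⟪k, k'⟫_ℂ).im = 0) → R k = (2 : ℂ)⁻¹ • k) ∧
      ∀ α, ∃ k ∈ K, ∃ k' ∈ K, R α = k + I • k' ∧ B α = k - I • k' := by
  obtain ⟨P, p1, p2⟩ := exists_P K hK
  have p3 : ∀ k ∈ K, P k = k := fun k hk => by
    have := p2 k _ (sub_mem hk (p1 k))
    rw [re_self, sq_eq_zero_iff, norm_eq_zero, sub_eq_zero] at this
    exact this.symm
  have p4 : ∀ α β, (⟪α, P β⟫_ℂ).re = (⟪P α, P β⟫_ℂ).re := fun α β => by
    have := p2 α _ (p1 β)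
    rwa [inner_sub_left, Complex.sub_re, sub_eq_zero] at this
  have p5 : ∀ α β, (⟪P α, β⟫_ℂ).re = (⟪α, P β⟫_ℂ).re := fun α β => by
    rw [re_comm, p4, p4 α, re_comm]
  have pp : ∀ α, P (P α) = P α := fun α => p3 _ (p1 α)
  obtain ⟨Q, hQ⟩ : ∃ Q : H →L[ℝ] H, ∀ α, Q α = -(I • P (I • α)) :=
    ⟨-((I • ContinuousLinearMap.id ℝ H) ∘L P ∘L (I • ContinuousLinearMap.id ℝ H)), fun _ => rfl⟩
  have q5 : ∀ α β, (⟪Q α, β⟫_ℂ).re = (⟪α, Q β⟫_ℂ).re := fun α β => by
    have e1 : ∀ u v : H, (⟪-(I • u), v⟫_ℂ).re = (⟪u, I • v⟫_ℂ).re := fun u v => by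
      simp [inner_smul_left, inner_smul_right]
    rw [hQ, hQ, e1, p5, re_comm, re_comm α, e1]
  have qq : ∀ α, Q (Q α) = Q α := fun α => by
    rw [hQ (Q α), hQ α, smul_neg, II, neg_neg, pp]
  have n1 : ∀ (T : H →L[ℝ] H), (∀ α β, (⟪T α, β⟫_ℂ).re = (⟪α, T β⟫_ℂ).re) →
      (∀ α, T (T α) = T α) → ∀ α, (⟪T α, α⟫_ℂ).re = ‖T α‖ ^ 2 ∧
        (⟪α - T α, α⟫_ℂ).re = ‖α - T α‖ ^ 2 := fun T a b α => by
    have e1 : (⟪T α, α⟫_ℂ).re = (⟪T α, T α⟫_ℂ).re := by rw [a α (T α), b, a]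
    refine ⟨by rw [e1, re_self], ?_⟩
    rw [← re_self, inner_sub_right, Complex.sub_re, inner_sub_left _ _ (T α), Complex.sub_re,
      ← e1, a, sub_self, sub_zero]
  obtain ⟨R, hR⟩ := exists_lin ((2⁻¹ : ℝ) • (P + Q)) fun α => by
    simp only [ContinuousLinearMap.smul_apply, ContinuousLinearMap.add_apply, hQ, II, map_neg,
      smul_neg, neg_neg, smul_add, smul_comm I (2⁻¹ : ℝ)]
    abel
  obtain ⟨B, hB⟩ := exists_anti ((2⁻¹ : ℝ) • (P - Q)) fun α => by
    simp only [ContinuousLinearMap.smul_apply, ContinuousLinearMap.sub_apply, hQ, II, map_neg,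
      smul_neg, neg_neg, smul_sub, smul_comm I (2⁻¹ : ℝ)]
    abel
  simp only [ContinuousLinearMap.smul_apply, ContinuousLinearMap.add_apply,
    ContinuousLinearMap.sub_apply] at hR hB
  have rs : ∀ (c : ℝ) (u v : H), (⟪c • u, v⟫_ℂ).re = c * (⟪u, v⟫_ℂ).re := fun c u v => by
    rw [← Complex.coe_smul, inner_smul_left, Complex.conj_ofReal, Complex.re_ofReal_mul]
  have r1 : ∀ α β, (⟪R α, β⟫_ℂ).re = (⟪α, R β⟫_ℂ).re := fun α β => by
    rw [re_comm α, hR, hR, rs, rs, inner_add_left, inner_add_left, Complex.add_re, Complex.add_re,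
      p5, q5, re_comm α, re_comm α]
  have b1 : ∀ α β, (⟪B α, β⟫_ℂ).re = (⟪B β, α⟫_ℂ).re := fun α β => by
    rw [hB, hB, rs, rs, inner_sub_left, inner_sub_left, Complex.sub_re, Complex.sub_re,
      p5, q5, re_comm α, re_comm α]
  have r2 : IsSelfAdjoint R := ContinuousLinearMap.isSelfAdjoint_iff_isSymmetric.2 fun α β =>
    Complex.ext (r1 α β) (by simpa [inner_smul_right] using r1 α (I • β))
  have r3 : ∀ α, (⟪R α, α⟫_ℂ).re = 2⁻¹ * (‖P α‖ ^ 2 + ‖Q α‖ ^ 2) := fun α => by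
    rw [hR, rs, inner_add_left, Complex.add_re, (n1 P p5 pp α).1, (n1 Q q5 qq α).1]
  have r4 : ∀ α, (⟪α - R α, α⟫_ℂ).re = 2⁻¹ * (‖α - P α‖ ^ 2 + ‖α - Q α‖ ^ 2) := fun α => by
    rw [← (n1 P p5 pp α).2, ← (n1 Q q5 qq α).2, ← Complex.add_re, ← inner_add_left, ← rs, hR]
    congr 2
    module
  have z : ∀ {u v : H}, 0 = 2⁻¹ * (‖u‖ ^ 2 + ‖v‖ ^ 2) → u = 0 ∧ v = 0 := fun {u v} h =>
    ⟨norm_eq_zero.1 (by nlinarith [sq_nonneg ‖v‖]), norm_eq_zero.1 (by nlinarith [sq_nonneg ‖u‖])⟩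
  refine ⟨R, B, ?_, ?_, fun α h => ?_, fun α h => ?_, fun α => ?_, fun α => ?_,
    fun α β => Complex.ext (b1 α β) ?_, fun k hk => ?_, fun k hk h => ?_, fun α => ?_⟩
  · rw [ContinuousLinearMap.nonneg_iff_isPositive, ContinuousLinearMap.isPositive_def']
    exact ⟨r2, fun α => le_of_le_of_eq (by positivity) (r3 α).symm⟩
  · rw [ContinuousLinearMap.le_def, ContinuousLinearMap.isPositive_def']
    exact ⟨(IsSelfAdjoint.one _).sub r2, fun α => le_of_le_of_eq (by positivity) (r4 α).symm⟩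
  · obtain ⟨a, b⟩ := z (by simpa [h] using r3 α)
    rw [hQ, neg_eq_zero, smul_eq_zero_iff_right Complex.I_ne_zero] at b
    refine h1 α fun k hk => Complex.ext ?_ ?_
    · simpa [a, re_comm α] using p2 α k hk
    · have := p2 (I • α) k hk
      rw [b, sub_zero, re_comm] at this
      simpa [inner_smul_right] using this
  · obtain ⟨a, b⟩ := z (by simpa [h] using r4 α)
    rw [sub_eq_zero] at a b
    refine h2 α (a ▸ p1 α) ?_
    rw [b, hQ, smul_neg, II, neg_neg]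
    exact p1 _
  · simp only [hR, hB, map_smul, map_add, map_sub, pp, qq]
    module
  · simp only [hR, hB, map_smul, map_add, map_sub, pp, qq]
    module
  · simpa [inner_smul_right, inner_smul_left] using b1 α (I • β)
  · rw [hR, hB, p3 k hk]
    module
  · have e1 : P (I • k) = 0 := by
      have := p4 (I • k) (I • k)
      rw [re_self, inner_smul_left] at this
      simpa [h _ (p1 _)] using this.symm
    rw [hR, hQ, e1, p3 k hk, smul_zero, neg_zero, add_zero, ← Complex.coe_smul]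
    simp
  · refine ⟨_, K.smul_mem 2⁻¹ (p1 α), _, K.smul_mem (-2⁻¹) (p1 (I • α)), ?_, ?_⟩
    · rw [hR, hQ, smul_comm I]
      module
    · rw [hB, hQ, smul_comm I]
      module

end Pre

open Pre Complex in
theorem exists_PM {A : Type*} [CStarAlgebra A] (S : Std A H) : Nonempty (PM S) := by
  let K0 : Submodule ℝ H :=
    { carrier := {γ | ∃ a, IsSelfAdjoint a ∧ S.π a S.ξ = γ}
      add_mem' := by
        rintro _ _ ⟨a, ha, rfl⟩ ⟨b, hb, rfl⟩
        exact ⟨a + b, ha.add hb, by simp⟩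
      zero_mem' := ⟨0, .zero _, by simp⟩
      smul_mem' := by
        rintro c _ ⟨a, ha, rfl⟩
        exact ⟨c • a, (IsSelfAdjoint.all c).smul ha, by
          rw [← Complex.coe_smul, map_smul, ← Complex.coe_smul]; rfl⟩ }
  have hK : ∀ a, IsSelfAdjoint a → S.π a S.ξ ∈ K0.topologicalClosure := fun a ha =>
    K0.le_topologicalClosure ⟨a, ha, rfl⟩
  have him : ∀ y : H →L[ℂ] H, IsSelfAdjoint y → (∀ a, y * S.π a = S.π a * y) →
      ∀ k ∈ K0.topologicalClosure, (⟪y S.ξ, k⟫_ℂ).im = 0 := fun y hy hc k hk => by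
    refine closure_minimal (t := {k | (⟪y S.ξ, k⟫_ℂ).im = 0}) ?_
      (isClosed_eq (by fun_prop) continuous_const) hk
    rintro _ ⟨a, ha, rfl⟩
    have e1 : IsSelfAdjoint (y * S.π a) := by
      rw [IsSelfAdjoint, star_mul, hy.star_eq, (ha.map S.π).star_eq, hc]
    show (⟪y S.ξ, S.π a S.ξ⟫_ℂ).im = 0
    rw [← ContinuousLinearMap.adjoint_inner_right, hy.adjoint_eq]
    exact e1.isSymmetric.im_inner_self_apply S.ξ
  obtain ⟨R, B, r0, r1, i0, i1, b1, b2, b3, b4, b5, b6⟩ := exists_RB K0.topologicalClosure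
    K0.isClosed_topologicalClosure (fun α h => S.dense_sa fun a ha => h _ (hK a ha))
    fun α h h' => S.dense_comm fun y hy hc => Complex.ext
      (by simpa [inner_smul_right] using him y hy hc _ h') (him y hy hc _ h)
  obtain ⟨D, d1, d2, d3⟩ := exists_FC R r0 r1 i0 i1
  have t0 : ∀ α, D.fb rr α = α - R α := fun α => by
    have := D.add bc_pp bc_rr
    simp only [pp_add_rr, D.one, d1] at this
    simpa using (congr($this α - R α)).symm
  have t1 : ∀ α, D.fb qq (D.fb qq α) = B (B α) := fun α => by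
    rw [b2, ← t0, ← d1, D.mul_apply bc_qq bc_qq, D.mul_apply bc_pp bc_rr]
    congr 2
    funext s
    rw [rr_eq, mul_left_comm, ← qq_eq]
  have t2 : ∀ α, B (D.fb qq α) = D.fb qq (B α) := fun α => by
    simpa only [qq_neg] using d2 B b1 qq bc_qq α
  have t3 : ∀ α β, ⟪D.fb qq α, β⟫_ℂ = ⟪α, D.fb qq β⟫_ℂ := fun α β => by
    rw [D.inner_left bc_qq]
    simp only [qq, Complex.conj_ofReal]
    rfl
  have t4 : ∀ α β, ⟪B α, B β⟫_ℂ = ⟪D.fb qq β, D.fb qq α⟫_ℂ := fun α β => by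
    rw [b3, ← t1, t3]
  have hd : DenseRange (D.fb qq) := Calc.dense_of_inj
    (ContinuousLinearMap.isSelfAdjoint_iff_isSymmetric.2 t3) fun α => D.inj bc_qq qq_ne
  let J : H →L⋆[ℂ] H := B.toLinearMap.extendOfNorm (D.fb qq).toLinearMap
  have j1 : ∀ α, J (D.fb qq α) = B α := LinearMap.extendOfNorm_eq hd ⟨1, fun α => by
    have := congrArg Complex.re (t4 α α)
    rw [re_self, re_self, sq_eq_sq₀ (norm_nonneg _) (norm_nonneg _)] at this
    exact this.le.trans_eq (one_mul _).symm⟩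
  have j2 : ∀ α, J (B α) = D.fb qq α := fun α =>
    hd.induction_on α (isClosed_eq (by fun_prop) (by fun_prop)) fun β => by rw [t2, j1, t1]
  have j3 : ∀ α, D.fb qq (J α) = B α := fun α =>
    hd.induction_on α (isClosed_eq (by fun_prop) (by fun_prop)) fun β => by rw [t2, j1]
  have j4 : ∀ α β, ⟪J α, J β⟫_ℂ = ⟪β, α⟫_ℂ := fun α β =>
    hd.induction_on₂ (p := fun α β => ⟪J α, J β⟫_ℂ = ⟪β, α⟫_ℂ)
      (isClosed_eq (by fun_prop) (by fun_prop)) (fun α β => by rw [j1, j1, t4]) α β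
  have hξ : S.π 1 S.ξ = S.ξ := by simp
  refine ⟨⟨D, J, fun α => ?_, j4, fun {F} hF α => ?_, fun {F} hF => d3 _ ?_ F hF, fun a => ?_,
    fun α ε hε => ?_⟩⟩
  · exact hd.induction_on α (isClosed_eq (by fun_prop) (by fun_prop)) fun β => by rw [j1, j2]
  · refine hd.induction_on α (isClosed_eq (by fun_prop) (by fun_prop)) fun β => ?_
    rw [← ContinuousLinearMap.mul_apply, D.comm hF bc_qq, ContinuousLinearMap.mul_apply, j1, j1,
      d2 B b1 F hF]
  · exact b5 _ (hξ ▸ hK 1 (.one _)) (him 1 (.one _) (by simp))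
  · have e1 := realPart_add_I_smul_imaginaryPart a
    rw [j3, t0, ← e1]
    simp only [star_add, star_smul, selfAdjoint.star_val_eq, map_add, map_smul,
      ContinuousLinearMap.add_apply, ContinuousLinearMap.smul_apply, map_smulₛₗ,
      b4 _ (hK _ (realPart a).2), b4 _ (hK _ (imaginaryPart a).2), Complex.star_def,
      Complex.conj_conj]
    module
  · obtain ⟨k, hk, k', hk', e1, e2⟩ := b6 α
    obtain ⟨_, ⟨x, hx, rfl⟩, ex⟩ := Metric.mem_closure_iff.1 hk _ (half_pos hε)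
    obtain ⟨_, ⟨y, hy, rfl⟩, ey⟩ := Metric.mem_closure_iff.1 hk' _ (half_pos hε)
    rw [dist_comm, dist_eq_norm] at ex ey
    have n1 : ‖I • (S.π y S.ξ - k')‖ < ε / 2 := by rwa [norm_smul, Complex.norm_I, one_mul]
    refine ⟨x + I • y, ?_, ?_⟩
    · have : S.π (x + I • y) S.ξ - D.fb pp α = (S.π x S.ξ - k) + I • (S.π y S.ξ - k') := by
        rw [d1, e1, map_add, map_smul, ContinuousLinearMap.add_apply,
          ContinuousLinearMap.smul_apply]
        module
      rw [this]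
      exact (norm_add_le _ _).trans (by linarith)
    · have : S.π (star (x + I • y)) S.ξ - B α = (S.π x S.ξ - k) - I • (S.π y S.ξ - k') := by
        rw [e2, star_add, star_smul, hx.star_eq, hy.star_eq, map_add, map_smul,
          ContinuousLinearMap.add_apply, ContinuousLinearMap.smul_apply, Complex.star_def,
          Complex.conj_I]
        module
      have n2 := congrArg Complex.re (j4 (S.π (star (x + I • y)) S.ξ - B α)
        (S.π (star (x + I • y)) S.ξ - B α))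
      rw [re_self, re_self, sq_eq_sq₀ (norm_nonneg _) (norm_nonneg _)] at n2
      rw [← j2, ← map_sub, n2, this]
      exact (norm_sub_le _ _).trans (by linarith)

end Vale.Agent.P132
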