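import Mathlib.Analysis.Complex.CauchyIntegral
import Mathlib.Analysis.Complex.RemovableSingularity
import Mathlib.Analysis.Fourier.Inversion
import Mathlib.Analysis.Calculus.ParametricIntegral
import Mathlib.Analysis.SpecialFunctions.ImproperIntegrals

/-! Two lemmas of complex analysis. -/

namespace Vale.Agent.P132

open scoped InnerProductSpace ComplexConjugate Topology
open Filter MeasureTheory Complex



/-- The kernel. -/
noncomputable def ker (θ t : ℝ) : ℝ :=
  Real.exp (-θ * t) / (Real.exp (Real.pi * t) + Real.exp (-Real.pi * t))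

lemma int_exp_abs {δ : ℝ} (hδ : 0 < δ) : Integrable fun t : ℝ => Real.exp (-δ * |t|) := by
  rw [← integrableOn_univ, ← Set.Iic_union_Ioi (a := 0), integrableOn_union]
  exact ⟨(integrableOn_exp_mul_Iic hδ 0).congr_fun
      (fun t ht => by simp [abs_of_nonpos (show t ≤ 0 from ht)]) measurableSet_Iic,
    (integrableOn_exp_mul_Ioi (neg_lt_zero.2 hδ) 0).congr_fun
      (fun t ht => by simp [abs_of_pos (show 0 < t from ht)]) measurableSet_Ioi⟩

lemma ker_pos (θ t : ℝ) : 0 < ker θ t := by unfold ker; positivity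

lemma continuous_ker (θ : ℝ) : Continuous (ker θ) :=
  Continuous.div (by fun_prop) (by fun_prop) fun t => by positivity

lemma exp_neg_mul_le {θ δ : ℝ} (h : |θ| + δ ≤ Real.pi) (t : ℝ) :
    Real.exp (-θ * t) ≤ Real.exp (-δ * |t|) * Real.exp (Real.pi * |t|) := by
  rw [← Real.exp_add, Real.exp_le_exp]
  have h1 := neg_le_abs (θ * t)
  rw [abs_mul] at h1
  nlinarith [abs_nonneg t]

lemma ker_le {θ δ : ℝ} (h : |θ| + δ ≤ Real.pi) (t : ℝ) : ker θ t ≤ Real.exp (-δ * |t|) := by
  rw [ker, div_le_iff₀ (by positivity)]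
  refine (exp_neg_mul_le h t).trans (mul_le_mul_of_nonneg_left ?_ (by positivity))
  rcases abs_cases t with ht | ht <;> rw [ht.1]
  · linarith [Real.exp_pos (-Real.pi * t)]
  · rw [mul_neg, ← neg_mul]
    linarith [Real.exp_pos (Real.pi * t)]

theorem integrable_ker {θ : ℝ} (h : |θ| < Real.pi) : MeasureTheory.Integrable (ker θ) :=
  (int_exp_abs (sub_pos.2 h)).mono' (continuous_ker θ).aestronglyMeasurable
    (.of_forall fun t => by
      rw [Real.norm_of_nonneg (ker_pos θ t).le]; exact ker_le (by linarith) t)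

lemma integrable_ker_mul {θ : ℝ} (h : |θ| < Real.pi) {g : ℝ → ℂ} (hg : Continuous g) {C : ℝ}
    (hC : ∀ t, ‖g t‖ ≤ C) : Integrable fun t : ℝ => (ker θ t : ℂ) * g t :=
  (integrable_ker h).ofReal.mul_bdd hg.aestronglyMeasurable (.of_forall hC)

lemma norm_sin_ge (z : ℂ) (h : 1 ≤ |z.im|) : Real.exp |z.im| / 4 ≤ ‖sin z‖ := by
  have h1 := abs_norm_sub_norm_le (exp (-z * I)) (exp (z * I))
  have h2 : ‖sin z‖ = ‖exp (-z * I) - exp (z * I)‖ / 2 := by simp [sin]
  have h3 : 2 ≤ Real.exp |z.im| := by linarith [Real.add_one_le_exp |z.im|]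
  have h4 : Real.exp (-|z.im|) ≤ 1 := Real.exp_le_one_iff.2 (by linarith)
  simp only [norm_exp, mul_re, neg_re, I_re, mul_zero, neg_im, I_im, mul_one, zero_sub,
    neg_neg] at h1
  rcases abs_cases z.im with ht | ht <;> rw [ht.1] at h3 h4 ⊢
  · linarith [le_abs_self (Real.exp z.im - Real.exp (-z.im))]
  · rw [neg_neg] at h4
    linarith [neg_le_abs (Real.exp z.im - Real.exp (-z.im))]

/-- Integrals over the two boundary lines agree. -/
lemma strip_zero {G : ℂ → ℂ} (hG : DifferentiableOn ℂ G {z | |z.re| < 1}) {b : ℝ → ℝ}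
    (hb : Tendsto b atTop (𝓝 0)) (h : ∀ z : ℂ, |z.re| ≤ 1 / 2 → 1 ≤ |z.im| → ‖G z‖ ≤ b |z.im|)
    (hi : Integrable fun t : ℝ => G (1 / 2 + t * I) - G (-(1 / 2) + t * I)) :
    ∫ t : ℝ, (G (1 / 2 + t * I) - G (-(1 / 2) + t * I)) = 0 := by
  refine tendsto_nhds_unique (intervalIntegral_tendsto_integral hi tendsto_neg_atTop_atBot
    tendsto_id) (squeeze_zero_norm' ?_ (by simpa using hb.add hb))
  filter_upwards [eventually_ge_atTop 1] with T hT
  have hc : ∀ a : ℝ, |a| < 1 → IntervalIntegrable (fun t : ℝ => G (a + t * I)) volume (-T) T :=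
    fun a ha => (hG.continuousOn.comp_continuous (by fun_prop)
      fun t => by simpa using ha).intervalIntegrable _ _
  have h1 := integral_boundary_rect_eq_zero_of_differentiableOn G ⟨-(1 / 2), -T⟩ ⟨1 / 2, T⟩
    (hG.mono fun z hz => by
      have : z.re ∈ Set.uIcc (-(1 / 2)) (1 / 2) := hz.1
      rw [Set.uIcc_of_le (by norm_num)] at this
      exact (abs_le.2 this).trans_lt (by norm_num))
  have h2 : ∀ y : ℝ, |y| = T → ‖∫ x : ℝ in -(1 / 2)..1 / 2, G (x + y * I)‖ ≤ b T := fun y hy => by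
    refine (intervalIntegral.norm_integral_le_of_norm_le_const (C := b T) fun x hx => ?_).trans
      (by norm_num)
    rw [Set.uIoc_of_le (by norm_num)] at hx
    simpa [hy] using h (x + y * I) (by simpa using abs_le.2 ⟨by simpa using hx.1.le, by
      simpa using hx.2⟩) (by simpa [hy] using hT)
  have h3 := intervalIntegral.integral_sub (hc (1 / 2) (by norm_num [abs_lt]))
    (hc (-(1 / 2)) (by norm_num [abs_lt]))
  have h4 := norm_sub_le_of_le (h2 T (abs_of_pos (by linarith)))
    (h2 (-T) (by rw [abs_neg, abs_of_pos (by linarith)]))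
  rw [add_sub_assoc, ← smul_sub, ← h3, add_comm, add_eq_zero_iff_eq_neg, neg_sub] at h1
  rw [← h1, norm_smul, norm_I, one_mul] at h4
  simpa using h4

theorem strip {f : ℂ → ℂ} (hf : Differentiable ℂ f) {C : ℝ}
    (hC : ∀ z : ℂ, |z.re| ≤ 1 / 2 → ‖f z‖ ≤ C) {θ : ℝ} (h : |θ| < Real.pi) :
    f 0 = ∫ t : ℝ, (ker θ t : ℂ) *
      (Complex.exp ((θ / 2 : ℝ) * Complex.I) * f (1 / 2 + t * Complex.I) +
        Complex.exp ((-(θ / 2) : ℝ) * Complex.I) * f (-(1 / 2) + t * Complex.I)) := by
  have hπ : (Real.pi : ℂ) ≠ 0 := ofReal_ne_zero.2 Real.pi_ne_zero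
  have hC0 : 0 ≤ C := (norm_nonneg _).trans (hC 0 (by simp))
  set S := dslope (fun z : ℂ => sin (Real.pi * z)) 0 with hS
  have S0 : S 0 = Real.pi := by
    simpa [hS] using (((hasDerivAt_id (0 : ℂ)).const_mul (Real.pi : ℂ)).csin).deriv
  have S1 : ∀ z ≠ 0, S z = sin (Real.pi * z) / z := fun z hz => by
    rw [hS, dslope_of_ne _ hz, slope_def_field]; simp
  have S2 : ∀ z : ℂ, |z.re| < 1 → z ≠ 0 → sin (Real.pi * z) ≠ 0 := fun z hz h0 h1 => by
    obtain ⟨k, hk⟩ := sin_eq_zero_iff.1 h1
    rw [mul_comm, mul_left_inj' hπ] at hk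
    rw [hk, intCast_re, ← Int.cast_abs, ← Int.cast_one, Int.cast_lt, Int.abs_lt_one_iff] at hz
    exact h0 (by simp [hk, hz])
  have hSd : Differentiable ℂ S := differentiableOn_univ.1
    ((differentiableOn_dslope univ_mem).2 (by fun_prop))
  set g := fun z => Real.pi * exp (θ * z * I) * f z / S z with hg
  have hU : IsOpen {z : ℂ | |z.re| < 1} := isOpen_lt (by fun_prop) continuous_const
  have hG : DifferentiableOn ℂ (dslope g 0) {z | |z.re| < 1} :=
    (differentiableOn_dslope (hU.mem_nhds (by simp))).2 (DifferentiableOn.div (by fun_prop)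
      hSd.differentiableOn fun z hz => by
        rcases eq_or_ne z 0 with rfl | h0
        · rwa [S0]
        · rw [S1 z h0]; exact div_ne_zero (S2 z hz h0) h0)
  have G1 : ∀ z ≠ 0, dslope g 0 z =
      Real.pi * exp (θ * z * I) * f z / sin (Real.pi * z) - f 0 / z := fun z hz => by
    rw [dslope_of_ne _ hz, slope_def_field, hg]
    simp only [S0, S1 z hz, mul_zero, zero_mul, exp_zero, mul_one, sub_zero]
    field_simp
  set A := fun t : ℝ => (ker θ t : ℂ) * (exp ((θ / 2 : ℝ) * I) * f (1 / 2 + t * I) +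
    exp ((-(θ / 2) : ℝ) * I) * f (-(1 / 2) + t * I)) with hA
  have hAi : Integrable A := integrable_ker_mul h (by have := hf.continuous; fun_prop)
    (C := 1 * C + 1 * C) fun t => norm_add_le_of_le
      (norm_mul_le_of_le (norm_exp_ofReal_mul_I _).le (hC _ (by norm_num [abs_le])))
      (norm_mul_le_of_le (norm_exp_ofReal_mul_I _).le (hC _ (by norm_num [abs_le])))
  have hBi : Integrable fun t : ℝ => (((1 + (2 * t) ^ 2)⁻¹ : ℝ) : ℂ) :=
    (integrable_inv_one_add_sq.comp_mul_left' two_ne_zero).ofReal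
  have hB : ∫ t : ℝ, (((1 + (2 * t) ^ 2)⁻¹ : ℝ) : ℂ) = Real.pi / 2 := by
    rw [integral_complex_ofReal, Measure.integral_comp_mul_left (fun x : ℝ => (1 + x ^ 2)⁻¹),
      integral_univ_inv_one_add_sq]
    norm_num [div_eq_inv_mul]
  have e : ∀ t : ℝ, dslope g 0 (1 / 2 + t * I) - dslope g 0 (-(1 / 2) + t * I) =
      2 * Real.pi * A t - 4 * f 0 * (((1 + (2 * t) ^ 2)⁻¹ : ℝ) : ℂ) := fun t => by
    have n1 : (1 / 2 + t * I : ℂ) ≠ 0 := fun h => by simpa using congrArg re h
    have n2 : (-(1 / 2) + t * I : ℂ) ≠ 0 := fun h => by simpa using congrArg re h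
    have n3 : exp (Real.pi * t) + exp (-Real.pi * t) ≠ 0 := by
      exact_mod_cast (show Real.exp (Real.pi * t) + Real.exp (-Real.pi * t) ≠ 0 by positivity)
    have n4 : (1 + (2 * t) ^ 2 : ℂ) = -4 * ((1 / 2 + t * I) * (-(1 / 2) + t * I)) := by
      linear_combination 4 * (t : ℂ) ^ 2 * I_sq
    have c : cos (Real.pi * t * I) = (exp (Real.pi * t) + exp (-Real.pi * t)) / 2 := by
      rw [cos_mul_I, cosh, neg_mul]
    have s1 : sin (Real.pi * (1 / 2 + t * I)) = cos (Real.pi * t * I) := by
      rw [← sin_add_pi_div_two]; congr 1; ring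
    have s2 : sin (Real.pi * (-(1 / 2) + t * I)) = -cos (Real.pi * t * I) := by
      rw [← sin_sub_pi_div_two]; congr 1; ring
    have x : ∀ a : ℂ, exp (θ * (a + t * I) * I) = exp (-θ * t) * exp (θ * a * I) := fun a => by
      rw [← exp_add]; congr 1; linear_combination θ * t * I_sq
    rw [G1 _ n1, G1 _ n2, s1, s2, c, x, x]
    simp only [hA, ker]
    push_cast
    rw [n4, show θ * (1 / 2) * I = θ / 2 * I by ring, show θ * -(1 / 2) * I = -(θ / 2) * I by ring]
    have hv : (-(1 / 2) + t * I : ℂ) = (1 / 2 + t * I) - 1 := by ring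
    rw [hv] at n2 ⊢
    generalize (1 / 2 + t * I : ℂ) = u at n1 n2 ⊢
    generalize exp (Real.pi * t) + exp (-Real.pi * t) = v at n3 ⊢
    field_simp
    ring
  have key := strip_zero hG
    (b := fun T => Real.pi * C * 4 * Real.exp (-(Real.pi - |θ|) * T) + C * T⁻¹)
    (by simpa using ((Real.tendsto_exp_atBot.comp (tendsto_id.const_mul_atTop_of_neg
      (neg_lt_zero.2 (sub_pos.2 h)))).const_mul _).add (tendsto_inv_atTop_zero.const_mul C))
    (fun z hz hz' => by
      have h0 : z ≠ 0 := by rintro rfl; norm_num at hz'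
      have h1 := norm_sin_ge (Real.pi * z) (by
        simp only [im_ofReal_mul, abs_mul, abs_of_pos Real.pi_pos]
        nlinarith [Real.two_le_pi])
      rw [im_ofReal_mul, abs_mul, abs_of_pos Real.pi_pos] at h1
      have h2 := exp_neg_mul_le (θ := θ) (δ := Real.pi - |θ|) (by linarith) z.im
      rw [G1 z h0]
      refine norm_sub_le_of_le ?_ ?_
      · rw [norm_div, div_le_iff₀ (lt_of_lt_of_le (by positivity) h1), norm_mul, norm_mul,
          norm_real, Real.norm_of_nonneg Real.pi_pos.le, norm_exp,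
          show (θ * z * I).re = -θ * z.im by simp]
        calc _ ≤ Real.pi * (_ * _) * C := mul_le_mul (mul_le_mul_of_nonneg_left h2 Real.pi_pos.le)
              (hC z hz) (norm_nonneg _) (by positivity)
          _ = Real.pi * C * 4 * Real.exp (-(Real.pi - |θ|) * |z.im|) *
            (Real.exp (Real.pi * |z.im|) / 4) := by ring
          _ ≤ _ := by gcongr
      · rw [norm_div, div_eq_mul_inv]
        gcongr
        exacts [hC 0 (by simp), abs_im_le_norm z])
    (by simp only [e]; exact (hAi.const_mul _).sub (hBi.const_mul _))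
  simp only [e] at key
  rw [integral_sub (hAi.const_mul _) (hBi.const_mul _), integral_const_mul, integral_const_mul,
    hB] at key
  exact mul_left_cancel₀ hπ (by linear_combination -key / 2)

open scoped FourierTransform in
theorem ker_unique {g : ℝ → ℂ} (hg : Continuous g) {C : ℝ} (hC : ∀ t, ‖g t‖ ≤ C)
    (h : ∀ θ : ℝ, |θ| < Real.pi → ∫ t : ℝ, (ker θ t : ℂ) * g t = 0) (t : ℝ) : g t = 0 := by
  set k := fun t : ℝ => (ker 0 t : ℂ) * g t with hk
  have hkc : Continuous k := (continuous_ofReal.comp (continuous_ker 0)).mul hg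
  have hki : Integrable k := integrable_ker_mul (by simpa using Real.pi_pos) hg hC
  have e1 : ∀ θ t : ℝ, exp (-θ * t) * k t = ker θ t * g t := fun θ t => by
    simp [hk, ker, div_eq_mul_inv, mul_assoc]
  have e2 : ∀ (w : ℂ) (t : ℝ), ‖exp (-w * t) * k t‖ ≤ ker w.re t * C := fun w t => by
    rw [norm_mul, norm_exp, show (-w * t).re = (-(w.re : ℂ) * t).re by simp, ← norm_exp,
      ← norm_mul, e1, norm_mul, norm_real, Real.norm_of_nonneg (ker_pos _ _).le]
    exact mul_le_mul_of_nonneg_left (hC t) (ker_pos _ _).le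
  have hC0 : 0 ≤ C := (norm_nonneg _).trans (hC 0)
  set Φ := fun w : ℂ => ∫ t : ℝ, exp (-w * t) * k t
  have hU : IsOpen {w : ℂ | |w.re| < Real.pi} := isOpen_lt (by fun_prop) continuous_const
  have hΦ : DifferentiableOn ℂ Φ {w : ℂ | |w.re| < Real.pi} := fun w hw => by
    set δ := (Real.pi - |w.re|) / 3 with hδ'
    have hδ : 0 < δ := div_pos (sub_pos.2 hw) three_pos
    refine (hasDerivAt_integral_of_dominated_loc_of_deriv_le (Metric.ball_mem_nhds w hδ)
      (F' := fun w t => -t * (exp (-w * t) * k t)) (bound := fun t => C / δ * Real.exp (-δ * |t|))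
      (.of_forall fun w => Continuous.aestronglyMeasurable (by fun_prop))
      (((integrable_ker hw).mul_const C).mono' (Continuous.aestronglyMeasurable (by fun_prop))
        (.of_forall (e2 w))) (Continuous.aestronglyMeasurable (by fun_prop))
      (.of_forall fun t v hv => ?_) ((int_exp_abs hδ).const_mul _)
      (.of_forall fun t v _ => ?_)).2.differentiableAt.differentiableWithinAt
    · have h1 := (abs_re_le_norm _).trans_lt (mem_ball_iff_norm.1 hv)
      have h2 := abs_sub_abs_le_abs_sub v.re w.re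
      rw [sub_re] at h1
      have h3 := ker_le (θ := v.re) (δ := 2 * δ) (by linarith) t
      have h4 : δ * |t| ≤ Real.exp (δ * |t|) := by linarith [Real.add_one_le_exp (δ * |t|)]
      rw [norm_mul, norm_neg, norm_real, Real.norm_eq_abs]
      calc _ ≤ (Real.exp (δ * |t|) / δ) * (Real.exp (-(2 * δ) * |t|) * C) := by
            gcongr
            exacts [(le_div_iff₀' hδ).2 h4, (e2 v t).trans (by gcongr)]
        _ = C / δ * (Real.exp (δ * |t|) * Real.exp (-(2 * δ) * |t|)) := by ring
        _ = _ := by rw [← Real.exp_add]; congr 2; ring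
    · simpa [mul_comm, mul_left_comm, mul_assoc] using
        (((hasDerivAt_id v).neg.mul_const (t : ℂ)).cexp).mul_const (k t)
  have hz := (hΦ.analyticOnNhd hU).eqOn_zero_of_preconnected_of_frequently_eq_zero
    (z₀ := 0) (Convex.isPreconnected (by
      simpa only [abs_lt, Set.ofPred_and] using
        (convex_halfSpace_re_gt (-Real.pi)).inter (convex_halfSpace_re_lt Real.pi)))
    (by simpa using Real.pi_pos) (by
      have h1 : Tendsto ((↑) : ℝ → ℂ) (𝓝[≠] 0) (𝓝[≠] 0) :=
        continuous_ofReal.continuousWithinAt.tendsto_nhdsWithin fun x hx => by simpa using hx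
      refine h1.frequently (Eventually.frequently (mem_nhdsWithin_of_mem_nhds ?_))
      filter_upwards [Ioo_mem_nhds (neg_lt_zero.2 Real.pi_pos) Real.pi_pos] with θ hθ
      simp only [Φ, e1]
      exact h θ (abs_lt.2 hθ))
  have hF : 𝓕 k = 0 := funext fun ξ => by
    rw [Real.fourier_real_eq_integral_exp_smul]
    refine Eq.trans ?_ (hz (x := 2 * Real.pi * ξ * I) (by simpa using Real.pi_pos))
    refine integral_congr_ae (.of_forall fun t => ?_)
    simp only [smul_eq_mul]
    congr 2
    push_cast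
    ring
  have := congrFun (hkc.fourierInv_fourier_eq hki (by rw [hF]; exact integrable_zero _ _ _)) t
  rw [hF, Real.fourierInv_eq] at this
  simpa [hk, (ker_pos 0 t).ne'] using this.symm

end Vale.Agent.P132
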