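import Vale.Agent.P132.RN
import Vale.Agent.P132.Strip
import Vale.Agent.P132.Pre

/-! The Tomita-Takesaki theorem. -/

namespace Vale.Agent.P132

open scoped InnerProductSpace ComplexConjugate Topology
open Vale.Agent.P082 Filter

variable {A : Type*} [CStarAlgebra A] [PartialOrder A] [StarOrderedRing A] {H : Type*}
  [NormedAddCommGroup H] [InnerProductSpace ℂ H] [CompleteSpace H] {S : Std A H}

/-- Truncated complex exponentials. -/
noncomputable def tex (L : ℝ) (z : ℂ) (s : ℝ) : ℂ := chi L s * Complex.exp (z * s)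

lemma bc_chi_mul (L : ℝ) {G : ℝ → ℂ} (hG : Continuous G) : BC fun s => chi L s * G s :=
  BC.mul_supp (continuous_chi L) (fun _ hs => chi_supp hs) hG

lemma bc_tex (L : ℝ) (z : ℂ) : BC (tex L z) := bc_chi_mul L (by fun_prop)

lemma norm_tex {L r : ℝ} {z : ℂ} (hz : |z.re| ≤ r) (s : ℝ) :
    ‖tex L z s‖ ≤ Real.exp (r * (L + 1)) := by
  rcases lt_or_ge (L + 1) |s| with hs | hs
  · rw [tex, chi_supp hs, zero_mul, norm_zero]; positivity
  · refine (norm_mul_le_of_le (norm_chi L s) le_rfl).trans ?_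
    rw [one_mul, Complex.norm_exp, Real.exp_le_exp, Complex.re_mul_ofReal]
    refine (le_abs_self _).trans ?_
    rw [abs_mul]
    exact mul_le_mul hz hs (abs_nonneg _) ((abs_nonneg _).trans hz)

lemma differentiable_tex (D : FC H) {L : ℝ} (hL : 0 ≤ L) :
    Differentiable ℂ fun z => D.fb (tex L z) := fun z => by
  have hb : BC fun s => chi L s * (Complex.exp (z * s) * s) := bc_chi_mul L (by fun_prop)
  refine HasDerivAt.differentiableAt
    (f' := D.fb fun s => chi L s * (Complex.exp (z * s) * s)) ?_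
  rw [hasDerivAt_iff_isLittleO_nhds_zero]
  refine (Asymptotics.IsBigO.of_bound (Real.exp (|z.re| * (L + 1)) * (L + 1) ^ 2)
    ?_).trans_isLittleO (Asymptotics.isLittleO_pow_id one_lt_two)
  filter_upwards [Metric.ball_mem_nhds 0 (show 0 < (L + 1)⁻¹ by positivity)] with h hh
  rw [mem_ball_zero_iff] at hh
  rw [← D.sub (bc_tex _ _) (bc_tex _ _), ← D.smul hb,
    ← D.sub ((bc_tex _ _).sub (bc_tex _ _)) ((BC.const h).mul hb)]
  refine ContinuousLinearMap.opNorm_le_bound _ (by positivity) (D.norm_le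
    (((bc_tex _ _).sub (bc_tex _ _)).sub ((BC.const h).mul hb)) fun s => ?_)
  have e : tex L (z + h) s - tex L z s - h * (chi L s * (Complex.exp (z * s) * s)) =
      tex L z s * (Complex.exp (h * s) - 1 - h * s) := by
    simp only [tex, add_mul, Complex.exp_add]; ring
  rw [e]
  rcases lt_or_ge (L + 1) |s| with hs | hs
  · rw [tex, chi_supp hs, zero_mul, zero_mul, norm_zero]; positivity
  · have h1 : ‖h * s‖ ≤ ‖h‖ * (L + 1) := norm_mul_le_of_le le_rfl (by simpa using hs)
    have h2 : ‖h‖ * (L + 1) ≤ 1 := by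
      rw [← le_div_iff₀ (by positivity), one_div]; exact hh.le
    refine (norm_mul_le_of_le (norm_tex le_rfl s) ((Complex.norm_exp_sub_one_sub_id_le
      (h1.trans h2)).trans (pow_le_pow_left₀ (norm_nonneg _) h1 2))).trans_eq ?_
    rw [norm_pow]
    ring

lemma FC.tendsto_chi (D : FC H) (α : H) : Tendsto (fun n : ℕ => D.fb (chi n) α) atTop (𝓝 α) :=
  Metric.tendsto_atTop.2 fun ε hε => by
    obtain ⟨L, hL⟩ := D.chi_near α (half_pos hε)
    obtain ⟨n, hn⟩ := exists_nat_ge L
    refine ⟨n, fun m hm => ?_⟩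
    rw [dist_comm, dist_eq_norm]
    exact (hL m (hn.trans (Nat.cast_le.2 hm))).trans_lt (half_lt_self hε)

omit [PartialOrder A] [StarOrderedRing A] in
lemma PM.cont_V (D : PM S) (x' : H →L[ℂ] H) (α β : H) :
    Continuous fun t => ⟪β, D.U t (D.J (x' (D.J (D.U (-t) α))))⟫_ℂ := by
  have e : ∀ t γ, ⟪β, D.U t γ⟫_ℂ = ⟪D.U (-t) β, γ⟫_ℂ := fun t γ => by
    rw [← D.toFC.inner_U t (D.U (-t) β), D.toFC.U_U_neg]
  simp only [e]
  exact ((D.toFC.continuous_U β).comp continuous_neg).inner (D.J.continuous.comp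
    (x'.continuous.comp (D.J.continuous.comp ((D.toFC.continuous_U α).comp continuous_neg))))

omit [PartialOrder A] [StarOrderedRing A] in
lemma PM.norm_V (D : PM S) (x' : H →L[ℂ] H) (α β : H) (t : ℝ) :
    ‖⟪β, D.U t (D.J (x' (D.J (D.U (-t) α))))⟫_ℂ‖ ≤ ‖β‖ * (‖x'‖ * ‖α‖) := by
  refine (norm_inner_le_norm _ _).trans (mul_le_mul_of_nonneg_left ?_ (norm_nonneg _))
  rw [D.toFC.norm_U, D.norm_J]
  exact (x'.le_opNorm _).trans_eq (by rw [D.norm_J, D.toFC.norm_U])

theorem intform (D : PM S) {x' : H →L[ℂ] H} (hx : ∀ a, x' * S.π a = S.π a * x')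
    (hs : IsSelfAdjoint x') {θ : ℝ} (h : |θ| < Real.pi) : ∃ x, ∀ α β,
      ⟪β, S.π x α⟫_ℂ = ∫ t : ℝ, (ker θ t : ℂ) * ⟪β, D.U t (D.J (x' (D.J (D.U (-t) α))))⟫_ℂ := by
  obtain ⟨x, hx'⟩ := opid D hx hs (c := Complex.exp ((θ / 2 : ℝ) * Complex.I)) (by
    rw [Complex.exp_ofReal_mul_I_re]
    exact Real.cos_pos_of_mem_Ioo ⟨by linarith [abs_lt.1 h], by linarith [abs_lt.1 h]⟩)
  refine ⟨x, fun α β => ?_⟩
  have key : ∀ L : ℝ, 0 ≤ L → ⟪D.fb (chi L) β, S.π x (D.fb (chi L) α)⟫_ℂ = ∫ t : ℝ, (ker θ t : ℂ) *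
      ⟪D.fb (chi L) β, D.U t (D.J (x' (D.J (D.U (-t) (D.fb (chi L) α)))))⟫_ℂ := fun L hL => by
    have hd := differentiable_tex D.toFC hL
    have h1 := strip (f := fun z => innerSL ℂ β (D.fb (tex L z) (S.π x (D.fb (tex L (-z)) α))))
      ((innerSL ℂ β).differentiable.comp (hd.clm_apply ((S.π x).differentiable.comp
        ((hd.comp differentiable_neg).clm_apply (differentiable_const α)))))
      (C := ‖β‖ * (Real.exp (1 / 2 * (L + 1)) * (‖x‖ * (Real.exp (1 / 2 * (L + 1)) * ‖α‖))))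
      (fun z hz => (norm_inner_le_norm _ _).trans (by
        gcongr
        refine (D.toFC.norm_le (bc_tex _ _) (norm_tex hz) _).trans ?_
        gcongr
        refine (S.norm_apply_le _ _).trans ?_
        gcongr
        exact D.toFC.norm_le (bc_tex _ _) (norm_tex (by simpa using hz)) _)) h
    have t0 : tex L 0 = chi L := funext fun s => by simp [tex]
    have hc : ∀ γ, ⟪D.fb (chi L) β, γ⟫_ℂ = ⟪β, D.fb (chi L) γ⟫_ℂ := fun γ => by
      rw [D.toFC.inner_left (bc_chi L), funext (conj_chi L)]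
    simp only [innerSL_apply_apply, neg_zero, t0] at h1
    rw [hc, h1]
    refine MeasureTheory.integral_congr_ae (.of_forall fun t => ?_)
    have hP : ∀ t, BC fun s => chi L s * (ex t s * (qq s)⁻¹) := fun t =>
      bc_chi_mul L ((bc_ex t).1.mul (bc_qq.1.inv₀ qq_ne))
    have hE : ∀ s, EE s ≠ 0 := fun s => Complex.ofReal_ne_zero.2 (Real.exp_pos _).ne'
    have e1 : ∀ t s : ℝ, tex L (1 / 2 + t * Complex.I) s = chi L s * ex t s * EE s := fun t s => by
      rw [tex, ex, EE, Complex.ofReal_exp, mul_assoc, ← Complex.exp_add]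
      congr 2; push_cast; ring
    have e2 : ∀ t s : ℝ, tex L (-(1 / 2) + t * Complex.I) s = chi L s * ex t s / EE s :=
      fun t s => by
      rw [tex, ex, EE, Complex.ofReal_exp, mul_div_assoc, ← Complex.exp_sub]
      congr 2; push_cast; ring
    have f1 : (fun s => chi L s * (ex t s * (qq s)⁻¹) * rr s) = tex L (1 / 2 + t * Complex.I) :=
      funext fun s => by rw [e1, rr_eq]; have := qq_ne s; field_simp
    have f2 : (fun s => chi L s * (ex t s * (qq s)⁻¹) * pp s) = tex L (-(1 / 2) + t * Complex.I) :=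
      funext fun s => by rw [e2, qq_eq]; have := pp_ne s; have := hE s; field_simp
    have f3 : (fun s => rr s * (chi L s * (ex (-t) s * (qq s)⁻¹))) =
        tex L (-(-(1 / 2) + t * Complex.I)) := funext fun s => by
      rw [show -(-(1 / 2) + t * Complex.I) = 1 / 2 + (-t : ℝ) * Complex.I by push_cast; ring, e1,
        rr_eq]
      have := qq_ne s; field_simp
    have f4 : (fun s => pp s * (chi L s * (ex (-t) s * (qq s)⁻¹))) =
        tex L (-(1 / 2 + t * Complex.I)) := funext fun s => by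
      rw [show -(1 / 2 + t * Complex.I) = -(1 / 2) + (-t : ℝ) * Complex.I by push_cast; ring, e2,
        qq_eq]
      have := pp_ne s; have := hE s; field_simp
    have f5 : (fun s => chi L s * (ex t s * (qq s)⁻¹) * qq s) = fun s => chi L s * ex t s :=
      funext fun s => by have := qq_ne s; field_simp
    have f6 : (fun s => qq s * (chi L s * (ex (-t) s * (qq s)⁻¹))) =
        fun s => ex (-t) s * chi L s := funext fun s => by have := qq_ne s; field_simp
    have h2 := congrArg (D.fb fun s => chi L s * (ex t s * (qq s)⁻¹))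
      (hx' (D.fb (fun s => chi L s * (ex (-t) s * (qq s)⁻¹)) α))
    rw [map_add, map_smul, map_smul, D.toFC.mul_apply (hP _) bc_qq, D.toFC.mul_apply (hP _) bc_rr,
      D.toFC.mul_apply (hP _) bc_pp, D.toFC.mul_apply bc_qq (hP _), D.toFC.mul_apply bc_rr (hP _),
      D.toFC.mul_apply bc_pp (hP _), f1, f2, f3, f4, f5, f6,
      ← D.toFC.mul_apply (bc_chi L) (bc_ex t), ← D.toFC.mul_apply (bc_ex (-t)) (bc_chi L)] at h2
    simp only [hc, FC.U, h2, inner_add_right, inner_smul_right, ← Complex.exp_conj, map_mul,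
      Complex.conj_ofReal, Complex.conj_I, Complex.ofReal_neg, neg_mul, mul_neg]
  have hα := D.toFC.tendsto_chi α
  have hβ := D.toFC.tendsto_chi β
  have hn : ∀ (n : ℕ) γ, ‖D.fb (chi n) γ‖ ≤ ‖γ‖ := fun n γ => by
    simpa using D.toFC.norm_le (bc_chi n) (norm_chi n) γ
  refine tendsto_nhds_unique (hβ.inner (((S.π x).continuous.tendsto α).comp hα)) ?_
  simp only [Function.comp_def, fun n : ℕ => key n n.cast_nonneg]
  refine MeasureTheory.tendsto_integral_of_dominated_convergence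
    (fun t => ker θ t * (‖β‖ * (‖x'‖ * ‖α‖))) (fun n => Continuous.aestronglyMeasurable
      ((Complex.continuous_ofReal.comp (continuous_ker θ)).mul (D.cont_V _ _ _)))
    ((integrable_ker h).mul_const _) (fun n => .of_forall fun t => ?_) (.of_forall fun t => ?_)
  · refine norm_mul_le_of_le (by simp [abs_of_pos (ker_pos θ t)]) ((D.norm_V _ _ _ t).trans ?_)
    gcongr <;> apply hn
  · refine Tendsto.const_mul _ (hβ.inner ((Continuous.tendsto
      (f := fun α => D.U t (D.J (x' (D.J (D.U (-t) α))))) ?_ α).comp hα))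
    fun_prop

theorem tt_one (D : PM S) {x' : H →L[ℂ] H} (hx : ∀ a, x' * S.π a = S.π a * x') (t : ℝ) :
    ∃ b, ∀ α, S.π b α = D.U t (D.J (x' (D.J (D.U (-t) α)))) := by
  have key : ∀ x' : H →L[ℂ] H, (∀ a, x' * S.π a = S.π a * x') → IsSelfAdjoint x' →
      ∃ b, ∀ α, S.π b α = D.U t (D.J (x' (D.J (D.U (-t) α)))) := fun x' hx hs => by
    obtain ⟨b, hb⟩ := S.bic (D.U t * D.J.comp (x'.comp D.J) * D.U (-t)) fun y hy =>
      ContinuousLinearMap.ext fun α => ext_inner_left ℂ fun β => by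
        have h1 := ker_unique ((D.cont_V x' α (y.adjoint β)).sub (D.cont_V x' (y α) β))
          (fun t => norm_sub_le_of_le (D.norm_V _ _ _ t) (D.norm_V _ _ _ t)) (fun θ h => by
            obtain ⟨x, hx'⟩ := intform D hx hs h
            simp only [Pi.sub_apply, mul_sub]
            rw [MeasureTheory.integral_sub
              (integrable_ker_mul h (D.cont_V _ _ _) (D.norm_V _ _ _))
              (integrable_ker_mul h (D.cont_V _ _ _) (D.norm_V _ _ _)), ← hx', ← hx',
              ContinuousLinearMap.adjoint_inner_left, sub_eq_zero]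
            exact congr(⟪β, $(hy x) α⟫_ℂ)) t
        rwa [Pi.sub_apply, ContinuousLinearMap.adjoint_inner_left, sub_eq_zero] at h1
    exact ⟨b, fun α => by rw [hb]; rfl⟩
  have hx2 : ∀ a, star x' * S.π a = S.π a * star x' := fun a => by
    simpa [map_star] using congrArg star (hx (star a)).symm
  obtain ⟨b, hb⟩ := key (x' + star x') (fun a => by rw [add_mul, mul_add, hx, hx2])
    (.add_star_self _)
  obtain ⟨c, hc⟩ := key (Complex.I • (x' - star x')) (fun a => by
    rw [smul_mul_assoc, mul_smul_comm, sub_mul, mul_sub, hx, hx2]) (by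
    simp [IsSelfAdjoint, sub_eq_neg_add, add_comm])
  refine ⟨(2 : ℂ)⁻¹ • (b + Complex.I • c), fun α => ?_⟩
  simp only [map_smul, map_add, _root_.smul_apply, _root_.add_apply, _root_.sub_apply, hb, hc,
    map_smulₛₗ, map_sub, Complex.conj_I, smul_smul, mul_neg, Complex.I_mul_I]
  module

theorem exists_MD (S : Std A H) : Nonempty (MD S) := by
  obtain ⟨D⟩ := exists_PM S
  have h1 : ∀ a y, D.ρ a (S.π y S.ξ) = S.π y (D.ρ a S.ξ) := fun a y => by
    refine sub_eq_zero.1 (S.dense_comm fun x' _ hx => ?_)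
    obtain ⟨m, hm⟩ := tt_one D hx 0
    simp only [neg_zero, D.toFC.U_zero, one_apply_eq_self] at hm
    have e : ∀ γ, x' γ = D.ρ (star m) γ := fun γ => by rw [D.ρ_apply, star_star, hm, D.JJ, D.JJ]
    have e2 : S.π (star y) (x' S.ξ) = x' (S.π (star y) S.ξ) := congr($(hx (star y)) S.ξ).symm
    rw [inner_sub_right, ← S.inner_star_left y, e2, e, e, ← D.inner_ρ_left a, ← D.ρ_mul_apply,
      D.symm, D.ρ_ξ a, D.ρ_apply (star m), D.inner_J, star_star, ← D.ρ_ξ, S.mul_apply,
      S.inner_star_left, sub_self]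
  have h2 : ∀ a b α, D.ρ a (S.π b α) = S.π b (D.ρ a α) := fun a b α =>
    S.cyc.induction_on (p := fun α => D.ρ a (S.π b α) = S.π b (D.ρ a α)) α
      (isClosed_eq (by fun_prop) (by fun_prop)) fun c => by
        rw [← S.mul_apply, h1, h1, S.mul_apply]
  refine ⟨{ D with comm := fun a b α => ?_, inv := fun t a => ?_ }⟩
  · simpa only [D.ρ_apply, star_star] using h2 (star a) b α
  · obtain ⟨b, hb⟩ := tt_one D (x' := D.ρ (star a))
      (fun b => ContinuousLinearMap.ext (h2 (star a) b)) t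
    exact ⟨b, ContinuousLinearMap.ext fun α => by rw [hb, D.J_ρ, star_star, D.JJ]; rfl⟩

end Vale.Agent.P132
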