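import Vale.Agent.P132.KeyA
import Mathlib.LinearAlgebra.Complex.Module

/-! The key lemma: random products of unitaries. -/

namespace Vale.Agent.P132

open scoped InnerProductSpace ComplexConjugate Topology ComplexStarModule
open Vale.Agent.P082 Filter Finset

variable {A : Type*} [CStarAlgebra A] {H : Type*}
  [NormedAddCommGroup H] [InnerProductSpace ℂ H] [CompleteSpace H] {S : Std A H}

namespace MD

variable {D : MD S} {ζ : H}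

lemma walk (hζ : ζ ∈ D.V) {ε : ℝ} (hε : 0 < ε) : ∃ K : ℝ, 0 ≤ K ∧ ∀ (ι : Type) [Fintype ι]
    (u : ι → A), (∀ i, u i ∈ unitary A) → ∀ m : ℕ, 0 < m → ∃ z : H, ‖z‖ ≤ ‖ζ‖ ∧
      ‖z - ζ‖ ≤ ε + K * (m * ∑ i, ‖S.π (u i) S.ξ - D.ρ (u i) S.ξ‖ ^ 2) ∧
      m * ∑ i, ‖S.π (u i) z - D.ρ (u i) z‖ ^ 2 ≤ 4 * ‖ζ‖ ^ 2 := by
  obtain ⟨η, hη, h⟩ := hζ ε hε
  refine ⟨2 * ‖ζ‖ / η ^ 2, by positivity, fun ι _ u hu m hm => ?_⟩
  set K := 2 * ‖ζ‖ / η ^ 2 with hK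
  have hK0 : 0 ≤ K := by positivity
  have a1 : ∀ v ∈ unitary A, ‖D.Wu v ζ - ζ‖ ≤ ε + 2 * K * (1 - (⟪S.ξ, D.Wu v S.ξ⟫_ℂ).re) := by
    intro v hv
    have h1 := Wu_sq (D := D) hv S.ξ
    rw [S.norm_ξ] at h1
    have h2 : 2 * K * (1 - (⟪S.ξ, D.Wu v S.ξ⟫_ℂ).re) = K * ‖S.π v S.ξ - D.ρ v S.ξ‖ ^ 2 := by
      rw [h1]; ring
    rw [h2]
    rcases le_or_gt ‖S.π v S.ξ - D.ρ v S.ξ‖ η with h3 | h3
    · rw [norm_Wu_sub hv]
      exact (h v hv h3).trans (le_add_of_nonneg_right (by positivity))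
    · have h4 := norm_sub_le (D.Wu v ζ) ζ
      rw [norm_Wu hv] at h4
      have h5 : K * η ^ 2 ≤ K * ‖S.π v S.ξ - D.ρ v S.ξ‖ ^ 2 := by gcongr
      rw [hK, div_mul_cancel₀ _ (by positivity)] at h5
      linarith
  let g : Option ι × Bool → A := fun p => p.1.elim 1 fun i => if p.2 then u i else star (u i)
  have hg : ∀ p, g p ∈ unitary A := by
    rintro ⟨_ | i, b⟩
    · exact one_mem _
    · cases b
      exacts [Unitary.star_mem (hu i), hu i]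
  set N : ℕ := Fintype.card ι + 1 with hN
  have hN0 : (0 : ℝ) < N := by positivity
  have hc : (Fintype.card (Option ι × Bool) : ℝ) = 2 * N := by simp [hN, mul_comm]
  set T : H →L[ℂ] H := ((2 * N : ℝ)⁻¹ : ℝ) • ∑ p, D.Wu (g p) with hT
  have W1 : D.Wu 1 = 1 := by simp [Wu, D.ρ_one]
  have hT' : ∑ p, D.Wu (g p) = 1 + 1 + ∑ i, (D.Wu (u i) + star (D.Wu (u i))) := by
    simp [Fintype.sum_prod_type, g, W1, Wu_star, sum_add_distrib]
    abel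
  have hs : IsSelfAdjoint T := by
    rw [hT, hT', IsSelfAdjoint]
    simp [star_sum, add_comm]
  have hn : ‖T‖ ≤ 1 := T.opNorm_le_bound zero_le_one fun α => by
    rw [hT, smul_apply, _root_.sum_apply, norm_smul, Real.norm_of_nonneg (by positivity),
      inv_mul_le_iff₀ (by positivity)]
    refine (norm_sum_le _ _).trans_eq ?_
    simp only [norm_Wu (hg _), sum_const, card_univ, nsmul_eq_mul, hc, one_mul]
  have hq : ∀ α, ∑ i, ‖S.π (u i) α - D.ρ (u i) α‖ ^ 2 = 2 * N * (‖α‖ ^ 2 - (⟪α, T α⟫_ℂ).re) := by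
    intro α
    have e1 : ∀ i, (⟪α, star (D.Wu (u i)) α⟫_ℂ).re = (⟪α, D.Wu (u i) α⟫_ℂ).re := fun i => by
      rw [ContinuousLinearMap.star_eq_adjoint, ContinuousLinearMap.adjoint_inner_right,
        ← inner_conj_symm, Complex.conj_re]
    have e2 : (⟪α, α⟫_ℂ).re = ‖α‖ ^ 2 := inner_self_eq_norm_sq (𝕜 := ℂ) α
    rw [hT, hT', smul_apply, ← Complex.coe_smul, inner_smul_right, Complex.re_ofReal_mul]
    simp only [Wu_sq (hu _), add_apply, _root_.sum_apply, one_apply_eq_self, inner_add_right, inner_sum,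
      Complex.add_re, Complex.re_sum, e1, e2, sum_sub_distrib, sum_add_distrib, sum_const,
      card_univ, nsmul_eq_mul, ← mul_sum]
    field_simp
    push_cast [hN]
    ring
  have a2 : ∀ k : ℕ, ∀ v ∈ unitary A, ‖D.Wu v ((T ^ k) ζ) - ζ‖ ≤
      ε + 2 * K * (1 - (⟪S.ξ, D.Wu v ((T ^ k) S.ξ)⟫_ℂ).re) := fun k => by
    induction k with
    | zero => simpa using a1
    | succ k ih =>
      intro v hv
      have e1 : ∀ α, D.Wu v ((T ^ (k + 1)) α) =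
          ((2 * N : ℝ)⁻¹ : ℝ) • ∑ p, D.Wu (v * g p) ((T ^ k) α) := fun α => by
        rw [pow_succ', mul_apply_eq_comp]
        nth_rw 1 [hT]
        simp only [smul_apply, _root_.sum_apply, Wu_mul, mul_apply_eq_comp, map_sum,
          ContinuousLinearMap.map_smul_of_tower]
      have e2 : ζ = ((2 * N : ℝ)⁻¹ : ℝ) • ∑ _p : Option ι × Bool, ζ := by
        rw [sum_const, card_univ, ← Nat.cast_smul_eq_nsmul ℝ, hc, inv_smul_smul₀ (by positivity)]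
      rw [e1, e1]
      nth_rw 2 [e2]
      rw [← smul_sub, ← sum_sub_distrib, norm_smul, Real.norm_of_nonneg (by positivity),
        inv_mul_le_iff₀ (by positivity), ← Complex.coe_smul, inner_smul_right,
        Complex.re_ofReal_mul, inner_sum, Complex.re_sum]
      refine ((norm_sum_le _ _).trans (sum_le_sum fun p _ => ih _ (mul_mem hv (hg p)))).trans_eq ?_
      simp only [sum_add_distrib, sum_sub_distrib, ← mul_sum, sum_const, card_univ, nsmul_eq_mul,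
        hc]
      field_simp
  set n : ℕ := N * m with hn'
  have hn0 : (0 : ℝ) < n := by positivity
  have hp : ∀ (k : ℕ) α, ‖(T ^ k) α‖ ≤ ‖α‖ := fun k α =>
    ((T ^ k).le_opNorm α).trans
      (mul_le_of_le_one_left (norm_nonneg _) (pow_def.norm_pow_le_of_le_one hn k))
  have hz : ‖((n : ℝ)⁻¹ : ℝ) • ∑ k ∈ range n, (T ^ k) ζ‖ ≤ ‖ζ‖ := by
    rw [norm_smul, Real.norm_of_nonneg (by positivity), inv_mul_le_iff₀ hn0]
    exact (norm_sum_le _ _).trans ((sum_le_sum fun k _ => hp k ζ).trans_eq (by simp))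
  refine ⟨_, hz, ?_, ?_⟩
  · have e2 : ζ = ((n : ℝ)⁻¹ : ℝ) • ∑ _k ∈ range n, ζ := by
      rw [sum_const, card_range, ← Nat.cast_smul_eq_nsmul ℝ, inv_smul_smul₀ hn0.ne']
    nth_rw 2 [e2]
    rw [← smul_sub, ← sum_sub_distrib, norm_smul, Real.norm_of_nonneg (by positivity),
      inv_mul_le_iff₀ hn0]
    refine (norm_sum_le _ _).trans ((sum_le_sum fun k hk => ?_).trans_eq (by
      rw [sum_const, card_range, nsmul_eq_mul]))
    have h1 := a2 k 1 (one_mem _)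
    have h2 := pow_def hs hn k S.ξ
    have h3 := hq S.ξ
    have h4 : 0 ≤ ‖S.ξ‖ ^ 2 - (⟪S.ξ, T S.ξ⟫_ℂ).re := by
      refine (mul_nonneg_iff_of_pos_left (show (0 : ℝ) < 2 * N by positivity)).1 ?_
      rw [← h3]; positivity
    have h5 : (k : ℝ) ≤ N * m := by exact_mod_cast (mem_range.1 hk).le
    rw [W1, one_apply_eq_self, one_apply_eq_self] at h1
    rw [h3]
    rw [S.norm_ξ] at *
    have h6 := mul_le_mul_of_nonneg_right h5 h4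
    nlinarith [mul_le_mul_of_nonneg_left (h2.trans h6) hK0]
  · set z := ((n : ℝ)⁻¹ : ℝ) • ∑ k ∈ range n, (T ^ k) ζ with hz'
    have e1 : z - T z = ((n : ℝ)⁻¹ : ℝ) • (ζ - (T ^ n) ζ) := by
      rw [hz', ContinuousLinearMap.map_smul_of_tower, ← smul_sub, map_sum, ← sum_sub_distrib]
      simp only [← mul_apply_eq_comp, ← pow_succ']
      rw [sum_range_sub' (fun k => (T ^ k) ζ)]
      simp
    have e2 : ‖z‖ ^ 2 - (⟪z, T z⟫_ℂ).re = (⟪z, z - T z⟫_ℂ).re := by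
      rw [inner_sub_right, Complex.sub_re, ← inner_self_eq_norm_sq (𝕜 := ℂ), RCLike.re_to_complex]
    have e3 : ‖z - T z‖ ≤ (n : ℝ)⁻¹ * (2 * ‖ζ‖) := by
      rw [e1, norm_smul, Real.norm_of_nonneg (by positivity)]
      gcongr
      linarith [norm_sub_le ζ ((T ^ n) ζ), hp n ζ]
    have e4 := ((Complex.re_le_norm _).trans (norm_inner_le_norm z (z - T z))).trans
      (mul_le_mul hz e3 (norm_nonneg _) (norm_nonneg _))
    rw [hq, e2]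
    calc _ ≤ m * (2 * N * (‖ζ‖ * ((n : ℝ)⁻¹ * (2 * ‖ζ‖)))) := by gcongr
      _ = _ := by
        rw [hn']; push_cast; field_simp; ring

lemma exists_un {a : A} (ha : IsSelfAdjoint a) (h1 : ‖a‖ ≤ 1) :
    ∃ u ∈ unitary A, ‖u - a - Complex.I • 1‖ ≤ ‖a‖ ^ 2 := by
  have hsp : ∀ x ∈ spectrum ℝ a, x ^ 2 ≤ ‖a‖ ^ 2 := fun x hx => by
    rcases subsingleton_or_nontrivial A with _ | _
    · simp at hx
    · exact sq_le_sq.2 (by simpa using spectrum.norm_le_norm_of_mem hx)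
  have hs1 : ∀ x ∈ spectrum ℝ a, x ^ 2 ≤ 1 := fun x hx =>
    (hsp x hx).trans (pow_le_one₀ (norm_nonneg _) h1)
  set C := cfc (fun x : ℝ => √(1 - x ^ 2)) a with hC
  have hCs : IsSelfAdjoint C := cfc_predicate _ _
  have hc : a * C = C * a := ((Commute.refl a).cfc_real _).symm
  have h2 : C * C = 1 - a * a := by
    rw [hC, ← cfc_mul .., ← cfc_one ℝ a, ← sq]
    nth_rw 3 [← cfc_id' ℝ a]
    rw [← cfc_pow .., ← cfc_sub ..]
    exact cfc_congr fun x hx => by simpa using Real.mul_self_sqrt (sub_nonneg.2 (hs1 x hx))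
  refine ⟨a + Complex.I • C, ⟨?_, ?_⟩, ?_⟩
  · simp [ha.star_eq, hCs.star_eq, mul_add, add_mul, smul_smul, hc, h2]
  · simp [ha.star_eq, hCs.star_eq, mul_add, add_mul, smul_smul, hc, h2]
    abel
  · rw [add_sub_cancel_left, ← smul_sub, norm_smul, Complex.norm_I, one_mul, hC, ← cfc_one ℝ a,
      ← cfc_sub ..]
    refine norm_cfc_le (by positivity) fun x hx => ?_
    have h3 := Real.mul_self_sqrt (sub_nonneg.2 (hs1 x hx))
    have h4 := Real.sqrt_nonneg (1 - x ^ 2)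
    have h5 : √(1 - x ^ 2) ≤ 1 := Real.sqrt_le_one.2 (by nlinarith)
    rw [Pi.one_apply, Real.norm_eq_abs, abs_sub_comm, abs_of_nonneg (by linarith)]
    nlinarith [hsp x hx]

variable (D) in
/-- The commutator with an element. -/
noncomputable def ad (a : A) (α : H) : H := S.π a α - D.ρ a α

lemma ad_add (a b : A) (α : H) : D.ad (a + b) α = D.ad a α + D.ad b α := by
  simp only [ad, map_add, D.ρ_add, add_apply]; abel

lemma ad_smul (c : ℂ) (a : A) (α : H) : D.ad (c • a) α = c • D.ad a α := by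
  simp only [ad, map_smul, D.ρ_smul, smul_apply, smul_sub]

lemma ad_smul' (c : ℂ) (a : A) (α : H) : D.ad a (c • α) = c • D.ad a α := by
  simp only [ad, map_smul, smul_sub]

lemma norm_ad_le (a : A) (α : H) : ‖D.ad a α‖ ≤ 2 * ‖a‖ * ‖α‖ := by
  linarith [norm_sub_le (S.π a α) (D.ρ a α), S.norm_apply_le a α, D.norm_ρ_le a α,
    show ‖D.ad a α‖ = ‖S.π a α - D.ρ a α‖ from rfl]

lemma exists_un' {a : A} (ha : IsSelfAdjoint a) {r : ℝ} (hr : 0 < r) (h1 : ‖a‖ ≤ r) :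
    ∃ u ∈ unitary A, ∀ α, ‖(r : ℂ) • D.ad u α - D.ad a α‖ ≤ 2 * ‖a‖ ^ 2 / r * ‖α‖ := by
  have hn : ‖(r⁻¹ : ℝ) • a‖ = r⁻¹ * ‖a‖ := by
    rw [norm_smul, Real.norm_of_nonneg (by positivity)]
  obtain ⟨u, hu, h⟩ := exists_un ((IsSelfAdjoint.all (r⁻¹ : ℝ)).smul ha)
    (by rwa [hn, inv_mul_le_one₀ hr])
  refine ⟨u, hu, fun α => ?_⟩
  have e1 : u = (u - r⁻¹ • a - Complex.I • 1) + ((r⁻¹ : ℝ) : ℂ) • a + Complex.I • 1 := by
    rw [Complex.coe_smul]; abel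
  have e2 : D.ad 1 α = 0 := by simp [ad, D.ρ_one]
  rw [e1, ad_add, ad_add, ad_smul, ad_smul, e2, smul_zero, add_zero, smul_add, smul_smul,
    ← Complex.ofReal_mul, mul_inv_cancel₀ hr.ne', Complex.ofReal_one, one_smul, add_sub_cancel_right,
    norm_smul, Complex.norm_real, Real.norm_of_nonneg hr.le]
  rw [hn] at h
  calc _ ≤ r * (2 * (r⁻¹ * ‖a‖) ^ 2 * ‖α‖) := by
        gcongr
        exact (norm_ad_le _ _).trans (by gcongr)
    _ = _ := by field_simp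

lemma key_sa (hζ : ζ ∈ D.V) {ε : ℝ} (hε : 0 < ε) : ∃ K : ℝ, 0 ≤ K ∧ ∀ (ι : Type) [Fintype ι]
    (Y : ι → A) (η : ι → H), (∀ i, IsSelfAdjoint (Y i)) →
      ‖⟪ζ, ∑ i, D.ad (Y i) (η i)⟫_ℂ‖ ≤ (ε + K * ∑ i, ‖D.ad (Y i) S.ξ‖ ^ 2) *
        ‖∑ i, D.ad (Y i) (η i)‖ + 2 * ‖ζ‖ * √(∑ i, ‖η i‖ ^ 2) := by
  obtain ⟨K, hK, h⟩ := walk hζ hε
  refine ⟨2 * K, by positivity, fun ι _ Y η hY => ?_⟩
  set Z := ∑ i, D.ad (Y i) (η i) with hZ
  set C := ∑ i, ‖D.ad (Y i) S.ξ‖ ^ 2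
  set c₁ := 8 * K * (∑ i, ‖Y i‖ ^ 4) * ‖Z‖ + 2 * ‖ζ‖ * ∑ i, ‖Y i‖ ^ 2 * ‖η i‖ with hc
  have hc0 : 0 ≤ c₁ := by positivity
  refine le_of_forall_pos_le_add fun δ hδ => ?_
  obtain ⟨r, hr⟩ := exists_nat_ge (1 + ∑ i, ‖Y i‖ + c₁ / δ)
  have h0 : 0 ≤ ∑ i, ‖Y i‖ := by positivity
  have h0' : 0 ≤ c₁ / δ := by positivity
  have r1 : (1 : ℝ) ≤ r := by linarith
  have r0 : (0 : ℝ) < r := by linarith
  have r2 : c₁ / r ≤ δ := by
    rw [div_le_iff₀ r0, ← div_le_iff₀' hδ]; linarith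
  choose u hu hd using fun i => exists_un' (D := D) (hY i) r0
    ((single_le_sum (f := fun i => ‖Y i‖) (fun _ _ => norm_nonneg _) (mem_univ i)).trans
      (by linarith))
  obtain ⟨z, z1, z2, z3⟩ := h ι u hu (r ^ 2) (by exact_mod_cast pow_pos r0 2)
  have n1 : ∀ i α, ‖(r : ℂ) • D.ad (u i) α‖ = r * ‖S.π (u i) α - D.ρ (u i) α‖ := fun i α => by
    rw [norm_smul, Complex.norm_natCast, ad]
  have b1 : ((r ^ 2 : ℕ) : ℝ) * ∑ i, ‖S.π (u i) S.ξ - D.ρ (u i) S.ξ‖ ^ 2 ≤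
      2 * C + 8 * (∑ i, ‖Y i‖ ^ 4) / r := by
    rw [mul_sum, mul_sum, mul_sum, sum_div, ← sum_add_distrib]
    refine sum_le_sum fun i _ => ?_
    have h1 := hd i S.ξ
    have h2 := norm_le_norm_add_norm_sub' ((r : ℂ) • D.ad (u i) S.ξ) (D.ad (Y i) S.ξ)
    rw [S.norm_ξ, mul_one, Complex.ofReal_natCast] at h1
    rw [n1] at h2
    have h3 : (2 * ‖Y i‖ ^ 2 / r) ^ 2 ≤ 4 * ‖Y i‖ ^ 4 / r := by
      rw [div_pow, div_le_div_iff₀ (by positivity) r0]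
      nlinarith [mul_nonneg (mul_nonneg (pow_nonneg (norm_nonneg (Y i)) 4) r0.le) (sub_nonneg.2 r1)]
    have h4 := pow_le_pow_left₀ (by positivity) (h2.trans (add_le_add_right h1 _)) 2
    have h5 : 8 * ‖Y i‖ ^ 4 / r = 2 * (4 * ‖Y i‖ ^ 4 / r) := by ring
    push_cast
    nlinarith [sq_nonneg (‖D.ad (Y i) S.ξ‖ - 2 * ‖Y i‖ ^ 2 / r)]
  have b2 : ∀ i, ‖⟪z, D.ad (Y i) (η i)⟫_ℂ‖ ≤ r * ‖S.π (u i) z - D.ρ (u i) z‖ * ‖η i‖ +
      2 * ‖ζ‖ * (‖Y i‖ ^ 2 * ‖η i‖) / r := fun i => by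
    have e : ⟪z, D.ad (Y i) (η i)⟫_ℂ = ⟪D.ad (Y i) z, η i⟫_ℂ := by
      rw [ad, ad, inner_sub_left, inner_sub_right, ← S.inner_star_left, ← D.inner_ρ_left,
        (hY i).star_eq]
    have h1 := hd i z
    have h2 := norm_le_norm_add_norm_sub ((r : ℂ) • D.ad (u i) z) (D.ad (Y i) z)
    rw [Complex.ofReal_natCast] at h1
    rw [n1] at h2
    have h3 : 2 * ‖Y i‖ ^ 2 / r * ‖z‖ ≤ 2 * ‖Y i‖ ^ 2 / r * ‖ζ‖ := by gcongr
    rw [e]
    refine ((norm_inner_le_norm _ _).trans (mul_le_mul_of_nonneg_right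
      (h2.trans (add_le_add_right (h1.trans h3) _)) (norm_nonneg _))).trans_eq ?_
    ring
  have b3 : ∑ i, r * ‖S.π (u i) z - D.ρ (u i) z‖ * ‖η i‖ ≤ 2 * ‖ζ‖ * √(∑ i, ‖η i‖ ^ 2) := by
    refine (Real.sum_mul_le_sqrt_mul_sqrt _ _ _).trans (mul_le_mul_of_nonneg_right ?_ (by positivity))
    rw [Real.sqrt_le_left (by positivity)]
    simp only [mul_pow, ← mul_sum]
    push_cast at z3
    linarith
  have b4 : ‖⟪z, Z⟫_ℂ‖ ≤ 2 * ‖ζ‖ * √(∑ i, ‖η i‖ ^ 2) + 2 * ‖ζ‖ * (∑ i, ‖Y i‖ ^ 2 * ‖η i‖) / r := by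
    rw [hZ, inner_sum]
    refine ((norm_sum_le _ _).trans (sum_le_sum fun i _ => b2 i)).trans ?_
    rw [sum_add_distrib, ← sum_div, ← mul_sum]
    gcongr
  have b5 : ‖⟪z - ζ, Z⟫_ℂ‖ ≤ (ε + K * (2 * C + 8 * (∑ i, ‖Y i‖ ^ 4) / r)) * ‖Z‖ :=
    (norm_inner_le_norm _ _).trans (by gcongr; exact z2.trans (by gcongr))
  have b6 := norm_le_norm_add_norm_sub ⟪z, Z⟫_ℂ ⟪ζ, Z⟫_ℂ
  rw [← inner_sub_left] at b6
  have b7 : c₁ / r = K * (8 * (∑ i, ‖Y i‖ ^ 4) / r) * ‖Z‖ +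
    2 * ‖ζ‖ * (∑ i, ‖Y i‖ ^ 2 * ‖η i‖) / r := by rw [hc]; ring
  nlinarith

end MD

open MD in
theorem key {D : MD S} {ζ : H} (hζ : ζ ∈ D.V) (L : ℝ) {ε : ℝ} (hε : 0 < ε) :
    ∃ δ : ℝ, 0 < δ ∧ ∀ (ι : Type) [Fintype ι] (Y : ι → A) (η : ι → H),
      (∑ i, ‖S.π (Y i) S.ξ - D.ρ (Y i) S.ξ‖ ^ 2) * (∑ i, ‖η i‖ ^ 2) ≤ δ →
      ‖∑ i, (S.π (Y i) (η i) - D.ρ (Y i) (η i))‖ ≤ L →
      ‖⟪ζ, ∑ i, (S.π (Y i) (η i) - D.ρ (Y i) (η i))⟫_ℂ‖ ≤ ε := by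
  obtain ⟨K, hK, h⟩ := key_sa hζ (ε := ε / (3 * (|L| + 1))) (by positivity)
  refine ⟨ε ^ 3 / (432 * (K + 1) * (‖ζ‖ + 1) ^ 2 * (|L| + 1)), by positivity,
    fun ι _ Y η h1 h2 => ?_⟩
  set C := ∑ i, ‖S.π (Y i) S.ξ - D.ρ (Y i) S.ξ‖ ^ 2 with hC
  set E := ∑ i, ‖η i‖ ^ 2 with hE
  have E0 : 0 ≤ E := by positivity
  rcases E0.eq_or_lt with h0 | h0
  · have : ∀ i, η i = 0 := fun i => by
      simpa using (sum_eq_zero_iff_of_nonneg fun _ _ => by positivity).1 h0.symm i (mem_univ i)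
    simpa [this] using hε.le
  have q0 : 0 < √(2 * E) := Real.sqrt_pos.2 (by positivity)
  set s := 6 * (‖ζ‖ + 1) * √(2 * E) / ε with hs
  have s0 : 0 < s := by positivity
  have s1 : (s : ℂ) ≠ 0 := by exact_mod_cast s0.ne'
  have hr : ∀ i, ‖D.ad (ℜ (Y i) : A) S.ξ‖ ≤ ‖D.ad (Y i) S.ξ‖ ∧
      ‖D.ad (ℑ (Y i) : A) S.ξ‖ ≤ ‖D.ad (Y i) S.ξ‖ := fun i => by
    have e : ‖D.ad (star (Y i)) S.ξ‖ = ‖D.ad (Y i) S.ξ‖ := norm_ad_star _
    have e' : D.ad (-star (Y i)) S.ξ = -D.ad (star (Y i)) S.ξ := by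
      simpa using ad_smul (D := D) (-1) (star (Y i)) S.ξ
    rw [realPart_apply_coe, imaginaryPart_apply_coe, ← Complex.coe_smul, ← Complex.coe_smul,
      sub_eq_add_neg]
    simp only [ad_smul, ad_add, norm_smul, e', norm_neg, Complex.norm_I, Complex.norm_real,
      norm_inv, Real.norm_ofNat]
    constructor <;> linarith [norm_add_le (D.ad (Y i) S.ξ) (D.ad (star (Y i)) S.ξ),
      norm_add_le (D.ad (Y i) S.ξ) (-D.ad (star (Y i)) S.ξ), norm_neg (D.ad (star (Y i)) S.ξ)]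
  have h3 := h (ι ⊕ ι) (Sum.elim (fun i => (s : ℂ) • (ℜ (Y i) : A)) fun i => (s : ℂ) • (ℑ (Y i) : A))
    (Sum.elim (fun i => (s : ℂ)⁻¹ • η i) fun i => (s : ℂ)⁻¹ • Complex.I • η i) (by
      rintro (i | i)
      · exact IsSelfAdjoint.smul (by simp [IsSelfAdjoint]) (ℜ (Y i)).2
      · exact IsSelfAdjoint.smul (by simp [IsSelfAdjoint]) (ℑ (Y i)).2)
  have e1 : ∀ i, D.ad (ℜ (Y i) : A) (η i) + Complex.I • D.ad (ℑ (Y i) : A) (η i) =
      S.π (Y i) (η i) - D.ρ (Y i) (η i) := fun i => by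
    rw [← ad_smul, ← ad_add, realPart_add_I_smul_imaginaryPart, ad]
  simp only [Fintype.sum_sum_type, Sum.elim_inl, Sum.elim_inr, ad_smul, ad_smul',
    smul_comm Complex.I (s : ℂ), inv_smul_smul₀ s1, ← sum_add_distrib, e1, norm_smul, Complex.norm_I, one_mul, norm_inv,
    Complex.norm_real, Real.norm_of_nonneg s0.le] at h3
  have e2 : ∑ i, ((s⁻¹ * ‖η i‖) ^ 2 + (s⁻¹ * ‖η i‖) ^ 2) = (s⁻¹ * √(2 * E)) ^ 2 := by
    rw [mul_pow, Real.sq_sqrt (by positivity), hE, mul_sum, mul_sum]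
    exact sum_congr rfl fun i _ => by ring
  have e3 : ∑ i, ((s * ‖D.ad (ℜ (Y i) : A) S.ξ‖) ^ 2 + (s * ‖D.ad (ℑ (Y i) : A) S.ξ‖) ^ 2) ≤
      2 * s ^ 2 * C := by
    rw [hC, mul_sum]
    refine sum_le_sum fun i _ => ?_
    have a1 := pow_le_pow_left₀ (norm_nonneg _) (hr i).1 2
    have a2 := pow_le_pow_left₀ (norm_nonneg _) (hr i).2 2
    rw [ad.eq_1 D (Y i)] at a1 a2
    nlinarith [sq_nonneg s]
  rw [e2, Real.sqrt_sq (by positivity)] at h3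
  have e4 : 2 * ‖ζ‖ * (s⁻¹ * √(2 * E)) ≤ ε / 3 := by
    rw [hs]
    field_simp
    nlinarith [norm_nonneg ζ]
  have e5 : K * (2 * s ^ 2 * C) ≤ ε / (3 * (|L| + 1)) := by
    have : 2 * s ^ 2 * C = 144 * (‖ζ‖ + 1) ^ 2 / ε ^ 2 * (C * E) := by
      rw [hs, div_pow, mul_pow, Real.sq_sqrt (by positivity)]; ring
    rw [this]
    calc _ ≤ (K + 1) * (144 * (‖ζ‖ + 1) ^ 2 / ε ^ 2 *
          (ε ^ 3 / (432 * (K + 1) * (‖ζ‖ + 1) ^ 2 * (|L| + 1)))) := by gcongr; linarith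
      _ = _ := by field_simp; ring
  have e6 : (ε / (3 * (|L| + 1)) + ε / (3 * (|L| + 1))) * (|L| + 1) = 2 * ε / 3 := by
    field_simp; ring
  refine h3.trans ((add_le_add (mul_le_mul (add_le_add_right
    ((mul_le_mul_of_nonneg_left e3 hK).trans e5) (ε / (3 * (|L| + 1)))) (h2.trans ((le_abs_self L).trans
      (le_add_of_nonneg_right zero_le_one))) (norm_nonneg _) (by positivity)) e4).trans_eq ?_)
  rw [e6]; ring

end Vale.Agent.P132
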