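import Vale.Agent.P132.Base
import Vale.Agent.P132.Pre
import Vale.Agent.P132.Op
import Mathlib.Analysis.CStarAlgebra.GelfandNaimarkSegal

/-! The cyclic representation of a faithful normal state. -/

namespace Vale.Agent.P132

open scoped InnerProductSpace ComplexConjugate Topology
open Vale.Agent.P082 Filter

universe u

open scoped ComplexOrder

namespace GNS

open Complex (I)
open Vale.Agent.P132.Op (Pw amp ent amp_apply apply_eq_sum_ent ent_apply)

lemma exists_res {B : Type*} [CStarAlgebra B] {x : B} (hx : IsSelfAdjoint x) :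
    ∃ r : B, ‖r‖ ≤ 1 ∧ r * (x + I • 1) = 1 ∧ (x + I • 1) * r = 1 := by
  have := hx.isStarNormal
  have h1 : ∀ z ∈ spectrum ℂ x, 1 ≤ ‖z + I‖ := fun z hz => by
    have := Complex.abs_im_le_norm (z + I)
    rwa [Complex.add_im, hx.im_eq_zero_of_mem_spectrum hz, zero_add, Complex.I_im, abs_one] at this
  have h2 : ∀ z ∈ spectrum ℂ x, z + I ≠ 0 := fun z hz h => by
    simpa [h] using (h1 z hz).trans_lt' zero_lt_one
  have h3 : ContinuousOn (fun z : ℂ => (z + I)⁻¹) (spectrum ℂ x) :=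
    ContinuousOn.inv₀ (by fun_prop) h2
  have h4 : x + I • 1 = cfc (fun z : ℂ => z + I) x := by
    rw [cfc_add _ _ _, cfc_id' ℂ x, cfc_const I x, Algebra.algebraMap_eq_smul_one]
  refine ⟨cfc (fun z : ℂ => (z + I)⁻¹) x, norm_cfc_le zero_le_one fun z hz => ?_, ?_, ?_⟩
  · rw [norm_inv]
    exact inv_le_one_of_one_le₀ (h1 z hz)
  · rw [h4, ← cfc_mul _ _ _ h3, ← cfc_one ℂ x]
    exact cfc_congr fun z hz => inv_mul_cancel₀ (h2 z hz)
  · rw [h4, ← cfc_mul _ _ _ (by fun_prop) h3, ← cfc_one ℂ x]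
    exact cfc_congr fun z hz => mul_inv_cancel₀ (h2 z hz)

variable {A : Type*} [CStarAlgebra A] {K : Type*} [NormedAddCommGroup K] [InnerProductSpace ℂ K]
  [CompleteSpace K] (π : A →⋆ₐ[ℂ] (K →L[ℂ] K)) {T : K →L[ℂ] K}

/-- The density theorem of von Neumann. -/
lemma vn_dense (hT : ∀ S, (∀ a, S * π a = π a * S) → S * T = T * S) {ι : Type*} [Fintype ι]
    (ζ η : ι → K) (h : ∀ a, ∑ i, ⟪η i, π a (ζ i)⟫_ℂ = 0) : ∑ i, ⟪η i, T (ζ i)⟫_ℂ = 0 := by
  classical
  let ρ := (amp K ι).comp π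
  let v : Pw ι K := WithLp.toLp 2 ζ
  let L := (LinearMap.range ((ContinuousLinearMap.apply ℂ _ v).toLinearMap ∘ₗ
    ρ.toAlgHom.toLinearMap)).topologicalClosure
  have hL : ∀ a, ∀ w ∈ L, ρ a w ∈ L := fun a w hw => map_mem_closure (ρ a).continuous hw (by
    rintro _ ⟨b, rfl⟩
    exact ⟨a * b, congr($(map_mul ρ a b) v)⟩)
  have hP : IsStarProjection L.starProjection := isStarProjection_starProjection
  have h1 : ∀ a, L.starProjection * ρ a * L.starProjection = ρ a * L.starProjection := fun a =>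
    ContinuousLinearMap.ext fun w => Submodule.starProjection_eq_self_iff.2
      (hL a _ (L.starProjection_apply_mem w))
  have h2 : ∀ a, L.starProjection * ρ a = ρ a * L.starProjection := fun a => by
    have h2 := congrArg star (h1 (star a))
    simp only [star_mul, map_star, star_star, hP.isSelfAdjoint.star_eq, ← mul_assoc] at h2
    rw [← h2, h1 a]
  have h3 : ∀ (X : K →L[ℂ] K) j w, amp K ι X (PiLp.single 2 j w) = PiLp.single 2 j (X w) := by
    intro X j w
    ext i
    simp [amp_apply, PiLp.single_apply, Pi.single_apply, apply_ite X]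
  have h4 : ∀ i j, ent L.starProjection i j * T = T * ent L.starProjection i j := fun i j =>
    hT _ fun a => ContinuousLinearMap.ext fun w => by
      rw [ContinuousLinearMap.mul_apply, ContinuousLinearMap.mul_apply, ent_apply, ent_apply,
        ← h3, ← amp_apply]
      exact congr($(h2 a) (PiLp.single 2 j w) i)
  have h5 : L.starProjection v = v := Submodule.starProjection_eq_self_iff.2
    (subset_closure ⟨1, congr($(map_one ρ) v)⟩)
  have h6 : amp K ι T v ∈ L := by
    refine Submodule.starProjection_eq_self_iff.1 ?_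
    ext i
    have e : v i = ∑ j, ent L.starProjection i j (v j) := by rw [← apply_eq_sum_ent, h5]
    rw [apply_eq_sum_ent, amp_apply, e, map_sum]
    exact Finset.sum_congr rfl fun j _ => by rw [amp_apply]; exact congr($(h4 i j) (v j))
  have h7 := closure_minimal (t := {w : Pw ι K | ∑ i, ⟪η i, w i⟫_ℂ = 0}) (by
    rintro _ ⟨a, rfl⟩
    exact (Finset.sum_congr rfl fun i _ => by rw [← amp_apply (π a) v i]; rfl).trans (h a))
    (isClosed_eq (by fun_prop) continuous_const) h6
  exact (Finset.sum_congr rfl fun i _ => by rw [amp_apply]).trans h7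

lemma sa_dense (hT : ∀ S, (∀ a, S * π a = π a * S) → S * T = T * S) (hs : IsSelfAdjoint T)
    {ι : Type*} [Fintype ι] (ζ : ι → K) {ε : ℝ} (hε : 0 < ε) :
    ∃ x, IsSelfAdjoint x ∧ ∀ i, ‖π x (ζ i) - T (ζ i)‖ ≤ ε := by
  let V : Submodule ℝ (Pw ι K) :=
    { carrier := {γ | ∃ a, IsSelfAdjoint a ∧ ∀ i, π a (ζ i) = γ i}
      add_mem' := by
        rintro _ _ ⟨a, ha, e⟩ ⟨b, hb, e'⟩
        exact ⟨a + b, ha.add hb, fun i => by simp [e, e']⟩
      zero_mem' := ⟨0, .zero _, by simp⟩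
      smul_mem' := by
        rintro c _ ⟨a, ha, e⟩
        exact ⟨c • a, (IsSelfAdjoint.all c).smul ha, fun i => by
          rw [← Complex.coe_smul, map_smul, PiLp.smul_apply, ← e]; rfl⟩ }
  obtain ⟨P, p1, p2⟩ := Pre.exists_P V.topologicalClosure V.isClosed_topologicalClosure
  let β : Pw ι K := WithLp.toLp 2 fun i => T (ζ i)
  set η := β - P β with hη
  have h0 : ∀ X : K →L[ℂ] K, IsSelfAdjoint X → ∑ j : ι ⊕ ι,
      ⟪Sum.elim (fun i => η i) ζ j, X (Sum.elim ζ (fun i => η i) j)⟫_ℂ =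
        (2 * (∑ i, ⟪η i, X (ζ i)⟫_ℂ).re : ℝ) := fun X hX => by
    rw [Fintype.sum_sum_type, ← Complex.add_conj, map_sum]
    simp only [Sum.elim_inl, Sum.elim_inr, inner_conj_symm]
    congr 1
    exact Finset.sum_congr rfl fun i _ => (hX.isSymmetric _ _).symm
  have h1 : ∀ a, IsSelfAdjoint a → ∑ j : ι ⊕ ι,
      ⟪Sum.elim (fun i => η i) ζ j, π a (Sum.elim ζ (fun i => η i) j)⟫_ℂ = 0 := fun a ha => by
    have := p2 β (WithLp.toLp 2 fun i => π a (ζ i)) (subset_closure ⟨a, ha, fun _ => rfl⟩)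
    rw [PiLp.inner_apply] at this
    rw [h0 _ (ha.map π), this]
    simp
  have h2 := vn_dense π hT (Sum.elim ζ fun i => η i) (Sum.elim (fun i => η i) ζ) fun a => by
    rw [← realPart_add_I_smul_imaginaryPart a]
    simp only [map_add, map_smul, ContinuousLinearMap.add_apply, ContinuousLinearMap.smul_apply,
      inner_add_right, inner_smul_right, Finset.sum_add_distrib, ← Finset.mul_sum,
      h1 _ (realPart a).2, h1 _ (imaginaryPart a).2, mul_zero, add_zero]
  rw [h0 T hs] at h2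
  have h3 : (⟪η, β⟫_ℂ).re = 0 := by
    rw [PiLp.inner_apply]
    exact (mul_eq_zero.1 (Complex.ofReal_eq_zero.1 h2)).resolve_left two_ne_zero
  have h4 : β = P β := by
    have := p2 β _ (p1 β)
    rw [← sub_eq_zero, ← hη, ← norm_eq_zero, ← sq_eq_zero_iff, ← Pre.re_self]
    nth_rewrite 2 [hη]
    rw [inner_sub_right, Complex.sub_re, h3, this, sub_zero]
  obtain ⟨γ, ⟨x, hx, e⟩, h5⟩ := Metric.mem_closure_iff.1
    (show β ∈ V.topologicalClosure by rw [h4]; exact p1 β) ε hε
  refine ⟨x, hx, fun i => ?_⟩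
  rw [dist_comm, dist_eq_norm] at h5
  rw [e]
  exact (PiLp.norm_apply_le (γ - β) i).trans h5.le

/-- The bicommutant property, from closedness of the unit ball. -/
lemma bic_of (hi : Function.Injective π) (hc : ∀ X : K →L[ℂ] K, (∀ (F : Finset K) (ε : ℝ), 0 < ε →
      ∃ a, ‖a‖ ≤ 1 ∧ ∀ ζ ∈ F, ‖π a ζ - X ζ‖ ≤ ε) → ∃ a, π a = X)
    (hT : ∀ S, (∀ a, S * π a = π a * S) → S * T = T * S) : ∃ a, π a = T := by
  have hcl : IsClosed (π.range : Set (K →L[ℂ] K)) :=
    (NonUnitalStarAlgHom.isometry π hi).isClosedEmbedding.isClosed_range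
  have key : ∀ T : K →L[ℂ] K, IsSelfAdjoint T →
      (∀ S, (∀ a, S * π a = π a * S) → S * T = T * S) → T ∈ π.range := fun T hs hT => by
    obtain ⟨r, -, r1, r2⟩ := exists_res hs
    obtain ⟨y, hy⟩ := hc r fun F ε hε => by
      obtain ⟨x, hx, e⟩ := sa_dense π hT hs (fun i : F => r i) hε
      obtain ⟨s, s0, s1, -⟩ := exists_res hx
      refine ⟨s, s0, fun ζ hζ => ?_⟩
      have e1 : π s - r = -(π s * ((π x - T) * r)) := by
        have e2 := congrArg π s1
        rw [map_mul, map_add, map_smul, map_one] at e2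
        rw [← add_sub_add_right_eq_sub (π x) T (I • 1), sub_mul, mul_sub, r2, ← mul_assoc, e2,
          mul_one, one_mul, neg_sub]
      rw [← ContinuousLinearMap.sub_apply, e1, ContinuousLinearMap.neg_apply, norm_neg]
      exact ((π s).le_of_opNorm_le ((NonUnitalStarAlgHom.norm_apply_le π s).trans s0) _).trans
        ((one_mul _).trans_le (e ⟨ζ, hζ⟩))
    obtain ⟨u, hu⟩ := (StarSubalgebra.coe_isUnit π.range (a := ⟨r, y, hy⟩)).1 ⟨⟨r, _, r1, r2⟩, rfl⟩
    have e1 : r * (u⁻¹).1.1 = 1 := by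
      have := congrArg Subtype.val u.mul_inv
      rwa [hu] at this
    have e2 : T = (u⁻¹).1.1 - I • 1 := by
      have e3 := congrArg ((T + I • 1) * ·) e1
      simp only [← mul_assoc, r2, one_mul, mul_one] at e3
      rw [e3, add_sub_cancel_right]
    rw [e2]
    exact sub_mem (u⁻¹).1.2 (π.range.smul_mem (one_mem _) _)
  have hT' : ∀ S, (∀ a, S * π a = π a * S) → S * star T = star T * S := fun S hS => by
    simpa using congrArg star (hT (star S) fun a => by
      simpa [map_star] using congrArg star (hS (star a)).symm).symm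
  rw [← realPart_add_I_smul_imaginaryPart T]
  refine add_mem (key _ (realPart T).2 fun S hS => ?_)
    (π.range.smul_mem (key _ (imaginaryPart T).2 fun S hS => ?_) _)
  · simp [realPart_apply_coe, mul_add, add_mul, hT S hS, hT' S hS]
  · simp [imaginaryPart_apply_coe, mul_sub, sub_mul, hT S hS, hT' S hS]

end GNS

theorem exists_std {A : Type u} [CStarAlgebra A] [PartialOrder A] [StarOrderedRing A] {H : Type*}
    [NormedAddCommGroup H] [InnerProductSpace ℂ H] [CompleteSpace H] (R : Rep A H)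
    (φ : A →L[ℂ] ℂ) (h1 : φ 1 = 1) (h2 : ∀ x, 0 ≤ φ (star x * x))
    (h3 : ∀ x, φ (star x * x) = 0 → x = 0)
    (h4 : ∀ (l : Filter A) (y : A), ‖y‖ ≤ 1 → (∀ᶠ x in l, ‖x‖ ≤ 1) → R.W.T l id y →
      Tendsto φ l (𝓝 (φ y))) :
    ∃ (K : Type u) (_ : NormedAddCommGroup K) (_ : InnerProductSpace ℂ K) (_ : CompleteSpace K)
      (S : Std A K), ∀ x, φ x = ⟪S.ξ, S.π x S.ξ⟫_ℂ := by
  classical
  let f : A →ₚ[ℂ] ℂ := .mk₀ φ.toLinearMap fun a ha => by
    obtain ⟨b, rfl⟩ := CStarAlgebra.nonneg_iff_eq_star_mul_self.1 ha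
    exact h2 b
  let π := f.gnsStarAlgHom
  let Λ : A → f.GNS := fun a => (f.toPreGNS a : f.GNS)
  have l1 : ∀ a b, π a (Λ b) = Λ (a * b) := fun a b =>
    f.gnsNonUnitalStarAlgHom_apply_coe
  have l2 : ∀ a b, ⟪Λ a, Λ b⟫_ℂ = φ (star a * b) := fun a b =>
    UniformSpace.Completion.inner_coe (f.toPreGNS a) (f.toPreGNS b)
  have l3 : DenseRange Λ := UniformSpace.Completion.denseRange_coe (α := f.PreGNS)
  have l4 : ∀ a, π a (Λ 1) = 0 → a = 0 := fun a ha => h3 a (by
    rw [← l2, ← mul_one a, ← l1, ha, inner_zero_left])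
  have hi : Function.Injective π := (injective_iff_map_eq_zero π).2 fun a ha => l4 a (by
    rw [ha]; rfl)
  refine ⟨f.GNS, inferInstance, inferInstance, inferInstance,
    ⟨⟨π, hi, fun T => GNS.bic_of π hi fun X hX => ?_⟩, Λ 1, ?_, ?_, l4⟩, fun x => ?_⟩
  · choose a a1 a2 using fun i : Finset f.GNS × ℕ =>
      hX i.1 (1 / ((i.2 : ℝ) + 1)) Nat.one_div_pos_of_nat
    let U : Ultrafilter (Finset f.GNS × ℕ) := Ultrafilter.of atTop
    have hU : (U : Filter (Finset f.GNS × ℕ)) ≤ atTop := Ultrafilter.of_le _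
    have hs : ∀ v, Tendsto (fun i => π (a i) v) U (𝓝 (X v)) := fun v => by
      have t1 : Tendsto (fun i : Finset f.GNS × ℕ => 1 / ((i.2 : ℝ) + 1)) U (𝓝 0) :=
        tendsto_one_div_add_atTop_nhds_zero_nat.comp
          ((tendsto_atTop_atTop_of_monotone monotone_snd fun b => ⟨(∅, b), le_rfl⟩).mono_left hU)
      exact tendsto_iff_norm_sub_tendsto_zero.2 (squeeze_zero'
        (Eventually.of_forall fun _ => norm_nonneg _)
        (((eventually_ge_atTop (({v}, 0) : Finset f.GNS × ℕ)).filter_mono hU).mono fun i hi =>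
          a2 i v (hi.1 (Finset.mem_singleton_self v))) t1)
    obtain ⟨y, hy⟩ := R.W.exists_T U (x := a) (Eventually.of_forall a1)
    have hy1 := hy.norm_le (Eventually.of_forall a1)
    have e : ∀ b c, ⟪Λ b, π y (Λ c)⟫_ℂ = ⟪Λ b, X (Λ c)⟫_ℂ := fun b c => by
      have hr : 0 < ‖b‖ * ‖c‖ + 1 := by positivity
      have n1 : ∀ z : A, ‖z‖ ≤ 1 → ‖(((‖b‖ * ‖c‖ + 1)⁻¹ : ℝ) : ℂ) • (star b * z * c)‖ ≤ 1 := by
        intro z hz
        rw [norm_smul, Complex.norm_real, Real.norm_of_nonneg (by positivity),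
          inv_mul_le_iff₀ hr]
        have := (norm_mul_le (star b) z).trans
          (mul_le_of_le_one_right (norm_nonneg _) hz)
        rw [norm_star] at this
        have := (norm_mul_le _ c).trans (mul_le_mul_of_nonneg_right this (norm_nonneg c))
        linarith
      have t1 := h4 (map _ (U : Filter (Finset f.GNS × ℕ))) _ (n1 y hy1) (eventually_map.2 (Eventually.of_forall fun i =>
        n1 _ (a1 i))) (((hy.mul_left (star b)).mul_right c).smul _)
      have t2 := ((tendsto_const_nhds (x := Λ b)).inner (𝕜 := ℂ) (hs (Λ c))).const_mul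
        (((‖b‖ * ‖c‖ + 1)⁻¹ : ℝ) : ℂ)
      have t3 := tendsto_nhds_unique (tendsto_map'_iff.1 t1) (t2.congr fun i => by
        simp only [Function.comp_apply, map_smul, l1, l2, mul_assoc, smul_eq_mul])
      rw [map_smul, smul_eq_mul] at t3
      rw [l1, l2, ← mul_assoc]
      exact mul_left_cancel₀ (by exact_mod_cast (inv_pos.2 hr).ne') t3
    refine ⟨y, ContinuousLinearMap.ext fun v => l3.induction_on v
      (isClosed_eq (by fun_prop) (by fun_prop)) fun c => ext_inner_left ℂ fun w => ?_⟩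
    exact l3.induction_on w (isClosed_eq (by fun_prop) (by fun_prop)) fun b => e b c
  · have := congrArg Complex.re (l2 1 1)
    rw [Pre.re_self, star_one, one_mul, h1, Complex.one_re] at this
    exact (sq_eq_sq₀ (norm_nonneg _) zero_le_one).1 (this.trans (one_pow 2).symm)
  · show DenseRange fun a => π a (Λ 1)
    simpa only [l1, mul_one] using l3
  · show φ x = ⟪Λ 1, π x (Λ 1)⟫_ℂ
    rw [l1, l2, star_one, one_mul, mul_one]

end Vale.Agent.P132
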