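import Vale.Agent.P132.Api
import Vale.Agent.P132.Hil

/-! Basic consequences of the polar decomposition data. -/

namespace Vale.Agent.P132

open scoped InnerProductSpace ComplexConjugate Topology
open Vale.Agent.P082 Filter

variable {A : Type*} [CStarAlgebra A] {H : Type*}
  [NormedAddCommGroup H] [InnerProductSpace ℂ H] [CompleteSpace H] {S : Std A H}

namespace PM

variable (D : PM S) {F : ℝ → ℂ}

lemma norm_J (α : H) : ‖D.J α‖ = ‖α‖ := by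
  rw [@norm_eq_sqrt_re_inner ℂ, D.inner_J, ← norm_eq_sqrt_re_inner]
lemma inner_J_left (α β : H) : ⟪D.J α, β⟫_ℂ = ⟪D.J β, α⟫_ℂ := by
  rw [← D.inner_J α, D.JJ]
lemma inner_J_right (α β : H) : ⟪α, D.J β⟫_ℂ = ⟪β, D.J α⟫_ℂ := by
  rw [← D.inner_J (D.J α), D.JJ]
lemma J_ξ : D.J S.ξ = S.ξ := by
  have h := D.gr1 1
  rw [star_one, map_one, one_apply_eq_self, D.fb_ξ bc_rr] at h
  refine sub_eq_zero.1 (D.toFC.inj bc_qq qq_ne ?_)
  rw [map_sub, h, D.fb_ξ bc_qq, rr_eq]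
  simp [EE]
lemma J_U (t : ℝ) (α : H) : D.J (D.U t α) = D.U t (D.J α) := by
  have : (fun s => conj (ex t (-s))) = ex t := funext fun s => by
    rw [conj_ex]; simp [ex]
  rw [FC.U, D.J_fb (bc_ex t), this]
lemma J_qq (α : H) : D.J (D.fb qq α) = D.fb qq (D.J α) := by
  rw [D.J_fb bc_qq, funext qq_neg]
lemma U_ξ (t : ℝ) : D.U t S.ξ = S.ξ := by
  rw [FC.U, D.fb_ξ (bc_ex t)]
  simp [ex]
lemma ρ_apply (a : A) (α : H) : D.ρ a α = D.J (S.π (star a) (D.J α)) := rfl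
lemma ρ_ξ (a : A) : D.ρ a S.ξ = D.J (S.π (star a) S.ξ) := by rw [ρ_apply, J_ξ]
lemma J_π (a : A) (α : H) : D.J (S.π a α) = D.ρ (star a) (D.J α) := by
  rw [ρ_apply, star_star, D.JJ]
lemma J_ρ (a : A) (α : H) : D.J (D.ρ a α) = S.π (star a) (D.J α) := by
  rw [ρ_apply, D.JJ]
lemma ρ_mul (a b : A) : D.ρ (a * b) = D.ρ b * D.ρ a := ContinuousLinearMap.ext fun α => by
  simp only [mul_apply_eq_comp, ρ_apply, D.JJ, star_mul, S.mul_apply]
lemma ρ_mul_apply (a b : A) (α : H) : D.ρ (a * b) α = D.ρ b (D.ρ a α) := by rw [ρ_mul]; rfl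
lemma ρ_star (a : A) : D.ρ (star a) = star (D.ρ a) := by
  rw [ContinuousLinearMap.star_eq_adjoint, ContinuousLinearMap.eq_adjoint_iff]
  intro α β
  rw [ρ_apply, ρ_apply, star_star, inner_J_left, inner_J_right, S.inner_star_left]
lemma ρ_one : D.ρ 1 = 1 := ContinuousLinearMap.ext fun α => by simp [ρ_apply, D.JJ]
lemma ρ_zero : D.ρ 0 = 0 := ContinuousLinearMap.ext fun α => by simp [ρ_apply]
lemma ρ_add (a b : A) : D.ρ (a + b) = D.ρ a + D.ρ b :=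
  ContinuousLinearMap.ext fun α => by simp [ρ_apply]
lemma ρ_sub (a b : A) : D.ρ (a - b) = D.ρ a - D.ρ b :=
  ContinuousLinearMap.ext fun α => by simp [ρ_apply]
lemma ρ_smul (c : ℂ) (a : A) : D.ρ (c • a) = c • D.ρ a :=
  ContinuousLinearMap.ext fun α => by simp [ρ_apply]
lemma ρ_rsmul (c : ℝ) (a : A) : D.ρ (c • a) = (c : ℂ) • D.ρ a := by
  rw [← ρ_smul, Complex.coe_smul]
lemma ρ_sum {ι : Type*} (t : Finset ι) (a : ι → A) : D.ρ (∑ i ∈ t, a i) = ∑ i ∈ t, D.ρ (a i) :=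
  ContinuousLinearMap.ext fun α => by simp [ρ_apply, star_sum]
lemma norm_ρ_le (a : A) (α : H) : ‖D.ρ a α‖ ≤ ‖a‖ * ‖α‖ := by
  rw [ρ_apply, norm_J, ← norm_star a, ← D.norm_J α]
  exact S.norm_apply_le _ _
lemma norm_ρ_ξ (a : A) : ‖D.ρ a S.ξ‖ = ‖S.π (star a) S.ξ‖ := by rw [ρ_ξ, norm_J]
lemma inner_ρ_left (a : A) (α β : H) : ⟪D.ρ (star a) α, β⟫_ℂ = ⟪α, D.ρ a β⟫_ℂ := by
  rw [ρ_star, ContinuousLinearMap.star_eq_adjoint, ContinuousLinearMap.adjoint_inner_left]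
lemma inner_ρ_right (a : A) (α β : H) : ⟪α, D.ρ (star a) β⟫_ℂ = ⟪D.ρ a α, β⟫_ℂ := by
  rw [ρ_star, ContinuousLinearMap.star_eq_adjoint, ContinuousLinearMap.adjoint_inner_right]
lemma norm_ρ_sq (a : A) (α : H) : ‖D.ρ a α‖ ^ 2 = (⟪α, D.ρ (a * star a) α⟫_ℂ).re := by
  rw [ρ_mul_apply, inner_ρ_right, inner_self_eq_norm_sq_to_K]
  norm_cast
/-- The defect of the adjoint. -/
lemma norm_def_star (a : A) (c : ℝ) :
    ‖S.π (star a) S.ξ - (c : ℂ) • D.ρ (star a) S.ξ‖ = ‖D.ρ a S.ξ - (c : ℂ) • S.π a S.ξ‖ := by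
  rw [← D.norm_J, map_sub, map_smulₛₗ, J_ρ, star_star, J_ξ, ← ρ_ξ, Complex.conj_ofReal]

lemma gr1' (hF : BC F) (hE : BC fun s => F s * EE s) (a : A) :
    D.fb F (D.ρ a S.ξ) = D.fb (fun s => F s * EE s) (S.π a S.ξ) := by
  refine sub_eq_zero.1 (D.toFC.inj bc_qq qq_ne ?_)
  have h := congr($(D.toFC.comm bc_qq hF) (D.ρ a S.ξ))
  simp only [mul_apply_eq_comp] at h
  rw [map_sub, h, ρ_ξ, D.gr1, D.toFC.mul_apply hF bc_rr, D.toFC.mul_apply bc_qq hE, sub_eq_zero]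
  congr 2
  funext s
  rw [rr_eq]
  ring
lemma gr2' (hF : Continuous F) {L : ℝ} (hL : ∀ s, L < |s| → F s = 0) (α : H) {ε : ℝ} (hε : 0 < ε) :
    ∃ a, ‖S.π a S.ξ - D.fb F α‖ ≤ ε ∧ ‖D.ρ a S.ξ - D.fb (fun s => F s * EE s) α‖ ≤ ε := by
  have hG : BC fun s => F s * (pp s)⁻¹ := BC.mul_supp hF hL (bc_pp.1.inv₀ pp_ne)
  obtain ⟨a, h1, h2⟩ := D.gr2 (D.fb (fun s => F s * (pp s)⁻¹) α) ε hε
  have e1 : (fun s => pp s * (F s * (pp s)⁻¹)) = F := funext fun s => by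
    have := pp_ne s
    field_simp
  have e2 : (fun s => qq s * (F s * (pp s)⁻¹)) = fun s => F s * EE s := funext fun s => by
    have := pp_ne s
    rw [qq_eq]
    field_simp
  rw [D.toFC.mul_apply bc_pp hG, e1] at h1
  rw [D.toFC.mul_apply bc_qq hG, e2, ← ρ_ξ] at h2
  exact ⟨a, h1, h2⟩
/-- Symmetry of the square root of the modular operator. -/
lemma symm (a b : A) : ⟪D.ρ a S.ξ, S.π b S.ξ⟫_ℂ = ⟪S.π a S.ξ, D.ρ b S.ξ⟫_ℂ := by
  have key : ∀ L, ⟪D.fb (chi L) (D.ρ a S.ξ), S.π b S.ξ⟫_ℂ =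
      ⟪S.π a S.ξ, D.fb (chi L) (D.ρ b S.ξ)⟫_ℂ := fun L => by
    have hE : BC fun s => chi L s * EE s :=
      BC.mul_supp (continuous_chi L) (fun s hs => chi_supp hs) continuous_EE
    rw [D.gr1' (bc_chi L) hE, D.gr1' (bc_chi L) hE, D.toFC.inner_left hE]
    congr 3
    funext s
    rw [map_mul, conj_chi, EE, Complex.conj_ofReal]
  refine eq_of_norm_sub_le_zero (le_of_forall_pos_le_add fun ε hε => ?_)
  have hp : 0 < ‖S.π a S.ξ‖ + ‖S.π b S.ξ‖ + 1 := by positivity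
  obtain ⟨L₁, h1⟩ := D.toFC.chi_near (D.ρ a S.ξ) (div_pos hε hp)
  obtain ⟨L₂, h2⟩ := D.toFC.chi_near (D.ρ b S.ξ) (div_pos hε hp)
  have h3 := (norm_inner_le_norm (𝕜 := ℂ) _ (S.π b S.ξ)).trans
    (mul_le_mul_of_nonneg_right (h1 _ (le_max_left L₁ L₂)) (norm_nonneg _))
  have h4 := (norm_inner_le_norm (𝕜 := ℂ) (S.π a S.ξ) _).trans
    (mul_le_mul_of_nonneg_left (h2 _ (le_max_right L₁ L₂)) (norm_nonneg _))
  rw [inner_sub_left, key] at h3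
  rw [inner_sub_right, norm_sub_rev] at h4
  refine (norm_sub_le_norm_sub_add_norm_sub _ _ _).trans ((add_le_add h3 h4).trans ?_)
  have h5 : ε / (‖S.π a S.ξ‖ + ‖S.π b S.ξ‖ + 1) * (‖S.π a S.ξ‖ + ‖S.π b S.ξ‖ + 1) = ε :=
    div_mul_cancel₀ _ hp.ne'
  nlinarith [div_pos hε hp]

variable [PartialOrder A] [StarOrderedRing A]

lemma ρ_nonneg {a : A} (h : 0 ≤ a) (α : H) : 0 ≤ (⟪α, D.ρ a α⟫_ℂ).re := by
  rw [ρ_apply, inner_J_right, h.isSelfAdjoint.star_eq, ← inner_conj_symm, Complex.conj_re]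
  exact (Rep.nonneg_iff.1 h).2 _

variable {ι : Type*} [Fintype ι] {w : ι → A} {K : ℝ}

omit [PartialOrder A] [StarOrderedRing A] in
lemma _root_.Vale.Agent.P132.Std.col_eq (S : Std A H) (w : ι → A) (α : H) :
    ∑ i, ‖S.π (w i) α‖ ^ 2 = (⟪α, S.π (∑ i, star (w i) * w i) α⟫_ℂ).re := by
  simp only [map_sum, _root_.sum_apply, inner_sum, Complex.re_sum, S.norm_sq]
omit [PartialOrder A] [StarOrderedRing A] in
lemma col_eq (w : ι → A) (α : H) :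
    ∑ i, ‖D.ρ (w i) α‖ ^ 2 = (⟪α, D.ρ (∑ i, w i * star (w i)) α⟫_ℂ).re := by
  simp only [ρ_sum, _root_.sum_apply, inner_sum, Complex.re_sum, norm_ρ_sq]

omit [PartialOrder A] [StarOrderedRing A] [CompleteSpace H] in
lemma _root_.Vale.Agent.P132.re_inner_rsmul (K : ℝ) (α : H) :
    (⟪α, (K : ℂ) • α⟫_ℂ).re = K * ‖α‖ ^ 2 := by
  rw [inner_smul_right, Complex.re_ofReal_mul, ← inner_self_eq_norm_sq (𝕜 := ℂ)]
  rfl

omit [PartialOrder A] [StarOrderedRing A] in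
/-- Rows from columns. -/
lemma _root_.Vale.Agent.P132.row_of_col {T : ι → H →L[ℂ] H} (hK : 0 ≤ K)
    (h : ∀ γ, ∑ i, ‖star (T i) γ‖ ^ 2 ≤ K * ‖γ‖ ^ 2) (α : ι → H) :
    ‖∑ i, T i (α i)‖ ^ 2 ≤ K * ∑ i, ‖α i‖ ^ 2 := by
  set γ := ∑ i, T i (α i) with hγ
  have h1 : ‖γ‖ ^ 2 ≤ ∑ i, ‖star (T i) γ‖ * ‖α i‖ := by
    rw [← inner_self_eq_norm_sq (𝕜 := ℂ)]
    nth_rw 2 [hγ]
    rw [inner_sum, map_sum]
    refine Finset.sum_le_sum fun i _ => ?_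
    rw [ContinuousLinearMap.star_eq_adjoint, ← ContinuousLinearMap.adjoint_inner_left]
    exact re_inner_le_norm _ _
  have h2 := Finset.sum_mul_sq_le_sq_mul_sq Finset.univ (fun i => ‖star (T i) γ‖) fun i => ‖α i‖
  have h3 : 0 ≤ ∑ i, ‖α i‖ ^ 2 := by positivity
  have h4 := mul_le_mul_of_nonneg_right (h γ) h3
  have h5 := pow_le_pow_left₀ (sq_nonneg _) h1 2
  rcases (sq_nonneg ‖γ‖).eq_or_lt with h0 | h0
  · rw [← h0]; positivity
  · exact le_of_mul_le_mul_left (by nlinarith) h0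

lemma _root_.Vale.Agent.P132.Std.re_mono (S : Std A H) {a b : A} (h : a ≤ b) (α : H) :
    (⟪α, S.π a α⟫_ℂ).re ≤ (⟪α, S.π b α⟫_ℂ).re := by
  have := ((Rep.nonneg_iff (R := S.toRep)).1 (sub_nonneg.2 h)).2 α
  rwa [map_sub, _root_.sub_apply, inner_sub_right, Complex.sub_re, sub_nonneg] at this

lemma re_mono {a b : A} (h : a ≤ b) (α : H) :
    (⟪α, D.ρ a α⟫_ℂ).re ≤ (⟪α, D.ρ b α⟫_ℂ).re := by
  have := D.ρ_nonneg (sub_nonneg.2 h) α
  rwa [ρ_sub, _root_.sub_apply, inner_sub_right, Complex.sub_re, sub_nonneg] at this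

lemma _root_.Vale.Agent.P132.Std.col_le (S : Std A H)
    (h : ∑ i, star (w i) * w i ≤ K • (1 : A)) (α : H) :
    ∑ i, ‖S.π (w i) α‖ ^ 2 ≤ K * ‖α‖ ^ 2 := by
  rw [S.col_eq, ← re_inner_rsmul]
  refine (S.re_mono h α).trans_eq ?_
  rw [← Complex.coe_smul, map_smul, map_one]
  rfl
lemma col_le (h : ∑ i, w i * star (w i) ≤ K • (1 : A)) (α : H) :
    ∑ i, ‖D.ρ (w i) α‖ ^ 2 ≤ K * ‖α‖ ^ 2 := by
  rw [D.col_eq, ← re_inner_rsmul]
  refine (D.re_mono h α).trans_eq ?_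
  rw [ρ_rsmul, ρ_one]
  rfl
lemma _root_.Vale.Agent.P132.Std.row_le (S : Std A H)
    (h : ∑ i, w i * star (w i) ≤ K • (1 : A)) (α : ι → H) :
    ‖∑ i, S.π (w i) (α i)‖ ^ 2 ≤ K * ∑ i, ‖α i‖ ^ 2 := by
  have h1 := S.col_le (w := fun i => star (w i)) (by simpa only [star_star] using h)
  have h2 := h1 S.ξ
  rw [S.norm_ξ, one_pow, mul_one] at h2
  exact row_of_col (le_trans (by positivity) h2) (by simpa only [map_star] using h1) α
lemma row_le (h : ∑ i, star (w i) * w i ≤ K • (1 : A)) (α : ι → H) :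
    ‖∑ i, D.ρ (w i) (α i)‖ ^ 2 ≤ K * ∑ i, ‖α i‖ ^ 2 := by
  have h1 := D.col_le (w := fun i => star (w i)) (by simpa only [star_star] using h)
  have h2 := h1 S.ξ
  rw [S.norm_ξ, one_pow, mul_one] at h2
  exact row_of_col (le_trans (by positivity) h2) (by simpa only [ρ_star] using h1) α
/-- A positive element below `K` is controlled in two-norm by its expectation. -/
lemma _root_.Vale.Agent.P132.Std.norm_sq_le (S : Std A H) {b : A} (h0 : 0 ≤ b)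
    (h : b ≤ K • (1 : A)) (α : H) : ‖S.π b α‖ ^ 2 ≤ K * (⟪α, S.π b α⟫_ℂ).re := by
  have hr := (CFC.sqrt_nonneg b).isSelfAdjoint
  have e := CFC.sqrt_mul_sqrt_self b h0
  have h1 := hr.conjugate_le_conjugate h
  rw [mul_smul_comm, smul_mul_assoc, mul_one, e] at h1
  have h2 : star b * b = CFC.sqrt b * b * CFC.sqrt b := by
    rw [h0.isSelfAdjoint.star_eq]
    set r := CFC.sqrt b
    rw [← e]
    noncomm_ring
  rw [S.norm_sq, h2]
  refine (S.re_mono h1 α).trans_eq ?_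
  rw [← Complex.coe_smul, map_smul, _root_.smul_apply, inner_smul_right,
    Complex.re_ofReal_mul]

end PM

end Vale.Agent.P132
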