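import Vale.Agent.P132.ApiM
import Mathlib.RingTheory.RootsOfUnity.Complex
import Mathlib.Analysis.SpecialFunctions.Trigonometric.Bounds

/-! Time averages of families and the discrete Fourier windows. -/

namespace Vale.Agent.P132

open scoped InnerProductSpace ComplexConjugate Topology
open Vale.Agent.P082 Filter Finset

variable {A : Type*} [CStarAlgebra A] [PartialOrder A] [StarOrderedRing A] {H : Type*}
  [NormedAddCommGroup H] [InnerProductSpace ℂ H] [CompleteSpace H] {S : Std A H}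

theorem norm_Φ_le (D : MD S) {ι : Type} [Fintype ι] {w : ι → A} {K₁ K₂ : ℝ} (_h₁ : 0 ≤ K₁)
    (hc : ∑ i, star (w i) * w i ≤ K₁ • (1 : A)) (hr : ∑ i, w i * star (w i) ≤ K₂ • (1 : A))
    (α : H) : ‖D.Φ w α‖ ^ 2 ≤ K₁ * K₂ * ‖α‖ ^ 2 := by
  have h0 := S.col_le (w := fun i => star (w i)) (K := K₂) (by simpa using hr) S.ξ
  rw [S.norm_ξ, one_pow, mul_one] at h0
  have h1 := D.col_le (w := fun i => star (w i)) (K := K₁) (by simpa using hc) α
  have h2 := S.row_le hr fun i => D.ρ (star (w i)) α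
  simp only [MD.Φ, _root_.sum_apply, mul_apply_eq_comp]
  nlinarith [mul_le_mul_of_nonneg_left h1 (le_trans (by positivity) h0)]

/-- The windows. -/
noncomputable def win (τ : ℝ) (N : ℕ) (μ s : ℝ) : ℂ :=
  (N : ℂ)⁻¹ * ∑ n ∈ Finset.range N, ex τ (s - μ) ^ n

lemma ex_sub (τ s μ : ℝ) : ex τ (s - μ) = ex τ (-μ) * ex τ s := by
  simp only [ex, ← Complex.exp_add]
  congr 1
  push_cast; ring

theorem bc_win (τ : ℝ) (N : ℕ) (μ : ℝ) : BC (win τ N μ) :=
  (BC.const _).mul (BC.sum _ fun n _ => BC.pow (by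
    simpa only [ex_sub] using (BC.const _).mul (bc_ex τ)) n)

theorem sum_win {τ : ℝ} (hτ : 0 < τ) {N : ℕ} (hN : 0 < N) (s : ℝ) :
    ∑ k ∈ Finset.range N, ‖win τ N (-(2 * Real.pi / τ * (k / N))) s‖ ^ 2 = 1 := by
  have hp := Complex.isPrimitiveRoot_exp N hN.ne'
  set ω := Complex.exp (2 * Real.pi * Complex.I / N) with hω
  have N0 : (N : ℂ) ≠ 0 := by exact_mod_cast hN.ne'
  have e1 : ∀ k : ℕ, ex τ (s - -(2 * Real.pi / τ * (k / N))) = ω ^ k * ex τ s := fun k => by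
    rw [ex_sub, neg_neg, hω, ← Complex.exp_nat_mul, ex]
    congr 2
    have : (τ : ℂ) ≠ 0 := by exact_mod_cast hτ.ne'
    push_cast; field_simp
  have n1 : ‖ω‖ = 1 := hp.norm'_eq_one hN.ne'
  have c1 : ω * conj ω = 1 := by rw [Complex.mul_conj', n1]; simp
  have c2 : ex τ s * conj (ex τ s) = 1 := by rw [Complex.mul_conj', norm_ex]; simp
  have e2 : ∀ n ∈ range N, ∀ m ∈ range N, n ≠ m → ∑ k ∈ range N, (ω ^ n * conj ω ^ m) ^ k = 0 :=
    fun n hn m hm h => by
    have h1 : ω ^ n * conj ω ^ m ≠ 1 := fun h1 => h (hp.pow_inj (mem_range.1 hn) (mem_range.1 hm) (by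
      rw [← mul_one (ω ^ n), ← one_pow m, ← c1, mul_pow, mul_left_comm, h1, mul_one]))
    rw [geom_sum_eq h1, mul_pow, ← pow_mul, ← pow_mul, mul_comm n, mul_comm m, pow_mul, pow_mul,
      ← map_pow, hp.pow_eq_one]
    simp
  suffices h : ∑ k ∈ range N, (∑ n ∈ range N, (ω ^ k * ex τ s) ^ n) *
      conj (∑ n ∈ range N, (ω ^ k * ex τ s) ^ n) = N * N by
    simp only [Complex.mul_conj'] at h
    simp only [win, e1, norm_mul, mul_pow, ← mul_sum, norm_inv, Complex.norm_natCast]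
    simp only [mul_pow] at h
    rw [show ∑ k ∈ range N, ‖∑ n ∈ range N, (ω ^ k) ^ n * ex τ s ^ n‖ ^ 2 = N * N by
      exact_mod_cast h]
    have : (N : ℝ) ≠ 0 := by exact_mod_cast hN.ne'
    field_simp
  simp only [map_sum, sum_mul_sum, map_pow, map_mul]
  rw [sum_comm, ← card_range N, ← nsmul_eq_mul, ← sum_const, card_range]
  refine sum_congr rfl fun n hn => ?_
  rw [sum_comm, sum_eq_single_of_mem n hn fun m hm h => ?_]
  · have : ∀ k, (ω ^ k * ex τ s) ^ n * (conj ω ^ k * conj (ex τ s)) ^ n = 1 := fun k => by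
      rw [← mul_pow, mul_mul_mul_comm, ← mul_pow, c1, c2]; simp
    simp [this]
  · have := congrArg (· * (ex τ s ^ n * conj (ex τ s) ^ m)) (e2 n hn m hm h.symm)
    simp only [sum_mul, zero_mul] at this
    exact (sum_congr rfl fun k _ => by ring).trans this

lemma abs_exp_sub {a b : ℝ} (ha : a ≤ 0) (hb : b ≤ 0) : |Real.exp a - Real.exp b| ≤ |a - b| := by
  wlog h : a ≤ b generalizing a b
  · rw [abs_sub_comm, abs_sub_comm a]; exact this hb ha (le_of_not_ge h)
  have h1 := Real.add_one_le_exp (a - b)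
  have h2 := Real.exp_le_one_iff.2 hb
  have h3 : Real.exp a = Real.exp b * Real.exp (a - b) := by rw [← Real.exp_add]; congr 1; ring
  rw [abs_of_nonpos (sub_nonpos.2 (Real.exp_le_exp.2 h)), abs_of_nonpos (sub_nonpos.2 h), h3]
  nlinarith [Real.exp_pos b]

lemma sin_low {γ y : ℝ} (h0 : 0 ≤ γ) (hy : 0 ≤ y) (h : y ≤ Real.pi - γ / 2) :
    γ * y / Real.pi ^ 2 ≤ Real.sin y := by
  have hp := Real.pi_pos
  rw [div_le_iff₀ (by positivity)]
  rcases le_total y (Real.pi / 2) with h1 | h1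
  · have := Real.mul_le_sin hy h1
    rw [div_mul_eq_mul_div, div_le_iff₀ hp] at this
    nlinarith [mul_le_mul_of_nonneg_left this hp.le, mul_nonneg hy (show 0 ≤ 2 * Real.pi - γ by
      linarith)]
  · have := Real.mul_le_sin (x := Real.pi - y) (by linarith) (by linarith)
    rw [div_mul_eq_mul_div, div_le_iff₀ hp, Real.sin_pi_sub] at this
    nlinarith [mul_le_mul_of_nonneg_left this hp.le, mul_nonneg h0 (show 0 ≤ Real.pi - y by
      linarith)]

theorem win_def {τ : ℝ} (hτ : 0 < τ) {d : ℝ} (hd : 0 < d) : ∃ C : ℝ, ∀ (N : ℕ) (μ s : ℝ), 0 < N →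
    μ ≤ 0 → s ≤ 0 → |s - μ| ≤ 2 * Real.pi / τ - d →
      ‖((Real.exp (μ / 2) : ℝ) - EE s) * win τ N μ s‖ ≤ C / N := by
  have hp := Real.pi_pos
  refine ⟨Real.pi ^ 2 / (τ * d * τ) * 2, fun N μ s hN hμ hs h => ?_⟩
  have h1 := sin_low (γ := τ * d) (y := |τ * (s - μ) / 2|) (by positivity) (abs_nonneg _) (by
    rw [abs_div, abs_mul, abs_of_pos hτ, abs_two]
    have := mul_le_mul_of_nonneg_left h hτ.le
    rw [mul_sub, mul_div_cancel₀ _ hτ.ne'] at this
    linarith)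
  have h2 : Real.sin |τ * (s - μ) / 2| ≤ |Real.sin (τ * (s - μ) / 2)| := by
    rcases abs_cases (τ * (s - μ) / 2) with h | h <;> rw [h.1]
    exacts [le_abs_self _, (Real.sin_neg _).trans_le (neg_le_abs _)]
  have h3 : ‖ex τ (s - μ) - 1‖ = 2 * |Real.sin (τ * (s - μ) / 2)| := by
    rw [ex, mul_comm _ Complex.I, Complex.norm_exp_I_mul_ofReal_sub_one, Real.norm_eq_abs, abs_mul,
      abs_two]
  have h4 : ‖((Real.exp (μ / 2) : ℝ) : ℂ) - EE s‖ ≤
      Real.pi ^ 2 / (τ * d * τ) * ‖ex τ (s - μ) - 1‖ := by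
    rw [EE, ← Complex.ofReal_sub, Complex.norm_real, Real.norm_eq_abs, h3]
    refine (abs_exp_sub (by linarith) (by linarith)).trans ?_
    have h5 := h1.trans h2
    rw [abs_div, abs_mul, abs_of_pos hτ, abs_two, div_le_iff₀ (by positivity)] at h5
    rw [← sub_div, abs_div, abs_two, abs_sub_comm, div_mul_eq_mul_div, le_div_iff₀ (by positivity)]
    nlinarith [abs_nonneg (Real.sin (τ * (s - μ) / 2)), mul_nonneg (sq_nonneg Real.pi)
      (abs_nonneg (Real.sin (τ * (s - μ) / 2)))]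
  have h5 : ‖ex τ (s - μ) - 1‖ * ‖win τ N μ s‖ ≤ 2 / N := by
    rw [← norm_mul, win, mul_left_comm, mul_geom_sum, norm_mul, norm_inv, Complex.norm_natCast,
      inv_mul_eq_div]
    gcongr
    exact (norm_sub_le _ _).trans (by rw [norm_pow, norm_ex]; norm_num)
  rw [norm_mul, mul_div_assoc]
  exact (mul_le_mul_of_nonneg_right h4 (norm_nonneg _)).trans
    ((mul_assoc _ _ _).trans_le (by gcongr))

lemma comm_pow {X U : H →L[ℂ] H} (hU : ‖U‖ ≤ 1) (n : ℕ) :
    ‖X * U ^ n - U ^ n * X‖ ≤ n * ‖X * U - U * X‖ := by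
  have h1 : ∀ n : ℕ, ‖U ^ n‖ ≤ 1 := fun n => by
    induction n with
    | zero => exact norm_one_le
    | succ n ih => exact pow_succ U n ▸ (norm_mul_le _ _).trans (mul_le_one₀ ih (norm_nonneg _) hU)
  induction n with
  | zero => simp
  | succ n ih =>
    have : X * U ^ (n + 1) - U ^ (n + 1) * X =
        (X * U ^ n - U ^ n * X) * U + U ^ n * (X * U - U * X) := by rw [pow_succ]; noncomm_ring
    rw [this, Nat.cast_succ, add_mul, one_mul]
    exact (norm_add_le _ _).trans (add_le_add ((norm_mul_le _ _).trans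
      ((mul_le_of_le_one_right (norm_nonneg _) hU).trans ih)) ((norm_mul_le _ _).trans
        (mul_le_of_le_one_left (norm_nonneg _) (h1 n))))

lemma avg_le {D : MD S} {T : ℕ} (hT : 0 < T) (t : Fin T → ℝ) {b : A} {K : ℝ} (h : b ≤ K • 1) :
    ∑ m, (T : ℝ)⁻¹ • D.σ (t m) b ≤ K • 1 := by
  have T0 : (T : ℝ) ≠ 0 := by exact_mod_cast hT.ne'
  refine (sum_le_sum fun m _ => smul_le_smul_of_nonneg_left (MD.σ_mono (t m) h)
    (by positivity)).trans_eq ?_
  have : ∀ m, D.σ (t m) (K • 1) = K • 1 := fun m => by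
    rw [← Complex.coe_smul, map_smul, map_one]
  simp only [this, sum_const, card_univ, Fintype.card_fin, ← Nat.cast_smul_eq_nsmul ℝ,
    smul_inv_smul₀ T0]

/-- Good families whose two-sided operator almost commutes with a window. -/
theorem exists_avg {D : MD S} (h : D.H3) {c ε : ℝ} (hc : 0 < c) (hε : 0 < ε) (τ : ℝ) (N : ℕ)
    (μ : ℝ) : ∃ (ι : Type) (_ : Fintype ι) (w : ι → A), D.Good 1 1 c ε w ∧
      ‖D.Φ w * D.fb (fun s => conj (win τ N μ s)) - D.fb (fun s => conj (win τ N μ s)) * D.Φ w‖ ≤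
        ε := by
  obtain ⟨ι, _, w, hw⟩ := h 1 1 MD.ip_one MD.ip_one c ε hc hε
  obtain ⟨T, hT⟩ := exists_nat_gt (2 * c * N / ε)
  have T0 : (0 : ℝ) < T := lt_of_le_of_lt (by positivity) hT
  have T0' : 0 < T := by exact_mod_cast T0
  set r : ℝ := (√T)⁻¹ with hr
  have r0 : 0 ≤ r := by positivity
  have r2 : r * r = (T : ℝ)⁻¹ := by rw [hr, ← mul_inv, Real.mul_self_sqrt T0.le]
  have r3 : ∀ x : ι → ℝ, ∑ _m : Fin T, ∑ i, (r * x i) ^ 2 = ∑ i, x i ^ 2 := fun x => by
    simp only [mul_pow, sq r, r2, ← mul_sum, sum_const, card_univ, Fintype.card_fin, nsmul_eq_mul,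
      inv_mul_cancel_left₀ T0.ne']
  let w' : Fin T × ι → A := fun p => r • D.σ (-τ * p.1) (w p.2)
  have e1 : ∑ p, ‖S.π (w' p) S.ξ‖ ^ 2 = ∑ i, ‖S.π (w i) S.ξ‖ ^ 2 := by
    simp only [w', Fintype.sum_prod_type, ← Complex.coe_smul, map_smul, smul_apply, norm_smul,
      D.π_σ_ξ, D.norm_U, Complex.norm_real, Real.norm_of_nonneg r0, r3]
  have e2 : D.cost c w' = D.cost c w := by
    simp only [MD.cost, w', Fintype.sum_prod_type, ← Complex.coe_smul, map_smul, D.ρ_smul,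
      smul_apply, smul_comm (c : ℂ) (r : ℂ), ← smul_sub, norm_smul, D.π_σ_ξ, D.ρ_σ_ξ,
      Complex.norm_real, Real.norm_of_nonneg r0]
    simp only [← map_smul, ← map_sub, D.norm_U, r3]
  refine ⟨Fin T × ι, inferInstance, w', ⟨⟨by simp, ?_, e1 ▸ hw.low, e1 ▸ hw.up, e2 ▸ hw.cst⟩, ?_⟩,
    ?_⟩
  · simpa only [w', Fintype.sum_prod_type, star_smul, star_trivial, smul_mul_smul_comm, r2,
      ← map_star, ← map_mul, ← smul_sum, ← map_sum] using avg_le T0' (fun m => -τ * m) hw.row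
  · simpa only [w', Fintype.sum_prod_type, star_smul, star_trivial, smul_mul_smul_comm, r2,
      ← map_star, ← map_mul, ← smul_sum, ← map_sum] using avg_le T0' (fun m => -τ * m) hw.col
  let Ψ : ℕ → H →L[ℂ] H := fun m => D.U (-τ * m) * D.Φ w * D.U (-(-τ * m))
  have e3 : D.Φ w' = (((T : ℝ)⁻¹ : ℝ) : ℂ) • ∑ m ∈ range T, Ψ m := by
    rw [← Fin.sum_univ_eq_sum_range, smul_sum, MD.Φ, Fintype.sum_prod_type]
    refine sum_congr rfl fun m _ => ContinuousLinearMap.ext fun α => ?_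
    simp only [w', Ψ, MD.Φ, ← Complex.coe_smul, star_smul, map_smul, D.ρ_smul, ← map_star,
      _root_.sum_apply, mul_apply_eq_comp, smul_apply, D.π_σ, D.ρ_σ, D.U_neg_U, map_sum, smul_sum,
      smul_smul, RCLike.star_def, Complex.conj_ofReal, ← Complex.ofReal_mul, r2]
  have nU : ∀ t, ‖D.U t‖ ≤ 1 := fun t =>
    ContinuousLinearMap.opNorm_le_bound _ zero_le_one fun α => by rw [D.norm_U, one_mul]
  have nΨ : ∀ m, ‖Ψ m‖ ≤ c := fun m => ContinuousLinearMap.opNorm_le_bound _ hc.le fun α => by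
    have := norm_Φ_le D (by positivity) hw.col hw.row (D.U (-(-τ * m)) α)
    simp only [map_one, one_apply_eq_self, S.norm_ξ, one_pow, inv_one, one_mul, div_one, D.norm_U,
      ← mul_pow] at this
    simpa only [Ψ, mul_apply_eq_comp, D.norm_U] using
      (abs_le_of_sq_le_sq' this (by positivity)).2
  have e4 : ∀ m, D.U (-τ) * Ψ m = Ψ (m + 1) * D.U (-τ) := fun m => by
    simp only [Ψ, ← mul_assoc, ← D.U_add]
    simp only [mul_assoc, ← D.U_add]
    push_cast
    congr 3 <;> ring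
  have e5 : ‖D.Φ w' * D.U (-τ) - D.U (-τ) * D.Φ w'‖ ≤ (T : ℝ)⁻¹ * (2 * c) := by
    rw [e3, smul_mul_assoc, mul_smul_comm, ← smul_sub, mul_sum, norm_smul, Complex.norm_real,
      Real.norm_of_nonneg (by positivity)]
    simp only [e4]
    rw [← sum_mul, ← sub_mul, ← sum_sub_distrib, sum_range_sub']
    gcongr
    refine (norm_mul_le _ _).trans ((mul_le_of_le_one_right (norm_nonneg _) (nU _)).trans ?_)
    linarith [norm_sub_le (Ψ 0) (Ψ T), nΨ 0, nΨ T]
  have e6 : D.fb (fun s => conj (win τ N μ s)) =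
      (N : ℂ)⁻¹ • ∑ n ∈ range N, conj (ex τ (-μ)) ^ n • D.U (-τ) ^ n := by
    simp only [win, ex_sub, map_mul, map_sum, map_pow, conj_ex τ, mul_pow, map_inv₀, map_natCast]
    rw [D.smul (BC.sum _ fun n _ => (BC.const _).mul ((bc_ex _).pow n)),
      D.sum _ fun n _ => (BC.const _).mul ((bc_ex _).pow n)]
    simp only [D.smul ((bc_ex _).pow _), D.pow (bc_ex _), FC.U]
  rw [e6, smul_mul_assoc, mul_smul_comm, ← smul_sub, mul_sum, sum_mul, ← sum_sub_distrib, norm_smul,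
    norm_inv, Complex.norm_natCast]
  refine (mul_le_mul_of_nonneg_left ((norm_sum_le _ _).trans (sum_le_sum (g := fun _ => ε)
    fun n hn => ?_)) (by positivity)).trans ?_
  · rw [smul_mul_assoc, mul_smul_comm, ← smul_sub, norm_smul, norm_pow, Complex.norm_conj, norm_ex,
      one_pow, one_mul]
    refine (comm_pow (nU _) n).trans ((mul_le_mul (show (n : ℝ) ≤ N by
      exact_mod_cast (mem_range.1 hn).le) e5 (norm_nonneg _) (by positivity)).trans ?_)
    rw [div_lt_iff₀ hε] at hT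
    rw [mul_left_comm, inv_mul_le_iff₀ T0]
    linarith
  · rw [sum_const, card_range, nsmul_eq_mul, ← mul_assoc]
    exact mul_le_of_le_one_left hε.le inv_mul_le_one

end Vale.Agent.P132
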