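import Mathlib.Analysis.VonNeumannAlgebra.Basic
import Mathlib.Analysis.CStarAlgebra.ContinuousLinearMap
import Mathlib.Analysis.Normed.Operator.Mul

/-! Definitions used in the statement: modular operator, type III-one factors, bicentralizer. -/

namespace Vale.Agent.P132

open scoped InnerProductSpace ComplexOrder Topology
open Filter

universe u

section graphs

variable {A : Type*} [Star A] {K : Type*} [NormedAddCommGroup K] [InnerProductSpace ℂ K]

/-- The graph of the closed antilinear operator `S`, the closure of `Λ x ↦ Λ (star x)`. -/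
def graphS (Λ : A → K) : Set (K × K) := closure (Set.range fun x => (Λ x, Λ (star x)))

/-- The graph of the modular operator `Δ = S* S`: the pairs `(ζ, θ)` such that `ζ` is in the
domain of `S`, with `S ζ = b`, and `⟪b, S η⟫ = ⟪η, θ⟫` for all `η` in the domain of `S`, that is,
`b` is in the domain of the adjoint `S*` and `S* b = θ`. -/
def graphΔ (Λ : A → K) : Set (K × K) :=
  {p | ∃ b, (p.1, b) ∈ graphS Λ ∧ ∀ q ∈ graphS Λ, ⟪b, q.2⟫_ℂ = ⟪q.1, p.2⟫_ℂ}

/-- The spectrum of the operator `T` with graph `Γ`: the `z` such that `T - z` has no bounded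
everywhere defined two-sided inverse `X`. -/
def specOf (Γ : Set (K × K)) : Set ℂ :=
  {z | ¬∃ X : K →L[ℂ] K, (∀ θ, (X θ, θ + z • X θ) ∈ Γ) ∧ ∀ p ∈ Γ, X (p.2 - z • p.1) = p.1}

end graphs

variable {A : Type u} [CStarAlgebra A] {H : Type*} [NormedAddCommGroup H] [InnerProductSpace ℂ H]

/-- Faithful normal states on an algebra `A` acting on `H` through `π`; normal means weak operator
continuous on the unit ball. -/
structure IsFNState (π : A → H →L[ℂ] H) (φ : A →L[ℂ] ℂ) : Prop where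
  one : φ 1 = 1
  pos : ∀ x, 0 ≤ φ (star x * x)
  faithful : ∀ x, φ (star x * x) = 0 → x = 0
  normal : ∀ (l : Filter A) (y : A), ‖y‖ ≤ 1 → (∀ᶠ x in l, ‖x‖ ≤ 1) →
    (∀ ξ η : H, Tendsto (fun x => ⟪η, π x ξ⟫_ℂ) l (𝓝 ⟪η, π y ξ⟫_ℂ)) → Tendsto φ l (𝓝 (φ y))

/-- The intersection, over all faithful normal states `ψ`, of the spectra of the modular
operators `Δ_ψ`, each computed in the GNS space `(K, Λ)` of `ψ`. -/
def specS (π : A → H →L[ℂ] H) : Set ℂ :=
  {z | ∀ ψ, IsFNState π ψ → ∀ (K : Type u) [NormedAddCommGroup K] [InnerProductSpace ℂ K]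
    [CompleteSpace K] (Λ : A → K), DenseRange Λ →
      (∀ x y, ⟪Λ x, Λ y⟫_ℂ = ψ (star x * y)) → z ∈ specOf (graphΔ Λ)}

/-- Trivial centre. -/
def IsFactor (A : Type u) [CStarAlgebra A] : Prop :=
  ∀ z : A, (∀ x, z * x = x * z) → ∃ c : ℂ, z = c • 1

/-- Type III: every nonzero projection is equivalent to a proper subprojection. -/
def IsTypeIII (A : Type u) [CStarAlgebra A] : Prop :=
  ∀ p : A, IsStarProjection p → p ≠ 0 → ∃ v, star v * v = p ∧ p * v = v ∧ v * star v ≠ p

/-- Uniformly bounded sequences with `‖w n φ - φ w n‖ → 0`, where `(w φ) y = φ (y w)` and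
`(φ w) y = φ (w y)`. -/
def AsympCentral (φ : A →L[ℂ] ℂ) (w : ℕ → A) : Prop :=
  (∃ C, ∀ n, ‖w n‖ ≤ C) ∧
    Tendsto (fun n => ‖φ.comp ((ContinuousLinearMap.mul ℂ A).flip (w n)) -
      φ.comp (ContinuousLinearMap.mul ℂ A (w n))‖) atTop (𝓝 0)

/-- The bicentralizer. -/
def bicentralizer (π : A → H →L[ℂ] H) (φ : A →L[ℂ] ℂ) : Set A :=
  {a | ∀ w, AsympCentral φ w → ∀ η : H, Tendsto (fun n => π (a * w n - w n * a) η) atTop (𝓝 0)}

end Vale.Agent.P132
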