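import Vale.Agent.P082.StrA
import Vale.Agent.P132.Defs
import Mathlib.Analysis.SpecialFunctions.Complex.Circle

/-! Standard form, bounded functional calculus of the logarithm of the modular operator, modular
data. -/

namespace Vale.Agent.P132

open scoped InnerProductSpace ComplexConjugate
open Vale.Agent.P082

/-- Bounded continuous functions, unbundled. -/
def BC (F : ℝ → ℂ) : Prop := Continuous F ∧ ∃ C, ∀ s, ‖F s‖ ≤ C

/-- Characters. -/
noncomputable def ex (t s : ℝ) : ℂ := Complex.exp ((t * s : ℝ) * Complex.I)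

noncomputable def pp (s : ℝ) : ℂ := ((1 + Real.exp s)⁻¹ : ℝ)

noncomputable def qq (s : ℝ) : ℂ := (Real.exp (s / 2) * (1 + Real.exp s)⁻¹ : ℝ)

noncomputable def rr (s : ℝ) : ℂ := (Real.exp s * (1 + Real.exp s)⁻¹ : ℝ)

/-- The symbol of the square root of the modular operator. -/
noncomputable def EE (s : ℝ) : ℂ := (Real.exp (s / 2) : ℝ)

/-- A nondegenerate calculus of bounded continuous functions on the line. -/
structure FC (H : Type*) [NormedAddCommGroup H] [InnerProductSpace ℂ H] [CompleteSpace H] where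
  fb : (ℝ → ℂ) → H →L[ℂ] H
  add : ∀ {F G}, BC F → BC G → fb (fun s => F s + G s) = fb F + fb G
  mul : ∀ {F G}, BC F → BC G → fb (fun s => F s * G s) = fb F * fb G
  const : ∀ c : ℂ, fb (fun _ => c) = c • 1
  cj : ∀ {F}, BC F → fb (fun s => conj (F s)) = star (fb F)
  tight : ∀ (α : H) (ε : ℝ), 0 < ε → ∃ L : ℝ, ∀ F, BC F → (∀ s, ‖F s‖ ≤ 1) →
    (∀ s, |s| ≤ L → F s = 0) → ‖fb F α‖ ≤ ε

/-- A representation with the bicommutant property and a cyclic and separating unit vector. -/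
structure Std (A : Type*) [CStarAlgebra A] (H : Type*) [NormedAddCommGroup H]
    [InnerProductSpace ℂ H] [CompleteSpace H] extends Rep A H where
  ξ : H
  norm_ξ : ‖ξ‖ = 1
  cyc : DenseRange fun a => π a ξ
  sep : ∀ a, π a ξ = 0 → a = 0

variable {A : Type*} [CStarAlgebra A] {H : Type*} [NormedAddCommGroup H] [InnerProductSpace ℂ H]
  [CompleteSpace H]

/-- Polar decomposition data of the closed operator `a ξ ↦ a* ξ`. -/
structure PM (S : Std A H) extends FC H where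
  J : H →L⋆[ℂ] H
  JJ : ∀ α, J (J α) = α
  inner_J : ∀ α β, ⟪J α, J β⟫_ℂ = ⟪β, α⟫_ℂ
  J_fb : ∀ {F}, BC F → ∀ α, J (fb F α) = fb (fun s => conj (F (-s))) (J α)
  fb_ξ : ∀ {F}, BC F → fb F S.ξ = F 0 • S.ξ
  gr1 : ∀ a, fb qq (J (S.π (star a) S.ξ)) = fb rr (S.π a S.ξ)
  gr2 : ∀ (α : H) (ε : ℝ), 0 < ε → ∃ a, ‖S.π a S.ξ - fb pp α‖ ≤ ε ∧
    ‖J (S.π (star a) S.ξ) - fb qq α‖ ≤ ε

/-- Modular data: the conclusions of the Tomita-Takesaki theorem. -/
structure MD (S : Std A H) extends PM S where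
  comm : ∀ a b α, J (S.π a (J (S.π b α))) = S.π b (J (S.π a (J α)))
  inv : ∀ t a, ∃ b, S.π b = fb (ex t) * S.π a * fb (ex (-t))

variable {S : Std A H}

/-- The modular group on vectors. -/
noncomputable def FC.U (D : FC H) (t : ℝ) : H →L[ℂ] H := D.fb (ex t)

/-- Invariant vectors. -/
def FC.Fix (D : FC H) (β : H) : Prop := ∀ t, D.U t β = β

/-- The right action. -/
noncomputable def PM.ρ (D : PM S) (a : A) : H →L[ℂ] H := D.J.comp ((S.π (star a)).comp D.J)

namespace MD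

variable (D : MD S)

/-- Elements of the centralizer. -/
def Inv (a : A) : Prop := ∀ t, D.U t * S.π a = S.π a * D.U t

/-- Nonzero projections of the centralizer. -/
def IP (e : A) : Prop := IsStarProjection e ∧ e ≠ 0 ∧ D.Inv e

/-- Approximate eigenoperators. -/
def Ap (c κ : ℝ) (y : A) : Prop :=
  S.π y S.ξ ≠ 0 ∧ ‖D.ρ y S.ξ - (c : ℂ) • S.π y S.ξ‖ ≤ κ * ‖S.π y S.ξ‖

/-- The defect of a family. -/
noncomputable def cost (c : ℝ) {ι : Type} [Fintype ι] (w : ι → A) : ℝ :=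
  ∑ i, ‖D.ρ (w i) S.ξ - (c : ℂ) • S.π (w i) S.ξ‖ ^ 2

/-- Vectors that almost commute with the unitaries almost commuting with the cyclic vector. -/
def V : Set H := {ζ | ∀ ε : ℝ, 0 < ε → ∃ η : ℝ, 0 < η ∧ ∀ u ∈ unitary A,
  ‖S.π u S.ξ - D.ρ u S.ξ‖ ≤ η → ‖S.π u ζ - D.ρ u ζ‖ ≤ ε}

/-- The two-sided multiplication operator of a family. -/
noncomputable def Φ {ι : Type} [Fintype ι] (w : ι → A) : H →L[ℂ] H :=
  ∑ i, S.π (w i) * D.ρ (star (w i))

/-- Approximate eigenoperators in every diagonal corner. -/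
def H1 : Prop := ∀ e, D.IP e → ∀ c κ : ℝ, 0 < c → 0 < κ → ∃ y, e * y * e = y ∧ D.Ap c κ y

/-- Approximate eigenoperators in every corner. -/
def H2 : Prop :=
  ∀ e f, D.IP e → D.IP f → ∀ c κ : ℝ, 0 < c → 0 < κ → ∃ y, f * y * e = y ∧ D.Ap c κ y

variable [PartialOrder A]

/-- Families bounded on the left only. -/
structure GoodL (e f : A) (c ε : ℝ) {ι : Type} [Fintype ι] (w : ι → A) : Prop where
  cor : ∀ i, f * w i * e = w i
  row : ∑ i, w i * star (w i) ≤ (c ^ 2 / ‖S.π f S.ξ‖ ^ 2) • f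
  low : 1 - ε ≤ ∑ i, ‖S.π (w i) S.ξ‖ ^ 2
  up : ∑ i, ‖S.π (w i) S.ξ‖ ^ 2 ≤ 1 + ε
  cst : D.cost c w ≤ ε

/-- Families bounded on both sides. -/
structure Good (e f : A) (c ε : ℝ) {ι : Type} [Fintype ι] (w : ι → A) : Prop
    extends D.GoodL e f c ε w where
  col : ∑ i, star (w i) * w i ≤ (‖S.π e S.ξ‖ ^ 2)⁻¹ • e

/-- Good families in every corner. -/
def H3 : Prop := ∀ e f, D.IP e → D.IP f → ∀ c ε : ℝ, 0 < c → 0 < ε →
  ∃ (ι : Type) (_ : Fintype ι) (w : ι → A), D.Good e f c ε w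

end MD

end Vale.Agent.P132
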