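import Vale.Agent.P132.Api
import Mathlib.Analysis.Normed.Operator.Extend

/-! Construction of the calculus from a positive contraction. -/

namespace Vale.Agent.P132

open scoped InnerProductSpace ComplexConjugate Topology
open Vale.Agent.P082 Filter

variable {H : Type*} [NormedAddCommGroup H] [InnerProductSpace ℂ H] [CompleteSpace H]

namespace Calc

/-- Induction over continuous functions, by polynomial approximation on the unit interval. -/
lemma cont_induction {P : (ℝ → ℂ) → Prop} (hc : ∀ c, P fun _ => c) (hi : P fun r => r)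
    (ha : ∀ f g, Continuous f → Continuous g → P f → P g → P fun r => f r + g r)
    (hm : ∀ f g, Continuous f → Continuous g → P f → P g → P fun r => f r * g r)
    (hl : ∀ g, Continuous g → (∀ ε > 0, ∃ f, Continuous f ∧ P f ∧
      ∀ r ∈ Set.Icc (0 : ℝ) 1, ‖g r - f r‖ ≤ ε) → P g) {g : ℝ → ℂ} (hg : Continuous g) : P g := by
  have h1 : ∀ p : Polynomial ℝ, P fun r => (p.eval r : ℝ) := fun p => by
    induction p using Polynomial.induction_on with
    | C a => simpa using hc a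
    | add p q hp hq => simpa using ha _ _ (by fun_prop) (by fun_prop) hp hq
    | monomial n a h =>
      simpa [pow_succ, mul_assoc] using hm _ _ (by fun_prop) (by fun_prop) h hi
  refine hl g hg fun ε hε => ?_
  obtain ⟨p, hp⟩ := exists_polynomial_near_of_continuousOn 0 1 (fun r => (g r).re)
    (by fun_prop) _ (half_pos hε)
  obtain ⟨q, hq⟩ := exists_polynomial_near_of_continuousOn 0 1 (fun r => (g r).im)
    (by fun_prop) _ (half_pos hε)
  refine ⟨_, by fun_prop, ha _ _ (by fun_prop) (by fun_prop) (h1 p)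
    (hm _ _ (by fun_prop) (by fun_prop) (h1 q) (hc Complex.I)), fun r hr => ?_⟩
  refine (Complex.norm_le_abs_re_add_abs_im _).trans ?_
  have e1 := hp r hr
  have e2 := hq r hr
  rw [abs_sub_comm] at e1 e2
  simp only [Complex.sub_re, Complex.sub_im, Complex.add_re, Complex.add_im, Complex.mul_re,
    Complex.mul_im, Complex.ofReal_re, Complex.ofReal_im, Complex.I_re, Complex.I_im, mul_zero,
    mul_one, sub_zero, add_zero, zero_add]
  linarith

/-- The continuous calculus. -/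
noncomputable def Ψ (R : H →L[ℂ] H) (g : ℝ → ℂ) : H →L[ℂ] H := cfc (fun z : ℂ => g z.re) R

variable {R : H →L[ℂ] H} {f g : ℝ → ℂ}

lemma Ψ_add (hf : Continuous f) (hg : Continuous g) :
    Ψ R (fun r => f r + g r) = Ψ R f + Ψ R g := cfc_add _ _ _ (by fun_prop) (by fun_prop)

lemma Ψ_mul (hf : Continuous f) (hg : Continuous g) :
    Ψ R (fun r => f r * g r) = Ψ R f * Ψ R g := cfc_mul _ _ _ (by fun_prop) (by fun_prop)

lemma Ψ_sub (hf : Continuous f) (hg : Continuous g) :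
    Ψ R (fun r => f r - g r) = Ψ R f - Ψ R g := cfc_sub _ _ _ (by fun_prop) (by fun_prop)

lemma Ψ_star : Ψ R (fun r => conj (f r)) = star (Ψ R f) := cfc_star _ _

lemma Ψ_comm (hf : Continuous f) (hg : Continuous g) : Ψ R f * Ψ R g = Ψ R g * Ψ R f := by
  rw [← Ψ_mul hf hg, ← Ψ_mul hg hf]
  simp only [mul_comm]

lemma Ψ_const (h0 : 0 ≤ R) (c : ℂ) : Ψ R (fun _ => c) = c • 1 := by
  have := h0.isSelfAdjoint.isStarNormal
  rw [← Algebra.algebraMap_eq_smul_one]
  exact cfc_const c R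

lemma Ψ_id (h0 : 0 ≤ R) : Ψ R (fun r => r) = R := by
  have := h0.isSelfAdjoint.isStarNormal
  refine Eq.trans (cfc_congr fun z hz => ?_) (cfc_id' ℂ R)
  exact (h0.isSelfAdjoint.mem_spectrum_eq_re hz).symm

lemma Ψ_congr (h0 : 0 ≤ R) (h1 : R ≤ 1) (h : ∀ r ∈ Set.Icc (0 : ℝ) 1, f r = g r) :
    Ψ R f = Ψ R g := cfc_congr fun z hz => by
  have h2 : z.re ∈ spectrum ℝ R := h0.isSelfAdjoint.spectrumRestricts.apply_mem hz
  exact h _ ⟨spectrum_nonneg_of_nonneg h0 h2, (CFC.le_one_iff (R := ℝ) R).1 h1 _ h2⟩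

lemma norm_sq_eq (T : H →L[ℂ] H) (α : H) : ‖T α‖ ^ 2 = (⟪α, (star T * T) α⟫_ℂ).re := by
  rw [ContinuousLinearMap.mul_apply, ContinuousLinearMap.star_eq_adjoint,
    ContinuousLinearMap.adjoint_inner_right]
  exact (inner_self_eq_norm_sq (𝕜 := ℂ) _).symm

lemma Ψ_mono (h0 : 0 ≤ R) (h1 : R ≤ 1) (hf : Continuous f) (hg : Continuous g) {C : ℝ}
    (hC : 0 ≤ C) (h : ∀ r ∈ Set.Icc (0 : ℝ) 1, ‖f r‖ ≤ C * ‖g r‖) (α : H) :
    ‖Ψ R f α‖ ≤ C * ‖Ψ R g α‖ := by
  let k : ℝ → ℂ := fun r => (√((C * ‖g r‖) ^ 2 - ‖f r‖ ^ 2) : ℝ)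
  have hk : Continuous k := by fun_prop
  have e1 : star (Ψ R k) * Ψ R k + star (Ψ R f) * Ψ R f =
      ((C ^ 2 : ℝ) : ℂ) • (star (Ψ R g) * Ψ R g) := by
    rw [← Ψ_star, ← Ψ_star, ← Ψ_star, ← Ψ_mul (by fun_prop) hk, ← Ψ_mul (by fun_prop) hf,
      ← Ψ_mul (by fun_prop) hg, ← Ψ_add (by fun_prop) (by fun_prop), ← smul_one_mul,
      ← Ψ_const h0, ← Ψ_mul (by fun_prop) (by fun_prop)]
    refine Ψ_congr h0 h1 fun r hr => ?_
    have e2 : 0 ≤ (C * ‖g r‖) ^ 2 - ‖f r‖ ^ 2 :=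
      sub_nonneg.2 (pow_le_pow_left₀ (norm_nonneg _) (h r hr) 2)
    simp only [k, Complex.conj_mul', Complex.norm_real, Real.norm_eq_abs, ← Complex.ofReal_pow,
      sq_abs, Real.sq_sqrt e2, ← Complex.ofReal_add, ← Complex.ofReal_mul]
    congr 1
    ring
  have e2 := congr((⟪α, $e1 α⟫_ℂ).re)
  simp only [ContinuousLinearMap.add_apply, inner_add_right, Complex.add_re,
    ContinuousLinearMap.smul_apply, inner_smul_right, Complex.re_ofReal_mul, ← norm_sq_eq] at e2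
  rw [← sq_le_sq₀ (norm_nonneg _) (by positivity), mul_pow]
  nlinarith [sq_nonneg ‖Ψ R k α‖]

lemma Ψ_norm_le (h0 : 0 ≤ R) (h1 : R ≤ 1) (hf : Continuous f) {C : ℝ}
    (h : ∀ r ∈ Set.Icc (0 : ℝ) 1, ‖f r‖ ≤ C) (α : H) : ‖Ψ R f α‖ ≤ C * ‖α‖ := by
  simpa [Ψ_const h0] using Ψ_mono h0 h1 hf (g := fun _ => 1) continuous_const
    ((norm_nonneg _).trans (h 0 ⟨le_rfl, zero_le_one⟩)) (by simpa using h) α

lemma eq_of_forall_le {u v : H} {C : ℝ} (h : ∀ ε > 0, ‖u - v‖ ≤ ε * C) : u = v := by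
  refine sub_eq_zero.1 (norm_le_zero_iff.1 (le_of_forall_pos_le_add fun ε hε => ?_))
  refine (h (ε / (|C| + 1)) (by positivity)).trans ?_
  rw [zero_add, div_mul_eq_mul_div, div_le_iff₀ (by positivity)]
  nlinarith [le_abs_self C]

lemma Ψ_anti (h0 : 0 ≤ R) (h1 : R ≤ 1) (B : H →L⋆[ℂ] H) (hB : ∀ α, B (R α) = B α - R (B α))
    (hg : Continuous g) : ∀ α, B (Ψ R g α) = Ψ R (fun r => conj (g (1 - r))) (B α) := by
  refine cont_induction (P := fun g => ∀ α, B (Ψ R g α) = Ψ R (fun r => conj (g (1 - r))) (B α))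
    (fun c α => ?_) (fun α => ?_) (fun f g hf hg pf pg α => ?_) (fun f g hf hg pf pg α => ?_)
    (fun g hg h α => ?_) hg
  · simp [Ψ_const h0]
  · simp only [Complex.conj_ofReal, Complex.ofReal_sub, Complex.ofReal_one, map_sub, map_one]
    rw [Ψ_sub continuous_const (by fun_prop), Ψ_id h0, Ψ_const h0, hB]
    simp
  · simp only [map_add]
    rw [Ψ_add hf hg, Ψ_add (by fun_prop) (by fun_prop)]
    simp [pf, pg]
  · simp only [map_mul]
    rw [Ψ_mul hf hg, Ψ_mul (by fun_prop) (by fun_prop)]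
    simp [pf, pg]
  · refine eq_of_forall_le (C := ‖B‖ * ‖α‖ + ‖B α‖) fun ε hε => ?_
    obtain ⟨f, hf, pf, e⟩ := h ε hε
    have e1 := Ψ_norm_le h0 h1 (f := fun r => g r - f r) (hg.sub hf) e α
    have e2 := Ψ_norm_le h0 h1 (f := fun r => conj (g (1 - r)) - conj (f (1 - r))) (by fun_prop)
      (C := ε) (fun r hr => by
        rw [← map_sub, Complex.norm_conj]
        exact e _ ⟨by linarith [hr.2], by linarith [hr.1]⟩) (B α)
    rw [Ψ_sub (by fun_prop) (by fun_prop), ContinuousLinearMap.sub_apply, ← pf] at e2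
    rw [Ψ_sub hg hf, ContinuousLinearMap.sub_apply] at e1
    have e3 := (B.le_opNorm _).trans (mul_le_mul_of_nonneg_left e1 (norm_nonneg B))
    rw [map_sub] at e3
    rw [← sub_sub_sub_cancel_right _ _ (B (Ψ R f α))]
    exact (norm_sub_le _ _).trans (by linarith)

lemma Ψ_eig (h0 : 0 ≤ R) (h1 : R ≤ 1) {α : H} (hα : R α = (2 : ℂ)⁻¹ • α) (hg : Continuous g) :
    Ψ R g α = g 2⁻¹ • α := by
  refine cont_induction (P := fun g => Ψ R g α = g 2⁻¹ • α)
    (fun c => ?_) ?_ (fun f g hf hg pf pg => ?_) (fun f g hf hg pf pg => ?_)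
    (fun g hg h => ?_) hg
  · simp [Ψ_const h0]
  · simp [Ψ_id h0, hα]
  · simp [Ψ_add hf hg, pf, pg, add_smul]
  · simp [Ψ_mul hf hg, pf, pg, smul_smul, mul_comm]
  · refine eq_of_forall_le (C := ‖α‖ + ‖α‖) fun ε hε => ?_
    obtain ⟨f, hf, pf, e⟩ := h ε hε
    have e1 := Ψ_norm_le h0 h1 (f := fun r => g r - f r) (hg.sub hf) e α
    have e2 := (norm_smul_le _ α).trans (mul_le_mul_of_nonneg_right
      (e 2⁻¹ ⟨by norm_num, by norm_num⟩) (norm_nonneg α))
    rw [Ψ_sub hg hf, ContinuousLinearMap.sub_apply, pf] at e1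
    rw [sub_smul] at e2
    rw [← sub_sub_sub_cancel_right _ _ (f 2⁻¹ • α)]
    exact (norm_sub_le _ _).trans (by linarith)

noncomputable def dw (r : ℝ) : ℂ := r * (1 - r)

noncomputable def gg (F : ℝ → ℂ) (r : ℝ) : ℂ := dw r * F (Real.log ((1 - r) / r))

lemma continuous_dw : Continuous dw := by unfold dw; fun_prop

lemma continuous_gg {F : ℝ → ℂ} (hF : BC F) : Continuous (gg F) := by
  obtain ⟨hc, C, hC⟩ := hF
  refine continuous_iff_continuousAt.2 fun r => ?_
  by_cases h : dw r = 0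
  · rw [ContinuousAt, gg, h, zero_mul]
    have h1 := (continuous_dw.tendsto r).norm.mul_const C
    rw [h, norm_zero, zero_mul] at h1
    exact squeeze_zero_norm (fun x => (norm_mul_le _ _).trans
      (mul_le_mul_of_nonneg_left (hC _) (norm_nonneg _))) h1
  · have h2 : r ≠ 0 := fun e => h (by simp [dw, e])
    have h3 : 1 - r ≠ 0 := fun e => h (by simp [dw, ← sub_eq_zero.1 e])
    exact continuous_dw.continuousAt.mul (hc.continuousAt.comp
      (((continuousAt_const.sub continuousAt_id).div continuousAt_id h2).log (div_ne_zero h3 h2)))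

lemma norm_dw_le {r L : ℝ} (hr : r ∈ Set.Icc (0 : ℝ) 1) (h : L < |Real.log ((1 - r) / r)|) :
    ‖dw r‖ ≤ Real.exp (-L) := by
  have e : ‖dw r‖ = r * (1 - r) := by
    rw [dw, ← Complex.ofReal_one, ← Complex.ofReal_sub, ← Complex.ofReal_mul, Complex.norm_real,
      Real.norm_of_nonneg (mul_nonneg hr.1 (sub_nonneg.2 hr.2))]
  have he := Real.exp_pos (-L)
  rw [e]
  rcases hr.1.eq_or_lt with h0 | h0
  · rw [← h0, zero_mul]; exact he.le
  rcases hr.2.eq_or_lt with h1 | h1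
  · rw [h1, sub_self, mul_zero]; exact he.le
  have h2 := sub_pos.2 h1
  rcases lt_abs.1 h with h | h
  · rw [← neg_lt_neg_iff, ← Real.log_inv, inv_div, Real.log_lt_iff_lt_exp (div_pos h0 h2),
      div_lt_iff₀ h2] at h
    nlinarith
  · rw [lt_neg, Real.log_lt_iff_lt_exp (div_pos h2 h0), div_lt_iff₀ h0] at h
    nlinarith

lemma dense_of_inj {T : H →L[ℂ] H} (hs : IsSelfAdjoint T) (hi : ∀ α, T α = 0 → α = 0) :
    DenseRange T := by
  have : T.range.topologicalClosure = ⊤ := by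
    rw [Submodule.topologicalClosure_eq_top_iff, T.orthogonal_range, hs.adjoint_eq,
      Submodule.eq_bot_iff]
    exact hi
  exact Submodule.dense_iff_topologicalClosure_eq_top.2 this

end Calc

open Calc in
theorem exists_FC (R : H →L[ℂ] H) (h0 : 0 ≤ R) (h1 : R ≤ 1) (i0 : ∀ α, R α = 0 → α = 0)
    (i1 : ∀ α, R α = α → α = 0) : ∃ D : FC H, D.fb pp = R ∧
      (∀ B : H →L⋆[ℂ] H, (∀ α, B (R α) = B α - R (B α)) → ∀ F, BC F → ∀ α,
        B (D.fb F α) = D.fb (fun s => conj (F (-s))) (B α)) ∧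
      ∀ α, R α = (2 : ℂ)⁻¹ • α → ∀ F, BC F → D.fb F α = F 0 • α := by
  have hd := continuous_dw
  have hD : Ψ R dw = R * (1 - R) := by
    unfold dw
    rw [Ψ_mul (by fun_prop) (by fun_prop), Ψ_sub (by fun_prop) (by fun_prop), Ψ_id h0, Ψ_const h0,
      one_smul]
  have hcd : ∀ r, conj (dw r) = dw r := fun r => by simp [dw]
  have hden : DenseRange (Ψ R dw) := dense_of_inj (by
    rw [IsSelfAdjoint, ← Ψ_star]; simp only [hcd]) fun α h => by
      rw [hD] at h
      exact i1 α (sub_eq_zero.1 (i0 _ h)).symm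
  have ext : ∀ {X Y : H →L[ℂ] H}, X * Ψ R dw = Y * Ψ R dw → X = Y := fun {X Y} h =>
    ContinuousLinearMap.ext (congrFun (hden.equalizer X.continuous Y.continuous
      (funext fun α => congr($h α))))
  let fb : (ℝ → ℂ) → H →L[ℂ] H := fun F =>
    (Ψ R (gg F)).toLinearMap.extendOfNorm (Ψ R dw).toLinearMap
  have hb : ∀ {F : ℝ → ℂ}, BC F → ∀ C, (∀ s, ‖F s‖ ≤ C) → ∀ α,
      ‖Ψ R (gg F) α‖ ≤ C * ‖Ψ R dw α‖ := fun hF C hC =>
    Ψ_mono h0 h1 (continuous_gg hF) hd ((norm_nonneg _).trans (hC 0)) fun r _ => by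
      rw [gg, norm_mul, mul_comm]
      exact mul_le_mul_of_nonneg_right (hC _) (norm_nonneg _)
  have h2 : ∀ {F : ℝ → ℂ}, BC F → fb F * Ψ R dw = Ψ R (gg F) := fun hF =>
    ContinuousLinearMap.ext fun α => LinearMap.extendOfNorm_eq hden
      (hF.2.imp fun C hC => hb hF C hC) α
  have h3 : ∀ {F : ℝ → ℂ}, BC F → ∀ {g}, Continuous g → fb F * Ψ R g = Ψ R g * fb F :=
    fun hF g hg => ext (by
      rw [mul_assoc, Ψ_comm hg hd, ← mul_assoc, mul_assoc (Ψ R g), h2 hF,
        Ψ_comm hg (continuous_gg hF)])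
  refine ⟨⟨fb, fun hF hG => ext ?_, fun hF hG => ext (ext ?_), fun c => ext ?_,
    fun hF => ext ?_, fun α ε hε => ?_⟩, ext ?_, fun B hB F hF α => ?_, fun α hα F hF => ?_⟩
  · rw [add_mul, h2 hF, h2 hG, h2 (hF.add hG), ← Ψ_add (continuous_gg hF) (continuous_gg hG)]
    simp only [gg, ← mul_add]
    rfl
  · rw [h2 (hF.mul hG), mul_assoc (fb _), h2 hG, mul_assoc, Ψ_comm (continuous_gg hG) hd,
      ← mul_assoc, h2 hF, ← Ψ_mul (continuous_gg hF) (continuous_gg hG),
      ← Ψ_mul (continuous_gg (hF.mul hG)) hd]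
    congr 1
    funext r
    simp only [gg]
    ring
  · rw [h2 (.const c), ← Ψ_const h0, ← Ψ_mul continuous_const hd]
    simp only [mul_comm c]
    rfl
  · have e : Ψ R dw = star (Ψ R dw) := by rw [← Ψ_star]; simp only [hcd]
    rw [h2 hF.cj, e, ← star_mul, ← h3 hF hd, h2 hF, ← Ψ_star]
    simp only [gg, map_mul, hcd]
    rfl
  · obtain ⟨β, hβ⟩ := hden.exists_dist_lt α (half_pos hε)
    have hβ0 := norm_nonneg β
    refine ⟨-Real.log (ε / 2 / (‖β‖ + 1)), fun F hF hF1 hF0 => ?_⟩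
    have e1 : fb F α = fb F (α - Ψ R dw β) + Ψ R (gg F) β := by
      rw [← h2 hF]; simp
    have e2 : ‖fb F (α - Ψ R dw β)‖ ≤ 1 * ‖α - Ψ R dw β‖ :=
      LinearMap.norm_extendOfNorm_apply_le hden 1 (hb hF 1 hF1) _
    have e3 := Ψ_norm_le h0 h1 (continuous_gg hF) (C := ε / 2 / (‖β‖ + 1)) (fun r hr => by
      by_contra! h
      have h4 := norm_dw_le hr (not_le.1 fun h5 => by
        rw [gg, hF0 _ h5, mul_zero, norm_zero] at h
        exact absurd h (not_lt.2 (by positivity)))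
      rw [neg_neg, Real.exp_log (by positivity)] at h4
      exact absurd h (not_lt.2 ((norm_mul_le _ _).trans
        ((mul_le_of_le_one_right (norm_nonneg _) (hF1 _)).trans h4)))) β
    have e4 : ε / 2 / (‖β‖ + 1) * ‖β‖ ≤ ε / 2 := by
      rw [div_mul_eq_mul_div, div_le_iff₀ (by positivity)]
      nlinarith
    rw [dist_eq_norm] at hβ
    rw [e1]
    exact (norm_add_le _ _).trans (by linarith)
  · show fb pp * _ = _
    rw [h2 bc_pp]
    nth_rewrite 2 [← Ψ_id h0]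
    rw [← Ψ_mul (by fun_prop) hd]
    refine Ψ_congr h0 h1 fun r hr => ?_
    rcases hr.1.eq_or_lt with h4 | h4
    · simp [gg, dw, ← h4]
    rcases hr.2.eq_or_lt with h5 | h5
    · simp [gg, dw, h5]
    rw [gg, pp, Real.exp_log (div_pos (sub_pos.2 h5) h4), mul_comm, one_add_div h4.ne',
      add_sub_cancel, one_div, inv_inv]
  · show B (fb F α) = fb _ (B α)
    refine hden.induction_on α (isClosed_eq (by fun_prop) (by fun_prop)) fun β => ?_
    have e1 : (fun r => conj (dw (1 - r))) = dw := funext fun r => by simp [dw, mul_comm]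
    rw [← ContinuousLinearMap.mul_apply (fb F), h2 hF, Ψ_anti h0 h1 B hB (continuous_gg hF),
      Ψ_anti h0 h1 B hB hd, e1, ← ContinuousLinearMap.mul_apply (fb _), h2 hF.refl]
    congr 2
    funext r
    rw [gg, gg, map_mul, congrFun e1 r, ← Real.log_inv, inv_div, sub_sub_cancel]
  · show fb F α = _
    have e1 := congr($(h2 hF) α)
    rw [ContinuousLinearMap.mul_apply, Ψ_eig h0 h1 hα hd, Ψ_eig h0 h1 hα (continuous_gg hF),
      map_smul, gg, mul_smul] at e1
    have e2 := smul_right_injective H (show dw 2⁻¹ ≠ 0 by norm_num [dw]) e1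
    rw [e2]
    norm_num

end Vale.Agent.P132
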