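import Vale.Agent.P132.Fam

/-! From diagonal corners to all corners. -/

namespace Vale.Agent.P132

open scoped InnerProductSpace ComplexConjugate Topology
open Vale.Agent.P082 Filter

variable {A : Type*} [CStarAlgebra A] [PartialOrder A] [StarOrderedRing A] {H : Type*}
  [NormedAddCommGroup H] [InnerProductSpace ℂ H] [CompleteSpace H] {S : Std A H}

namespace Cn

lemma exp_near {s s₁ w : ℝ} (h : |s - s₁| ≤ w) :
    |Real.exp (s / 2) - Real.exp (s₁ / 2)| ≤ Real.exp (s₁ / 2) * (Real.exp (w / 2) - 1) := by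
  have h1 := abs_le.1 h
  have e : Real.exp (s / 2) = Real.exp (s₁ / 2) * Real.exp ((s - s₁) / 2) := by
    rw [← Real.exp_add]; congr 1; ring
  have h2 : Real.exp ((s - s₁) / 2) ≤ Real.exp (w / 2) := Real.exp_le_exp.2 (by linarith)
  have h3 := Real.add_one_le_exp ((s - s₁) / 2)
  have h4 := Real.add_one_le_exp (w / 2)
  rw [e, ← mul_sub_one, abs_mul, abs_of_pos (Real.exp_pos _)]
  gcongr
  exact abs_le.2 ⟨by linarith, by linarith⟩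

lemma exists_ne (S : Std A H) (hF : ∀ z : A, (∀ x, z * x = x * z) → ∃ c : ℂ, z = c • 1) {e f : A}
    (he : e ≠ 0) (hf : f ≠ 0) : ∃ a, f * a * e ≠ 0 := by
  by_contra! h
  obtain ⟨c, -, h1, h2, h3⟩ := exists_central S.toRep h
  obtain ⟨t, rfl⟩ := hF c h1
  rw [smul_mul_assoc, one_mul, smul_eq_zero] at h3
  rcases h3 with rfl | h3
  · exact hf (by simpa using h2.symm)
  · exact he h3

omit [PartialOrder A] [StarOrderedRing A] in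
lemma cor_norm (D : MD S) {e f : A} (he : IsStarProjection e) (hf : IsStarProjection f) (α : H) :
    ‖S.π f (D.ρ e α)‖ ≤ ‖α‖ :=
  ((S.norm_apply_le f _).trans (mul_le_of_le_one_left (norm_nonneg _) hf.norm_le)).trans
    ((D.norm_ρ_le e α).trans (mul_le_of_le_one_left (norm_nonneg _) he.norm_le))

lemma low_est {D : MD S} {e y : A} (he : D.IP e) (hy : y * e = y) {c t : ℝ} (hc : 0 < c)
    (ht : 0 < t) {ι : Type} [Fintype ι] {z : ι → A} (hz : D.GoodL e e c (t ^ 2) z) :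
    3 / 4 * (c ^ 2 / ‖S.π e S.ξ‖ ^ 2) * ‖S.π y S.ξ‖ ^ 2 -
      ‖y‖ ^ 2 * (c ^ 2 * t ^ 2 + c * (t + t * (1 + t ^ 2))) ≤
        ∑ i, ‖D.ρ (z i) (S.π y S.ξ)‖ ^ 2 := by
  have n1 := pow_pos he.pos 2
  obtain ⟨K, hK⟩ : ∃ K, K = c ^ 2 / ‖S.π e S.ξ‖ ^ 2 := ⟨_, rfl⟩
  have K0 : 0 < K := hK ▸ div_pos (pow_pos hc 2) n1
  have h1 := hz.row
  rw [← hK] at h1 ⊢
  have h2 := Finset.sum_le_sum fun i (_ : i ∈ Finset.univ) =>
    (Mn.sq_bounds (D.ρ (z i) S.ξ) (S.π (z i) S.ξ) hc.le ht).1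
  simp only [Finset.sum_add_distrib, Finset.sum_sub_distrib, ← Finset.mul_sum,
    ← Finset.sum_div] at h2
  have h3 : D.cost c z / t ≤ t := by rw [div_le_iff₀ ht]; linarith [hz.cst]
  have h4 : ∑ i, ‖D.ρ (z i) S.ξ‖ ^ 2 = (⟪S.ξ, S.π (∑ i, z i * star (z i)) S.ξ⟫_ℂ).re := by
    simpa only [star_star, D.norm_ρ_ξ] using S.col_eq (fun i => star (z i)) S.ξ
  have b0 : 0 ≤ ∑ i, z i * star (z i) := Finset.sum_nonneg fun i _ => mul_star_self_nonneg _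
  rw [D.col_eq]
  generalize ∑ i, z i * star (z i) = b at *
  have r0 : 0 ≤ K • e - b := sub_nonneg.2 h1
  have h5 := S.norm_sq_le r0 (K := K)
    ((sub_le_self _ b0).trans (smul_le_smul_of_nonneg_left he.1.le_one K0.le)) S.ξ
  have h6 : (⟪S.ξ, S.π (K • e - b) S.ξ⟫_ℂ).re = c ^ 2 - (⟪S.ξ, S.π b S.ξ⟫_ℂ).re := by
    rw [map_sub, _root_.sub_apply, inner_sub_right, Complex.sub_re, Mn.π_rsmul, inner_smul_right,
      Complex.re_ofReal_mul, he.inner_ξ, Complex.ofReal_re, hK, div_mul_cancel₀ _ n1.ne']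
  have h7 : c ^ 2 - (⟪S.ξ, S.π b S.ξ⟫_ℂ).re ≤ c ^ 2 * t ^ 2 + c * (t + t * (1 + t ^ 2)) := by
    have a1 := mul_le_mul_of_nonneg_left hz.low (sq_nonneg c)
    have a2 := mul_le_mul_of_nonneg_left hz.up (mul_pos hc ht).le
    have a3 := mul_le_mul_of_nonneg_left h3 hc.le
    unfold MD.cost at a3
    rw [← h4]
    nlinarith
  have h8 : D.ρ b (S.π y S.ξ) = (K : ℂ) • S.π y S.ξ - S.π y (D.ρ (K • e - b) S.ξ) := by
    rw [D.π_ρ, D.ρ_sub, D.ρ_rsmul, _root_.sub_apply, _root_.smul_apply, ← D.π_ρ y e,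
      he.2.2.ρ_ξ, ← S.mul_apply, hy, sub_sub_cancel]
  have h9 : (⟪S.π y S.ξ, S.π y (D.ρ (K • e - b) S.ξ)⟫_ℂ).re ≤
      ‖S.π y S.ξ‖ * (‖y‖ * ‖S.π (K • e - b) S.ξ‖) := by
    refine (re_inner_le_norm (𝕜 := ℂ) _ _).trans ?_
    gcongr
    refine (S.norm_apply_le _ _).trans_eq ?_
    rw [D.norm_ρ_ξ, r0.isSelfAdjoint.star_eq]
  rw [h8, inner_sub_right, Complex.sub_re, re_inner_rsmul]
  rw [h6] at h5
  have h10 := h5.trans (mul_le_mul_of_nonneg_left h7 K0.le)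
  generalize c ^ 2 * t ^ 2 + c * (t + t * (1 + t ^ 2)) = η at *
  generalize ‖S.π (K • e - b) S.ξ‖ = s at *
  have h11 : ‖S.π y S.ξ‖ * (‖y‖ * s) ≤ K / 4 * ‖S.π y S.ξ‖ ^ 2 + ‖y‖ ^ 2 * η := by
    refine le_of_mul_le_mul_left ?_ K0
    nlinarith [sq_nonneg (K / 2 * ‖S.π y S.ξ‖ - ‖y‖ * s),
      mul_le_mul_of_nonneg_left h10 (sq_nonneg ‖y‖)]
  linarith

end Cn

theorem corner_zero {D : MD S} (hF : ∀ z : A, (∀ x, z * x = x * z) → ∃ c : ℂ, z = c • 1) {e f : A}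
    (he : D.IP e) (hf : D.IP f) {κ : ℝ} (hκ : 0 < κ) :
    ∃ (c : ℝ) (y : A), 0 < c ∧ f * y * e = y ∧ D.Ap c (κ * c) y := by
  obtain ⟨a, ha⟩ := Cn.exists_ne S hF he.2.1 hf.2.1
  have cor : ∀ a, f * (f * a * e) * e = f * a * e := fun a => by
    rw [← mul_assoc, ← mul_assoc, hf.1.isIdempotentElem.eq, mul_assoc _ e,
      he.1.isIdempotentElem.eq]
  obtain ⟨s₁, F, hB, h1, h2⟩ := D.exists_bump (fun h => ha (S.sep _ h))
    (w := 2 * Real.log (1 + κ / 2)) (by have := Real.log_pos (show 1 < 1 + κ / 2 by linarith); linarith)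
  have h3 := he.2.2.π_cor f (f * a * e)
  rw [cor] at h3
  generalize S.π (f * a * e) S.ξ = α at *
  have hL : ∀ s, |s₁| + 2 * Real.log (1 + κ / 2) < |s| → F s = 0 := fun s hs =>
    h1 s (by linarith [abs_sub_abs_le_abs_sub s s₁])
  have hE := BC.mul_supp hB.1 hL continuous_EE
  obtain ⟨c, hc⟩ : ∃ c, c = Real.exp (s₁ / 2) := ⟨_, rfl⟩
  have c0 : 0 < c := hc ▸ Real.exp_pos _
  have h4 : ‖D.fb (fun s => F s * EE s) α - (c : ℂ) • D.fb F α‖ ≤ c * (κ / 2) * ‖D.fb F α‖ := by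
    have := D.mono (hE.sub ((BC.const c).mul hB)) hB (C := c * (κ / 2)) (by positivity)
      (fun s => by
        by_cases hs : F s = 0
        · simp [hs]
        have h5 := Cn.exp_near (not_lt.1 fun h => hs (h1 s h))
        rw [mul_div_cancel_left₀ _ two_ne_zero, Real.exp_log (by linarith), ← hc,
          add_sub_cancel_left] at h5
        rw [mul_comm (F s), ← sub_mul, norm_mul, EE, ← Complex.ofReal_sub, Complex.norm_real]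
        gcongr
        exact h5) α
    rwa [D.sub hE ((BC.const c).mul hB), D.smul hB] at this
  have n0 := norm_pos_iff.2 h2
  obtain ⟨ε, hε⟩ : ∃ ε, ε = κ * c * ‖D.fb F α‖ / (2 * (1 + c + κ * c)) := ⟨_, rfl⟩
  have ε0 : 0 < ε := by rw [hε]; positivity
  have ε1 : ε * (2 * (1 + c + κ * c)) = κ * c * ‖D.fb F α‖ := by rw [hε]; field_simp
  obtain ⟨b, h5, h6⟩ := D.gr2' hB.1 hL α ε0
  have key : ∀ {G : ℝ → ℂ}, BC G → ∀ β, ‖β - D.fb G α‖ ≤ ε →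
      ‖S.π f (D.ρ e β) - D.fb G α‖ ≤ ε := fun hG β h => by
    rw [h3, hf.2.2.fb_π hG, he.2.2.fb_ρ hG, ← map_sub, ← map_sub]
    exact (Cn.cor_norm D he.1 hf.1 _).trans h
  have h7 := key hB _ h5
  have h8 := key hE _ h6
  rw [← he.2.2.π_cor] at h7
  rw [← hf.2.2.ρ_cor] at h8
  have h9 := (abs_le.1 ((abs_norm_sub_norm_le _ _).trans h7)).1
  have κc := mul_pos hκ c0
  refine ⟨c, f * b * e, c0, cor b, norm_pos_iff.1 ?_, ?_⟩
  · nlinarith [mul_pos ε0 c0]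
  · generalize S.π (f * b * e) S.ξ = p at *
    generalize D.ρ (f * b * e) S.ξ = q at *
    have e1 : q - (c : ℂ) • p = (q - D.fb (fun s => F s * EE s) α) +
        (D.fb (fun s => F s * EE s) α - (c : ℂ) • D.fb F α) - (c : ℂ) • (p - D.fb F α) := by
      rw [smul_sub]; abel
    rw [e1]
    refine (norm_sub_le_of_le (norm_add_le_of_le h8 h4) le_rfl).trans ?_
    rw [norm_smul, Complex.norm_real, Real.norm_of_nonneg c0.le]
    nlinarith [mul_le_mul_of_nonneg_left h7 c0.le, mul_le_mul_of_nonneg_left h9 κc.le]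

theorem h2_of_h1 {D : MD S} (hF : ∀ z : A, (∀ x, z * x = x * z) → ∃ c : ℂ, z = c • 1)
    (h : D.H1) : D.H2 := by
  intro e f he hf c κ hc hκ
  obtain ⟨c1, y, hc1, h1, h2, h3⟩ := corner_zero hF he hf (κ := κ / (4 * c)) (by positivity)
  obtain ⟨c2, hc2⟩ : ∃ c2, c2 = c / c1 := ⟨_, rfl⟩
  have c20 : 0 < c2 := hc2 ▸ div_pos hc hc1
  have cc : c1 * c2 = c := by rw [hc2]; field_simp
  obtain ⟨K, hK⟩ : ∃ K, K = c2 ^ 2 / ‖S.π e S.ξ‖ ^ 2 := ⟨_, rfl⟩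
  have K0 : 0 < K := hK ▸ div_pos (pow_pos c20 2) (pow_pos he.pos 2)
  have n0 := norm_pos_iff.2 h2
  have d1 : ∀ᶠ t in 𝓝 (0 : ℝ), ‖y‖ ^ 2 * (c2 ^ 2 * t ^ 2 + c2 * (t + t * (1 + t ^ 2))) +
      2 * (‖y‖ ^ 2 * t ^ 2) < K * ‖S.π y S.ξ‖ ^ 2 / 4 :=
    ContinuousAt.eventually_lt (by fun_prop) (by fun_prop) (by simp; positivity)
  have d2 : ∀ᶠ t in 𝓝 (0 : ℝ), 2 * c ^ 2 * (‖y‖ ^ 2 * t ^ 2) < κ ^ 2 * (K * ‖S.π y S.ξ‖ ^ 2) / 8 :=
    ContinuousAt.eventually_lt (by fun_prop) (by fun_prop) (by simp; positivity)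
  obtain ⟨t, ⟨k1, k2⟩, ht⟩ := (((d1.and d2).filter_mono nhdsWithin_le_nhds).and
    (self_mem_nhdsWithin (s := Set.Ioi (0 : ℝ)))).exists
  replace ht : 0 < t := ht
  obtain ⟨ι, _, z, hz⟩ := famL h he c20 (pow_pos ht 2)
  have l1 := Cn.low_est he (Fm.cor_right he.1 h1) c20 ht hz
  have l2 := D.col_le (hz.row.trans (smul_le_smul_of_nonneg_left he.1.le_one (hK ▸ K0.le)))
    (D.ρ y S.ξ - (c1 : ℂ) • S.π y S.ξ)
  rw [← hK] at l1 l2
  have l3 : ∑ i, ‖S.π y (D.ρ (z i) S.ξ - (c2 : ℂ) • S.π (z i) S.ξ)‖ ^ 2 ≤ ‖y‖ ^ 2 * t ^ 2 := by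
    refine le_trans ?_ (mul_le_mul_of_nonneg_left hz.cst (sq_nonneg _))
    unfold MD.cost
    simp only [Finset.mul_sum, ← mul_pow]
    exact Finset.sum_le_sum fun i _ => pow_le_pow_left₀ (norm_nonneg _) (S.norm_apply_le _ _) 2
  have l4 : ∑ i, ‖D.ρ (z i) (S.π y S.ξ)‖ ^ 2 ≤ 2 * (c2 ^ 2 * ∑ i, ‖S.π (y * z i) S.ξ‖ ^ 2) +
      2 * ∑ i, ‖S.π y (D.ρ (z i) S.ξ - (c2 : ℂ) • S.π (z i) S.ξ)‖ ^ 2 := by
    simp only [Finset.mul_sum, ← Finset.sum_add_distrib]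
    refine Finset.sum_le_sum fun i _ => ?_
    have := Fm.sq_add_le ((c2 : ℂ) • S.π (y * z i) S.ξ)
      (S.π y (D.ρ (z i) S.ξ - (c2 : ℂ) • S.π (z i) S.ξ))
    rwa [norm_smul, mul_pow, Complex.norm_real, Real.norm_eq_abs, sq_abs, map_sub (S.π y),
      map_smul (S.π y), ← S.mul_apply, add_sub_cancel, D.π_ρ, ← D.π_ρ y, S.mul_apply,
      ← map_smul (S.π y), ← map_sub (S.π y), D.π_ρ y, ← S.mul_apply] at this
  have l5 : ∑ i, ‖D.ρ (y * z i) S.ξ - (c : ℂ) • S.π (y * z i) S.ξ‖ ^ 2 ≤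
      2 * ∑ i, ‖D.ρ (z i) (D.ρ y S.ξ - (c1 : ℂ) • S.π y S.ξ)‖ ^ 2 +
      2 * (c1 ^ 2 * ∑ i, ‖S.π y (D.ρ (z i) S.ξ - (c2 : ℂ) • S.π (z i) S.ξ)‖ ^ 2) := by
    simp only [Finset.mul_sum, ← Finset.sum_add_distrib]
    refine Finset.sum_le_sum fun i _ => ?_
    have e1 : D.ρ (y * z i) S.ξ - (c : ℂ) • S.π (y * z i) S.ξ =
        D.ρ (z i) (D.ρ y S.ξ - (c1 : ℂ) • S.π y S.ξ) +
          (c1 : ℂ) • S.π y (D.ρ (z i) S.ξ - (c2 : ℂ) • S.π (z i) S.ξ) := by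
      rw [D.ρ_mul_apply, S.mul_apply, map_sub, map_sub, map_smul, map_smul, D.π_ρ, smul_sub,
        smul_smul, ← Complex.ofReal_mul, cc]
      abel
    rw [e1]
    refine (Fm.sq_add_le _ _).trans_eq ?_
    rw [norm_smul, mul_pow, Complex.norm_real, Real.norm_eq_abs, sq_abs]
  have l6 : c2 ^ 2 * ‖D.ρ y S.ξ - (c1 : ℂ) • S.π y S.ξ‖ ^ 2 ≤ κ ^ 2 / 16 * ‖S.π y S.ξ‖ ^ 2 := by
    refine (mul_le_mul_of_nonneg_left (pow_le_pow_left₀ (norm_nonneg _) h3 2) (sq_nonneg _)).trans_eq ?_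
    rw [← cc]; field_simp; ring
  have l7 : ∑ i, ‖D.ρ (y * z i) S.ξ - (c : ℂ) • S.π (y * z i) S.ξ‖ ^ 2 <
      ∑ i, (κ * ‖S.π (y * z i) S.ξ‖) ^ 2 := by
    simp only [mul_pow, ← Finset.mul_sum]
    refine lt_of_mul_lt_mul_left ?_ (sq_nonneg c2)
    have a1 := mul_le_mul_of_nonneg_left l5 (sq_nonneg c2)
    have a2 := mul_le_mul_of_nonneg_left l2 (sq_nonneg c2)
    have a3 := mul_le_mul_of_nonneg_left l6 K0.le
    have a4 := mul_le_mul_of_nonneg_left l3 (sq_nonneg c)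
    have a5 : K * ‖S.π y S.ξ‖ ^ 2 / 4 ≤ c2 ^ 2 * ∑ i, ‖S.π (y * z i) S.ξ‖ ^ 2 := by linarith
    have a6 := mul_le_mul_of_nonneg_left a5 (sq_nonneg κ)
    rw [← cc] at a4 k2
    nlinarith
  obtain ⟨i, -, hi⟩ := Finset.exists_lt_of_sum_lt l7
  have hi' := lt_of_pow_lt_pow_left₀ 2 (by positivity) hi
  refine ⟨y * z i, ?_, fun h0 => ?_, hi'.le⟩
  · rw [← mul_assoc, Fm.cor_left hf.1 h1, mul_assoc, Fm.cor_right he.1 (hz.cor i)]
  · rw [h0, norm_zero, mul_zero] at hi'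
    exact (norm_nonneg _).not_gt hi'

end Vale.Agent.P132
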