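import Vale.Agent.P132.ApiM

/-! From the spectrum of the modular operator of a corner to approximate eigenoperators. -/

namespace Vale.Agent.P132

open scoped InnerProductSpace ComplexConjugate Topology
open Vale.Agent.P082 Filter

universe u

lemma not_mem_specOf {A : Type*} [Star A] {K : Type*} [NormedAddCommGroup K]
    [InnerProductSpace ℂ K] [CompleteSpace K] {Λ : A → K} {R T : K →L[ℂ] K} {J : K →L⋆[ℂ] K}
    (hJ : ∀ α β, ⟪α, J β⟫_ℂ = ⟪β, J α⟫_ℂ) (hR : ∀ α β, ⟪R α, β⟫_ℂ = ⟪α, R β⟫_ℂ)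
    (hT : ∀ α β, ⟪T α, β⟫_ℂ = ⟪α, T β⟫_ℂ) (g1 : ∀ x, T (J (Λ (star x))) = Λ x - R (Λ x))
    (g2 : ∀ α, (R α, J (T α)) ∈ graphS Λ) {z M : ℝ}
    (hM : ∀ α, ‖α‖ ≤ M * ‖α - R α - (z : ℂ) • R α‖) : (z : ℂ) ∉ specOf (graphΔ Λ) := by
  set Y : K →L[ℂ] K := 1 - R - (z : ℂ) • R with hY
  have y0 : ∀ α, Y α = α - R α - (z : ℂ) • R α := fun _ => rfl
  have y1 : ∀ α β, ⟪Y α, β⟫_ℂ = ⟪α, Y β⟫_ℂ := fun α β => by
    simp only [y0, inner_sub_left, inner_sub_right, inner_smul_left, inner_smul_right, hR,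
      Complex.conj_ofReal]
  have y2 : IsUnit Y := by
    refine isUnit_mul_self_iff.1 (ContinuousLinearMap.isUnit_of_forall_le_norm_inner_map _
      (c := ⟨(M ^ 2 + 1)⁻¹, by positivity⟩) (show 0 < (M ^ 2 + 1)⁻¹ by positivity) fun α => ?_)
    rw [mul_apply_eq_comp, y1, inner_self_eq_norm_sq_to_K, norm_pow, RCLike.norm_ofReal, abs_norm]
    refine (mul_inv_le_iff₀ (show 0 < M ^ 2 + 1 by positivity)).2 ?_
    have := pow_le_pow_left₀ (norm_nonneg _) (hM α) 2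
    rw [← y0] at this
    nlinarith [sq_nonneg ‖Y α‖]
  obtain ⟨Z, z1, z2⟩ := isUnit_iff_exists.1 y2
  have g3 : ∀ p ∈ graphS Λ, T (J p.2) = p.1 - R p.1 := fun p hp =>
    closure_minimal (t := {p : K × K | T (J p.2) = p.1 - R p.1})
      (by rintro _ ⟨x, rfl⟩; exact g1 x) (isClosed_eq (by fun_prop) (by fun_prop)) hp
  refine fun h => h ⟨R * Z, fun θ => ⟨_, g2 (Z θ), fun p hp => ?_⟩, fun p ⟨b, h1, h2⟩ => ?_⟩
  · have e : θ + (z : ℂ) • (R * Z) θ = Z θ - R (Z θ) := by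
      rw [mul_apply_eq_comp, ← eq_sub_iff_add_eq, ← y0, ← mul_apply_eq_comp, z1, one_apply_eq_self]
    rw [e, ← inner_conj_symm, hJ, hT, g3 p hp, inner_conj_symm, inner_sub_left, inner_sub_right, hR]
  · have e : R p.2 = p.1 - R p.1 := ext_inner_left ℂ fun α => by
      rw [← hR, ← h2 _ (g2 α), hJ, hT, g3 _ h1]
    have c : R * Z = Z * R := by
      have : Y * R = R * Y := by simp [hY, sub_mul, mul_sub]
      rw [← one_mul (R * Z), ← z2, mul_assoc, ← mul_assoc Y, this, mul_assoc, z1, mul_one]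
    rw [c, mul_apply_eq_comp, map_sub, map_smul, e, ← y0, ← mul_apply_eq_comp, z2,
      one_apply_eq_self]

lemma norm_qq_sub {c : ℝ} (hc : 0 < c) (s : ℝ) :
    ‖qq s - c * pp s‖ ≤ c⁻¹ * ‖1 - pp s - (c ^ 2 : ℝ) * pp s‖ := by
  have e : 1 - pp s - (c ^ 2 : ℝ) * pp s = (qq s - c * pp s) * (Real.exp (s / 2) + c : ℝ) := by
    rw [← pp_add_rr s, rr_eq, qq_eq, EE]
    push_cast
    ring
  rw [e, norm_mul, Complex.norm_real, Real.norm_of_nonneg (by positivity), le_inv_mul_iff₀ hc,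
    mul_comm]
  exact mul_le_mul_of_nonneg_left (le_add_of_nonneg_left (by positivity)) (norm_nonneg _)

variable {A : Type*} [CStarAlgebra A] {H : Type u}
  [NormedAddCommGroup H] [InnerProductSpace ℂ H] [CompleteSpace H] {S : Std A H}

theorem ap_of_spec {D : MD S} {e v : A} (he : D.IP e) (h1 : star v * v = 1) (h2 : v * star v = e)
    {c : ℝ} (hc : 0 < c)
    (h : ∀ (K : Type u) [NormedAddCommGroup K] [InnerProductSpace ℂ K] [CompleteSpace K]
      (Λ : A → K), DenseRange Λ → (∀ x y, ⟪Λ x, Λ y⟫_ℂ = ((‖S.π e S.ξ‖ ^ 2)⁻¹ : ℝ) *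
        ⟪S.ξ, S.π (v * (star x * y) * star v) S.ξ⟫_ℂ) → ((c ^ 2 : ℝ) : ℂ) ∈ specOf (graphΔ Λ))
    {κ : ℝ} (hκ : 0 < κ) : ∃ y, e * y * e = y ∧ D.Ap c κ y := by
  by_contra! hn
  have ee := he.1.isIdempotentElem.eq
  have es := he.1.isSelfAdjoint.star_eq
  have r0 := he.pos
  set r := ‖S.π e S.ξ‖
  let K : Submodule ℂ H := LinearMap.eqLocus (S.π e * D.ρ e).toLinearMap LinearMap.id
  have hK : ∀ {α}, α ∈ K ↔ S.π e (D.ρ e α) = α := Iff.rfl
  have : CompleteSpace K := (isClosed_eq (by fun_prop) (by fun_prop) :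
    IsClosed {α | S.π e (D.ρ e α) = α}).completeSpace_coe
  have q1 : ∀ α, ‖S.π e (D.ρ e α)‖ ≤ ‖α‖ := fun α =>
    (S.norm_apply_le _ _).trans ((mul_le_of_le_one_left (norm_nonneg _) he.1.norm_le).trans
      ((D.norm_ρ_le _ _).trans (mul_le_of_le_one_left (norm_nonneg _) he.1.norm_le)))
  have k1 : ∀ {F}, BC F → ∀ α ∈ K, D.fb F α ∈ K := fun hF α hα => hK.2 (by
    rw [← he.2.2.fb_ρ hF, ← he.2.2.fb_π hF, hK.1 hα])
  have k2 : ∀ α ∈ K, D.J α ∈ K := fun α hα => hK.2 (by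
    nth_rw 2 [← hK.1 hα]
    rw [D.J_π, D.J_ρ, es, D.π_ρ])
  have ev : e * v = v := by rw [← h2, mul_assoc, h1, mul_one]
  have ve : star v * e = star v := by rw [← es, ← star_mul, ev]
  let Λ : A → K := fun x => ⟨(r⁻¹ : ℂ) • S.π (v * x * star v) S.ξ, K.smul_mem _ (hK.2 (by
    rw [← he.2.2.π_cor, ← mul_assoc, ← mul_assoc, ev, mul_assoc, ve]))⟩
  have l1 : ∀ a, (Λ (r • (star v * a * v)) : H) = S.π (e * a * e) S.ξ := fun a => by
    have : v * r • (star v * a * v) * star v = (r : ℂ) • (e * a * e) := by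
      simp only [← h2, mul_smul_comm, smul_mul_assoc, mul_assoc, Complex.coe_smul]
    simp only [Λ, this, map_smul, smul_apply, smul_smul]
    rw [inv_mul_cancel₀ (Complex.ofReal_ne_zero.2 r0.ne'), one_smul]
  have G : ∀ α ∈ K, ∀ ε : ℝ, 0 < ε → ∃ a, ‖S.π (e * a * e) S.ξ - D.fb pp α‖ ≤ ε ∧
      ‖D.ρ (e * a * e) S.ξ - D.fb qq α‖ ≤ ε := fun α hα ε hε => by
    obtain ⟨a, a1, a2⟩ := D.gr2 α ε hε
    refine ⟨a, ?_, ?_⟩
    · rw [he.2.2.π_cor, ← hK.1 (k1 bc_pp α hα), ← map_sub, ← map_sub]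
      exact (q1 _).trans a1
    · rw [he.2.2.ρ_cor, ← hK.1 (k1 bc_qq α hα), ← map_sub, ← map_sub, D.ρ_ξ]
      exact (q1 _).trans a2
  have sa : ∀ {F}, BC F → (∀ s, conj (F s) = F s) → ∀ α β, ⟪D.fb F α, β⟫_ℂ = ⟪α, D.fb F β⟫_ℂ :=
    fun hF h α β => by rw [D.inner_left hF, funext h]
  refine not_mem_specOf (Λ := Λ) (R := (D.fb pp).restrict (k1 bc_pp))
    (T := (D.fb qq).restrict (k1 bc_qq)) (J := D.J.restrict k2)
    (fun α β => D.inner_J_right _ _) (fun α β => sa bc_pp (fun _ => Complex.conj_ofReal _) _ _)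
    (fun α β => sa bc_qq (fun _ => Complex.conj_ofReal _) _ _) (fun x => Subtype.ext ?_)
    (fun α => Metric.mem_closure_iff.2 fun ε hε => ?_) (M := 1 + (1 + c ^ 2) * (κ⁻¹ * c⁻¹))
    (fun α => ?_) (h K Λ (Metric.denseRange_iff.2 fun α ε hε => ?_) fun x y => ?_)
  · have a1 := D.gr1 (v * x * star v)
    have a2 : D.fb rr = 1 - D.fb pp := by
      rw [eq_sub_iff_add_eq', ← D.add bc_pp bc_rr, funext pp_add_rr, D.one]
    rw [star_mul, star_mul, star_star, ← mul_assoc, a2] at a1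
    change D.fb qq (D.J ((r⁻¹ : ℂ) • _)) = (r⁻¹ : ℂ) • _ - D.fb pp ((r⁻¹ : ℂ) • _)
    rw [map_smulₛₗ, map_smul, map_smul, a1, ← smul_sub, map_inv₀, Complex.conj_ofReal]
    rfl
  · obtain ⟨a, a1, a2⟩ := G α α.2 _ (half_pos hε)
    refine ⟨_, ⟨r • (star v * a * v), rfl⟩, max_lt ?_ ?_⟩
    · rw [dist_comm, Subtype.dist_eq, dist_eq_norm, l1]
      exact a1.trans_lt (half_lt_self hε)
    · have a3 : star (r • (star v * a * v)) = r • (star v * star a * v) := by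
        simp [mul_assoc]
      rw [D.ρ_ξ, star_mul, star_mul, es, ← mul_assoc, ← D.norm_J, map_sub, D.JJ] at a2
      rw [dist_comm, Subtype.dist_eq, dist_eq_norm]
      dsimp only
      rw [a3, l1]
      exact a2.trans_lt (half_lt_self hε)
  · have a1 : κ * ‖D.fb pp α‖ ≤ ‖D.fb qq α - (c : ℂ) • D.fb pp α‖ := by
      refine le_of_forall_pos_le_add fun ε hε => ?_
      obtain ⟨a, a1, a2⟩ := G α α.2 (ε / (κ + 1 + c)) (by positivity)
      have a3 : κ * ‖S.π (e * a * e) S.ξ‖ ≤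
          ‖D.ρ (e * a * e) S.ξ - (c : ℂ) • S.π (e * a * e) S.ξ‖ := by
        by_contra! a4
        refine hn (e * a * e) (by rw [← mul_assoc, ← mul_assoc, ee, mul_assoc, ee]) ⟨fun h0 => ?_,
          a4.le⟩
        rw [h0, norm_zero, mul_zero] at a4
        exact (norm_nonneg _).not_gt a4
      generalize S.π (e * a * e) S.ξ = x, D.ρ (e * a * e) S.ξ = y, D.fb pp α = x',
        D.fb qq α = y' at *
      have a5 : y - (c : ℂ) • x = y' - (c : ℂ) • x' + (y - y') - (c : ℂ) • (x - x') := by module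
      have a6 := norm_sub_le (y' - (c : ℂ) • x' + (y - y')) ((c : ℂ) • (x - x'))
      have a7 := norm_add_le (y' - (c : ℂ) • x') (y - y')
      have a8 := norm_le_norm_add_norm_sub x x'
      rw [← a5, norm_smul, Complex.norm_real, Real.norm_of_nonneg hc.le] at a6
      have a9 : (κ + 1 + c) * (ε / (κ + 1 + c)) = ε := by field_simp
      nlinarith [mul_le_mul_of_nonneg_left a1 hc.le, mul_le_mul_of_nonneg_left a1 hκ.le,
        mul_le_mul_of_nonneg_left a8 hκ.le]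
    have a2 := D.mono (bc_qq.sub ((BC.const c).mul bc_pp))
      (((BC.const 1).sub bc_pp).sub ((BC.const (c ^ 2 : ℝ)).mul bc_pp)) (by positivity)
      (norm_qq_sub hc) α
    rw [D.sub bc_qq ((BC.const c).mul bc_pp), D.sub ((BC.const 1).sub bc_pp)
      ((BC.const _).mul bc_pp), D.sub (.const 1) bc_pp, D.smul bc_pp, D.smul bc_pp, D.one] at a2
    change ‖(α : H)‖ ≤ _ * ‖(α : H) - D.fb pp α - _ • D.fb pp α‖
    simp only [sub_apply, smul_apply, one_apply_eq_self] at a2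
    set γ := (α : H) - D.fb pp α - ((c ^ 2 : ℝ) : ℂ) • D.fb pp α with hγ
    have a3 : (α : H) = γ + ((1 + c ^ 2 : ℝ) : ℂ) • D.fb pp α := by
      rw [hγ]; push_cast; module
    have a4 := norm_add_le γ (((1 + c ^ 2 : ℝ) : ℂ) • D.fb pp α)
    rw [← a3, norm_smul, Complex.norm_real, Real.norm_of_nonneg (by positivity)] at a4
    have a5 := mul_le_mul_of_nonneg_left ((le_inv_mul_iff₀ hκ).2 (a1.trans a2))
      (show 0 ≤ 1 + c ^ 2 by positivity)
    linarith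
  · obtain ⟨a, ha⟩ := Metric.denseRange_iff.1 S.cyc α ε hε
    refine ⟨r • (star v * a * v), ?_⟩
    rw [Subtype.dist_eq, dist_eq_norm, l1, he.2.2.π_cor, ← hK.1 α.2, ← map_sub, ← map_sub]
    exact (q1 _).trans_lt (by rwa [← dist_eq_norm])
  · change ⟪(r⁻¹ : ℂ) • S.π _ S.ξ, (r⁻¹ : ℂ) • S.π _ S.ξ⟫_ℂ = _
    have : star (v * x * star v) * (v * y * star v) = v * (star x * y) * star v := by
      simp only [star_mul, star_star, mul_assoc]
      rw [← mul_assoc (star v), h1, one_mul]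
    rw [inner_smul_left, inner_smul_right, ← S.inner_star_right, ← S.mul_apply, this, map_inv₀,
      Complex.conj_ofReal, ← mul_assoc]
    push_cast
    ring

end Vale.Agent.P132
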