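import Vale.Agent.P132.Avg
import Vale.Agent.P132.Key
import Mathlib.Analysis.SpecialFunctions.Trigonometric.Bounds

/-! Vectors of V are invariant. -/

namespace Vale.Agent.P132

open scoped InnerProductSpace ComplexConjugate Topology
open Vale.Agent.P082 Filter Finset

variable {A : Type*} [CStarAlgebra A] [PartialOrder A] [StarOrderedRing A] {H : Type*}
  [NormedAddCommGroup H] [InnerProductSpace ℂ H] [CompleteSpace H] {S : Std A H}

namespace St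

omit [InnerProductSpace ℂ H] [CompleteSpace H] in
lemma add_sq_le (x y : H) : ‖x + y‖ ^ 2 ≤ 2 * ‖x‖ ^ 2 + 2 * ‖y‖ ^ 2 := by
  nlinarith [pow_le_pow_left₀ (norm_nonneg _) (norm_add_le x y) 2, sq_nonneg (‖x‖ - ‖y‖)]

variable {D : MD S} {ι : Type} [Fintype ι] {w : ι → A} {c e κ : ℝ}

omit [StarOrderedRing A] in
lemma col_one (h : D.Good 1 1 c e w) : ∑ i, star (w i) * w i ≤ (1 : ℝ) • (1 : A) := by
  simpa [S.norm_ξ] using h.col

lemma row_one (h : D.Good 1 1 c e w) (h0 : 0 < c) (h1 : c ≤ 1) :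
    ∑ i, w i * star (w i) ≤ (1 : ℝ) • (1 : A) := by
  refine h.row.trans (smul_le_smul_of_nonneg_right ?_ zero_le_one)
  simpa [S.norm_ξ, abs_of_pos h0] using h1

lemma norm_Φ (h : D.Good 1 1 c e w) (h0 : 0 < c) (h1 : c ≤ 1) (α : H) : ‖D.Φ w α‖ ≤ ‖α‖ := by
  have := norm_Φ_le D zero_le_one (col_one h) (row_one h h0 h1) α
  exact (sq_le_sq₀ (norm_nonneg _) (norm_nonneg _)).1 (by simpa using this)

lemma win_a (h : D.Good 1 1 c e w) {y : A} (hy : ‖y‖ ^ 2 * e ≤ κ ^ 2) :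
    ∑ i, ‖S.π (y * star (w i)) S.ξ - D.ρ (y * star (w i)) S.ξ‖ ^ 2 ≤
      2 * ‖(c : ℂ) • S.π y S.ξ - D.ρ y S.ξ‖ ^ 2 + 2 * κ ^ 2 := by
  have e1 : ∀ i, S.π (y * star (w i)) S.ξ - D.ρ (y * star (w i)) S.ξ =
      D.ρ (star (w i)) ((c : ℂ) • S.π y S.ξ - D.ρ y S.ξ) +
        S.π y (S.π (star (w i)) S.ξ - (c : ℂ) • D.ρ (star (w i)) S.ξ) := fun i => by
    simp only [map_sub, map_smul, S.mul_apply, D.ρ_mul_apply, D.π_ρ]
    abel
  have e2 := D.col_le (w := fun i => star (w i)) (K := 1) (by simpa using col_one h)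
    ((c : ℂ) • S.π y S.ξ - D.ρ y S.ξ)
  have e3 : ∑ i, ‖S.π y (S.π (star (w i)) S.ξ - (c : ℂ) • D.ρ (star (w i)) S.ξ)‖ ^ 2 ≤
      ‖y‖ ^ 2 * D.cost c w := by
    rw [MD.cost, mul_sum]
    refine sum_le_sum fun i _ => ?_
    rw [← mul_pow, ← D.norm_def_star]
    exact pow_le_pow_left₀ (norm_nonneg _) (S.norm_apply_le _ _) 2
  have e4 := mul_le_mul_of_nonneg_left h.cst (sq_nonneg ‖y‖)
  simp only [e1]
  refine (sum_le_sum fun i _ => add_sq_le _ _).trans ?_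
  rw [sum_add_distrib, ← mul_sum, ← mul_sum]
  linarith

lemma win_b (h : D.Good 1 1 c e w) : ∑ i, ‖S.π (w i) S.ξ‖ ^ 2 ≤ 1 := by
  simpa [S.norm_ξ] using S.col_le (col_one h) S.ξ

lemma win_c (h : D.Good 1 1 c e w) {y : A} (hy : ‖y‖ ^ 2 * e ≤ κ ^ 2) (hκ : 0 ≤ κ) :
    ‖∑ i, (S.π (y * star (w i)) (S.π (w i) S.ξ) - D.ρ (y * star (w i)) (S.π (w i) S.ξ)) -
      (S.π y S.ξ - D.Φ w (D.ρ y S.ξ))‖ ≤ κ := by
  have e1 : ∑ i, (S.π (y * star (w i)) (S.π (w i) S.ξ) - D.ρ (y * star (w i)) (S.π (w i) S.ξ)) -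
      (S.π y S.ξ - D.Φ w (D.ρ y S.ξ)) = -S.π y (S.π (1 - ∑ i, star (w i) * w i) S.ξ) := by
    simp only [MD.Φ, sum_sub_distrib, map_sub, map_sum, map_one, map_mul, _root_.sum_apply,
      sub_apply, mul_apply_eq_comp, one_apply_eq_self, D.ρ_mul_apply, D.π_ρ]
    abel
  have h0 : 0 ≤ ∑ i, star (w i) * w i := sum_nonneg fun i _ => star_mul_self_nonneg _
  have e2 := S.norm_sq_le (K := 1) (b := 1 - ∑ i, star (w i) * w i)
    (sub_nonneg.2 (by simpa using col_one h)) (by simpa using h0) S.ξ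
  have e3 : (⟪S.ξ, S.ξ⟫_ℂ).re = 1 := by
    rw [inner_self_eq_norm_sq_to_K, S.norm_ξ]; simp
  rw [map_sub S.π, sub_apply, inner_sub_right, Complex.sub_re, ← S.col_eq, map_one,
    one_apply_eq_self, e3] at e2
  rw [e1, norm_neg]
  refine (S.norm_apply_le _ _).trans (abs_le_of_sq_le_sq' ?_ hκ).2
  rw [mul_pow, map_sub S.π, sub_apply, map_one, one_apply_eq_self]
  exact (mul_le_mul_of_nonneg_left (e2.trans (by linarith [h.low])) (sq_nonneg _)).trans hy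

lemma per (h : D.Good 1 1 c e w) (c0 : 0 < c) (c1 : c ≤ 1) {y : A} (hy : ‖y‖ ^ 2 * e ≤ κ ^ 2)
    (κ0 : 0 ≤ κ) {P β : H} {X : H →L[ℂ] H} {r : ℝ} (y1 : ‖S.π y S.ξ - P‖ ≤ κ)
    (y2 : ‖D.ρ y S.ξ - X β‖ ≤ κ) (hX : ‖D.Φ w * X - X * D.Φ w‖ ≤ κ) (hβ : ‖β‖ ≤ r) :
    ‖∑ i, (S.π (y * star (w i)) (S.π (w i) S.ξ) - D.ρ (y * star (w i)) (S.π (w i) S.ξ)) -
      (P - X (D.Φ w β))‖ ≤ κ * (3 + r) ∧
    ∑ i, ‖S.π (y * star (w i)) S.ξ - D.ρ (y * star (w i)) S.ξ‖ ^ 2 ≤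
      4 * ‖(c : ℂ) • P - X β‖ ^ 2 + 18 * κ ^ 2 := by
  constructor
  · have a1 := win_c h hy κ0
    have a2 := (norm_Φ h c0 c1 _).trans y2
    have a3 := (ContinuousLinearMap.le_opNorm _ β).trans (mul_le_mul hX hβ (norm_nonneg _) κ0)
    rw [sub_apply, mul_apply_eq_comp, mul_apply_eq_comp] at a3
    rw [map_sub] at a2
    have a5 := norm_add₃_le (a := _) (b := _) (c := _) |>.trans (add_le_add_three a1 y1
      ((norm_neg _).trans_le ((norm_add_le _ _).trans (add_le_add a2 a3))))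
    refine (le_of_eq (congrArg _ ?_)).trans (a5.trans_eq (by ring))
    abel
  · have b2 : ‖(c : ℂ) • (S.π y S.ξ - P)‖ ≤ κ := by
      rw [norm_smul, Complex.norm_real, Real.norm_of_nonneg c0.le]
      exact (mul_le_of_le_one_left (norm_nonneg _) c1).trans y1
    have b3 := (norm_sub_le _ _).trans (add_le_add b2 y2)
    have b4 := add_sq_le ((c : ℂ) • P - X β) _ |>.trans (add_le_add_right
      (mul_le_mul_of_nonneg_left (pow_le_pow_left₀ (norm_nonneg _) b3 2) zero_le_two) _)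
    have b5 := win_a h hy
    rw [smul_sub, show ∀ a b x y : H, a - b + (x - a - (y - b)) = x - y from
      fun _ _ _ _ => by abel] at b4
    nlinarith

omit [CompleteSpace H] in
lemma norm_le_of_inner {x : H} {r : ℝ} (hr : 0 ≤ r) (h : ∀ γ, ‖⟪γ, x⟫_ℂ‖ ≤ ‖γ‖ * r) : ‖x‖ ≤ r := by
  have := h x
  rw [inner_self_eq_norm_sq_to_K, norm_pow, RCLike.norm_ofReal, abs_norm] at this
  by_contra! h0
  nlinarith

lemma row_win (D : FC H) {κ : Type} [Fintype κ] {G : κ → ℝ → ℂ} (bG : ∀ k, BC (G k))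
    (sG : ∀ s, ∑ k, ‖G k s‖ ^ 2 = 1) {x β : κ → H} (hx : ∀ k, ‖x k‖ ≤ ‖β k‖) {r : ℝ} (hr : 0 ≤ r)
    (hβ : ∑ k, ‖β k‖ ^ 2 ≤ r ^ 2) : ‖∑ k, D.fb (fun s => conj (G k s)) (x k)‖ ≤ r := by
  refine norm_le_of_inner hr fun γ => ?_
  rw [inner_sum]
  refine (norm_sum_le _ _).trans ((sum_le_sum (g := fun k => ‖D.fb (G k) γ‖ * ‖β k‖)
    fun k _ => ?_).trans ((Real.sum_mul_le_sqrt_mul_sqrt _ _ _).trans (mul_le_mul ?_ ?_
      (Real.sqrt_nonneg _) (norm_nonneg _))))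
  · rw [← D.inner_left (bG k)]
    exact (norm_inner_le_norm _ _).trans (mul_le_mul_of_nonneg_left (hx k) (norm_nonneg _))
  · rw [Real.sqrt_le_left (norm_nonneg _)]
    simpa [D.one] using D.sum_sq_le' univ (fun k _ => bG k) (BC.const 1) (C := 1)
      (fun s => by simp [sG]) γ
  · rwa [Real.sqrt_le_left hr]

omit [CompleteSpace H] in
lemma fin_le {x Z Z₂ : H} {θ ε : ℝ} (h1 : ‖Z - (x - Z₂)‖ ≤ ε) (h2 : ‖Z₂‖ ≤ θ * ‖x‖)
    (h3 : ‖⟪x, Z⟫_ℂ‖ ≤ ε) : (1 - θ) * ‖x‖ ^ 2 ≤ ε + ε * ‖x‖ := by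
  have z8 : ⟪x, x⟫_ℂ = ⟪x, Z⟫_ℂ + ⟪x, Z₂⟫_ℂ - ⟪x, Z - (x - Z₂)⟫_ℂ := by
    simp only [inner_sub_right]; ring
  have z9 := (congrArg norm z8).trans_le ((norm_sub_le _ _).trans (add_le_add
    ((norm_add_le _ _).trans (add_le_add h3 ((norm_inner_le_norm _ _).trans
      (mul_le_mul_of_nonneg_left h2 (norm_nonneg _))))) ((norm_inner_le_norm _ _).trans
      (mul_le_mul_of_nonneg_left h1 (norm_nonneg _)))))
  rw [inner_self_eq_norm_sq_to_K, norm_pow, RCLike.norm_ofReal, abs_norm] at z9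
  nlinarith

lemma arith {C r N δ : ℝ} (N1 : 1 ≤ N) (hδ : 0 < δ) (h : (4 * C ^ 2 * r ^ 2 + 18) / δ ≤ N) :
    (4 * ((C / N) ^ 2 * r ^ 2) + N * (18 * (N ^ 2)⁻¹ ^ 2)) * N ≤ δ := by
  have N0 : 0 < N := by linarith
  have a3 : (4 * ((C / N) ^ 2 * r ^ 2) + N * (18 * (N ^ 2)⁻¹ ^ 2)) * N =
    (4 * C ^ 2 * r ^ 2 + 18 * N⁻¹) / N := by field_simp
  rw [a3, div_le_iff₀ N0, ← div_le_iff₀' hδ]
  refine le_trans ?_ h
  gcongr
  linarith [inv_le_one_of_one_le₀ N1]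

end St

open St in
theorem step_neg {D : MD S} (h : D.H3) {ζ : H} (hζ : ζ ∈ D.V) {F : ℝ → ℂ} (hF : Continuous F)
    {L d : ℝ} (hd : 0 < d) (hs : ∀ s, F s ≠ 0 → -L ≤ s ∧ s ≤ -d) : D.fb F ζ = 0 := by
  rcases lt_or_ge L d with hL | hL
  · have : F = fun _ => 0 := funext fun s => by_contra fun h0 => by linarith [(hs s h0).1, (hs s h0).2]
    simp [this, D.zero]
  have hsup : ∀ s, L < |s| → F s = 0 := fun s h1 => by_contra fun h0 => by
    rw [abs_of_nonpos (by linarith [(hs s h0).2])] at h1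
    linarith [(hs s h0).1]
  have bF := BC.of_supp hF hsup
  have bE := BC.mul_supp hF hsup continuous_EE
  set ζ₀ := D.fb F ζ with hζ₀
  set θ := Real.exp (-d / 2) with hθ
  have θ0 : 0 < θ := Real.exp_pos _
  have θ1 : θ < 1 := Real.exp_lt_one_iff.2 (by linarith)
  have hP : 0 < L + d := by linarith
  have hτ : 0 < 2 * Real.pi / (L + d) := by positivity
  set τ := 2 * Real.pi / (L + d) with hτ'
  have hτ2 : 2 * Real.pi / τ = L + d := by rw [hτ']; field_simp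
  obtain ⟨C, hC⟩ := win_def hτ hd
  have hE : ∀ s, ‖F s * EE s‖ ≤ θ * ‖F s‖ := fun s => by
    by_cases h0 : F s = 0
    · simp [h0]
    · rw [norm_mul, mul_comm, EE, Complex.norm_real, Real.norm_of_nonneg (Real.exp_pos _).le]
      exact mul_le_mul_of_nonneg_right (Real.exp_le_exp.2 (by linarith [(hs s h0).2]))
        (norm_nonneg _)
  suffices key' : ∀ ε : ℝ, 0 < ε → (1 - θ) * ‖ζ₀‖ ^ 2 ≤ ε + ε * ‖ζ₀‖ by
    by_contra h0
    have h1 : 0 < ‖ζ₀‖ := norm_pos_iff.2 h0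
    have h2 : 0 < 1 - θ := by linarith
    have := key' ((1 - θ) * ‖ζ₀‖ ^ 2 / (2 * (1 + ‖ζ₀‖))) (by positivity)
    rw [← mul_one_add, le_div_iff₀' (by positivity) |>.symm.eq] at this
    field_simp at this
    linarith
  intro ε hε
  obtain ⟨δ, hδ, hk⟩ := key (MD.V_fb hζ bF) (2 * ‖ζ₀‖ + ε) hε
  obtain ⟨N, hN⟩ := exists_nat_ge (1 + (4 * C ^ 2 * ‖ζ₀‖ ^ 2 + 18) / δ + (3 + ‖ζ₀‖) / ε)
  have p1 : 0 ≤ (4 * C ^ 2 * ‖ζ₀‖ ^ 2 + 18) / δ := by positivity
  have p2 : 0 ≤ (3 + ‖ζ₀‖) / ε := by positivity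
  have N1 : (1 : ℝ) ≤ N := by linarith
  have N0 : (0 : ℝ) < N := by linarith
  have N0' : 0 < N := by exact_mod_cast N0
  set κ : ℝ := ((N : ℝ) ^ 2)⁻¹ with hκ
  have κ0 : 0 < κ := by positivity
  have κ1 : κ ≤ 1 := inv_le_one_of_one_le₀ (one_le_pow₀ N1)
  let μ : ℕ → ℝ := fun k => -(2 * Real.pi / τ * (k / N))
  have μ0 : ∀ k, μ k ≤ 0 := fun k => neg_nonpos.2 (by positivity)
  let G : ℕ → ℝ → ℂ := fun k => win τ N (μ k)
  have bG : ∀ k, BC (G k) := fun k => bc_win _ _ _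
  have sG : ∀ s, ∑ k : Fin N, ‖G k s‖ ^ 2 = 1 := fun s =>
    (Fin.sum_univ_eq_sum_range (fun k => ‖G k s‖ ^ 2) N).trans (sum_win hτ N0' s)
  let c : ℕ → ℝ := fun k => Real.exp (μ k / 2)
  have c0 : ∀ k, 0 < c k := fun k => Real.exp_pos _
  have c1 : ∀ k, c k ≤ 1 := fun k => Real.exp_le_one_iff.2 (by linarith [μ0 k])
  have bK : ∀ k, BC fun s => conj (G k s) * (G k s * F s) := fun k => (bG k).cj.mul ((bG k).mul bF)
  have bK' : ∀ k, BC fun s => conj (G k s) * (G k s * F s) * EE s := fun k =>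
    BC.mul_supp (bK k).1 (L := L) (fun s h1 => by simp [hsup s h1]) continuous_EE
  choose y y1 y2 using fun k => D.gr2' (bK k).1 (L := L) (fun s h1 => by simp [hsup s h1]) ζ κ0
  choose ι hι w hw hw' using fun k => exists_avg h (c0 k)
    (show 0 < κ ^ 2 / (‖y k‖ + 1) ^ 2 by positivity) τ N (μ k)
  have q1 : ∀ k, ‖y k‖ ^ 2 * (κ ^ 2 / (‖y k‖ + 1) ^ 2) ≤ κ ^ 2 := fun k => by
    rw [mul_div_left_comm]
    refine mul_le_of_le_one_right (sq_nonneg _) (div_le_one_of_le₀ ?_ (sq_nonneg _))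
    gcongr; linarith
  have q2 : ∀ k, κ ^ 2 / (‖y k‖ + 1) ^ 2 ≤ κ := fun k =>
    (div_le_self (sq_nonneg _) (one_le_pow₀ (by linarith [norm_nonneg (y k)]))).trans
      (by nlinarith)
  let β : ℕ → H := fun k => D.fb (fun s => G k s * (F s * EE s)) ζ
  have hβ : ∑ k : Fin N, ‖β k‖ ^ 2 ≤ θ ^ 2 * ‖ζ₀‖ ^ 2 :=
    D.sum_sq_le' univ (F := fun (k : Fin N) s => G k s * (F s * EE s))
      (fun k _ => (bG k).mul bE) bF (fun s => by
      simp only [norm_mul (G _ s), mul_pow, ← sum_mul, sG, one_mul]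
      exact (pow_le_pow_left₀ (norm_nonneg _) (hE s) 2).trans_eq (mul_pow _ _ _)) ζ
  have hβ' : ∀ k : Fin N, ‖β k‖ ≤ ‖ζ₀‖ := fun k => (abs_le_of_sq_le_sq' (((single_le_sum
    (f := fun k : Fin N => ‖β k‖ ^ 2) (fun _ _ => sq_nonneg _) (mem_univ k)).trans hβ).trans
      (mul_le_of_le_one_left (sq_nonneg _) (pow_le_one₀ θ0.le θ1.le))) (norm_nonneg _)).2
  set Z₂ := ∑ k : Fin N, D.fb (fun s => conj (G k s)) (D.Φ (w k) (β k)) with hZ₂
  have z2 : ‖Z₂‖ ≤ θ * ‖ζ₀‖ := row_win D.toFC (G := fun k : Fin N => G k) (fun k => bG k) sG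
    (fun k => norm_Φ (hw k) (c0 k) (c1 k) _) (by positivity) (by rwa [mul_pow])
  have a4 : ∀ k, D.fb (fun s => conj (G k s) * (G k s * F s) * EE s) ζ =
      D.fb (fun s => conj (G k s)) (β k) := fun k => by
    simp only [β, D.mul_apply (bG k).cj ((bG k).mul bE), mul_assoc]
  have pk := fun k : Fin N => per (hw k) (c0 k) (c1 k) (q1 k) κ0.le (y1 k) (a4 k ▸ y2 k)
    ((hw' k).trans (q2 k)) (hβ' k)
  have z3 : ζ₀ = ∑ k : Fin N, D.fb (fun s => conj (G k s) * (G k s * F s)) ζ := by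
    rw [← _root_.sum_apply, ← D.sum _ fun (k : Fin N) _ => bK k, hζ₀]
    congr 2
    funext s
    simp only [← mul_assoc, ← sum_mul, Complex.conj_mul']
    rw [show ∑ k : Fin N, ((‖G k s‖ : ℝ) : ℂ) ^ 2 = 1 by exact_mod_cast sG s, one_mul]
  have hk' := hk ((k : Fin N) × ι k) (fun p => y p.1 * star (w p.1 p.2))
    (fun p => S.π (w p.1 p.2) S.ξ)
  simp only [Fintype.sum_sigma] at hk'
  set Z := ∑ k : Fin N, ∑ i, (S.π (y k * star (w k i)) (S.π (w k i) S.ξ) -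
    D.ρ (y k * star (w k i)) (S.π (w k i) S.ξ)) with hZ
  have z4 : ‖Z - (ζ₀ - Z₂)‖ ≤ ε := by
    rw [hZ, z3, hZ₂, ← sum_sub_distrib, ← sum_sub_distrib]
    refine (norm_sum_le _ _).trans ((sum_le_sum fun k _ => (pk k).1).trans ?_)
    · rw [sum_const, card_univ, Fintype.card_fin, nsmul_eq_mul, hκ, ← mul_assoc, sq, mul_inv,
        mul_inv_cancel_left₀ N0.ne', inv_mul_le_iff₀ N0, ← div_le_iff₀ hε]
      linarith
  have z5 : ‖Z‖ ≤ 2 * ‖ζ₀‖ + ε := by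
    have := norm_le_norm_add_norm_sub' Z (ζ₀ - Z₂)
    nlinarith [norm_sub_le ζ₀ Z₂, norm_nonneg ζ₀]
  have z6 : ∑ k : Fin N, ‖D.fb (fun s => (c k - EE s) * (conj (G k s) * (G k s * F s))) ζ‖ ^ 2 ≤
      (C / N) ^ 2 * ‖ζ₀‖ ^ 2 := by
    refine D.sum_sq_le' _ (fun k _ => ?_) bF (fun s => ?_) ζ
    · simpa only [sub_mul, mul_comm (EE _)] using ((BC.const (c k)).mul (bK k)).sub (bK' k)
    · by_cases h0 : F s = 0
      · simp [h0]
      rw [← one_mul (‖F s‖ ^ 2), ← sG s, sum_mul, mul_sum]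
      refine sum_le_sum fun k _ => ?_
      have hk1 : (k : ℝ) / N ≤ 1 := div_le_one_of_le₀ (by exact_mod_cast k.2.le) N0.le
      have hk0 : 0 ≤ (k : ℝ) / N := by positivity
      have a1 := hC N (μ k) s N0' (μ0 k) (by linarith [(hs s h0).2]) (by
        simp only [μ, hτ2]
        rw [abs_le]
        constructor <;> nlinarith [(hs s h0).1, (hs s h0).2])
      have a2 := pow_le_pow_left₀ (norm_nonneg _) a1 2
      simp only [norm_mul, Complex.norm_conj, mul_pow] at a2 ⊢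
      rw [← mul_assoc]
      exact mul_le_mul_of_nonneg_right a2 (by positivity)
  have z7 := hk' (by
    have a1 : ∑ k : Fin N, ∑ i, ‖S.π (w k i) S.ξ‖ ^ 2 ≤ N :=
      (sum_le_sum fun (k : Fin N) _ => win_b (hw k)).trans_eq (by simp)
    have a2 : ∑ k : Fin N, ∑ i, ‖S.π (y k * star (w k i)) S.ξ - D.ρ (y k * star (w k i)) S.ξ‖ ^ 2 ≤
        4 * ((C / N) ^ 2 * ‖ζ₀‖ ^ 2) + N * (18 * κ ^ 2) := by
      refine (sum_le_sum (g := fun k : Fin N => 4 * ‖D.fb (fun s => (c k - EE s) *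
        (conj (G k s) * (G k s * F s))) ζ‖ ^ 2 + 18 * κ ^ 2) fun k _ => ?_).trans ?_
      · refine (pk k).2.trans_eq ?_
        rw [← a4, ← smul_apply, ← D.smul (bK k), ← sub_apply,
          ← D.sub ((BC.const _).mul (bK k)) (bK' k)]
        simp only [sub_mul, mul_comm (EE _)]
      · rw [sum_add_distrib, ← mul_sum, sum_const, card_univ, Fintype.card_fin, nsmul_eq_mul]
        linarith
    exact (mul_le_mul a2 a1 (by positivity) (by positivity)).trans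
      (arith N1 hδ (by linarith))) z5
  exact fin_le z4 z2 z7

theorem step_pos {D : MD S} (h : D.H3) {ζ : H} (hζ : ζ ∈ D.V) {F : ℝ → ℂ} (hF : BC F)
    {L d : ℝ} (hd : 0 < d) (hs : ∀ s, F s ≠ 0 → d ≤ s ∧ s ≤ L) : D.fb F ζ = 0 := by
  rw [← norm_eq_zero, ← D.norm_J, D.J_fb hF, norm_eq_zero]
  refine step_neg h (MD.V_J hζ) hF.refl.1 (L := L) hd fun s h0 => ?_
  have := hs (-s) (by simpa using h0)
  constructor <;> linarith [this.1, this.2]

theorem step1 {D : MD S} (h : D.H3) {ζ : H} (hζ : ζ ∈ D.V) : D.Fix ζ := fun t => by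
  have bE : BC fun s => ex t s - 1 := (bc_ex t).sub (BC.const 1)
  have e0 : D.U t ζ - ζ = D.fb (fun s => ex t s - 1) ζ := by
    rw [D.sub (bc_ex t) (BC.const 1), D.one]; rfl
  rw [← sub_eq_zero, e0, ← norm_le_zero_iff]
  refine le_of_forall_pos_le_add fun ε hε => ?_
  obtain ⟨L, hL⟩ := D.chi_near ζ (show 0 < ε / 4 by positivity)
  replace hL := hL L le_rfl
  set d := ε / (4 * (|t| * ‖ζ‖ + 1)) with hd
  have d0 : 0 < d := by positivity
  have cb : Continuous fun s => chi 1 (s / d) := (continuous_chi 1).comp (continuous_id.div_const d)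
  have bb : BC fun s => chi 1 (s / d) := ⟨cb, 1, fun s => norm_chi _ _⟩
  let G : ℝ → ℂ := fun s => (ex t s - 1) * chi L s * (1 - chi 1 (s / d))
  have bG : BC G := (bE.mul (bc_chi L)).mul ((BC.const 1).sub bb)
  have G0 : ∀ s, G s ≠ 0 → d ≤ |s| ∧ |s| ≤ L + 1 := fun s h0 => ⟨by
    by_contra! h1
    have h2 : |s / d| ≤ 1 := by
      rw [abs_div, abs_of_pos d0]; exact div_le_one_of_le₀ h1.le d0.le
    exact h0 (by simp [G, chi_one h2]), by
    by_contra! h1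
    exact h0 (by simp [G, chi_supp h1])⟩
  have bc : ∀ f : ℝ → ℝ, Continuous f → BC fun s => G (f s) := fun f hf =>
    ⟨bG.1.comp hf, bG.2.imp fun C hC s => hC _⟩
  have b1 := bc _ (continuous_id.min (continuous_const (y := 0)))
  have b2 := bc _ (continuous_id.max (continuous_const (y := 0)))
  have a1 := step_neg h hζ b1.1 (L := L + 1) d0 fun s h0 => by
    have := G0 _ h0
    rcases le_total s 0 with h1 | h1
    · simp only [id, min_eq_left h1, abs_of_nonpos h1] at this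
      constructor <;> linarith [this.1, this.2]
    · simp only [id, min_eq_right h1, abs_zero] at this
      linarith [this.1]
  have a2 := step_pos h hζ b2 (L := L + 1) d0 fun s h0 => by
    have := G0 _ h0
    rcases le_total s 0 with h1 | h1
    · simp only [id, max_eq_right h1, abs_zero] at this
      linarith [this.1]
    · simpa only [id, max_eq_left h1, abs_of_nonneg h1] using this
  have G1 : G 0 = 0 := by_contra fun h0 => by linarith [(G0 0 h0).1, abs_zero (α := ℝ)]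
  have a3 : D.fb G ζ = 0 := by
    have : G = fun s => G (min (id s) 0) + G (max (id s) 0) := funext fun s => by
      rcases le_total s 0 with h1 | h1 <;> simp [h1, G1]
    rw [this, D.add b1 b2, add_apply, a1, a2, add_zero]
  have a4 := D.norm_le ((bE.mul (bc_chi L)).mul bb) (C := |t| * (2 * d)) (fun s => by
    rcases le_or_gt |s / d| (1 + 1) with h1 | h1
    · rw [abs_div, abs_of_pos d0, div_le_iff₀ d0] at h1
      have h2 : ‖ex t s - 1‖ ≤ |t| * (2 * d) := by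
        rw [ex, mul_comm _ Complex.I]
        refine Real.norm_exp_I_mul_ofReal_sub_one_le.trans ?_
        rw [Real.norm_eq_abs, abs_mul]
        gcongr; linarith
      rw [norm_mul, norm_mul]
      exact (mul_le_of_le_one_right (by positivity) (norm_chi _ _)).trans
        ((mul_le_of_le_one_right (by positivity) (norm_chi _ _)).trans h2)
    · simp only [chi_supp h1, mul_zero, norm_zero]
      positivity) ζ
  have a5 := D.norm_le bE (C := 2) (fun s => (norm_sub_le _ _).trans (by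
    rw [norm_ex, norm_one]; norm_num)) (ζ - D.fb (chi L) ζ)
  have a6 : D.fb (fun s => ex t s - 1) ζ = D.fb (fun s => ex t s - 1) (ζ - D.fb (chi L) ζ) +
      D.fb (fun s => (ex t s - 1) * chi L s * chi 1 (s / d)) ζ := by
    rw [map_sub, D.mul_apply bE (bc_chi L), ← add_zero (D.fb _ ζ - _ + _), ← a3, add_assoc,
      ← add_apply, ← D.add ((bE.mul (bc_chi L)).mul bb) bG]
    simp only [G, ← mul_add, add_sub_cancel, mul_one, sub_add_cancel]
  have a7 : |t| * (2 * d) * ‖ζ‖ ≤ ε / 2 := by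
    rw [hd]
    field_simp
    nlinarith [mul_nonneg (abs_nonneg t) (norm_nonneg ζ)]
  rw [a6]
  linarith [norm_add_le (D.fb (fun s => ex t s - 1) (ζ - D.fb (chi L) ζ))
    (D.fb (fun s => (ex t s - 1) * chi L s * chi 1 (s / d)) ζ)]

end Vale.Agent.P132
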