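import Vale.Agent.P132.ApiM

/-! Truncation of invariant vectors. -/

namespace Vale.Agent.P132

open scoped InnerProductSpace ComplexConjugate Topology
open Vale.Agent.P082 Filter

variable {A : Type*} [CStarAlgebra A] [PartialOrder A] [StarOrderedRing A] {H : Type*}
  [NormedAddCommGroup H] [InnerProductSpace ℂ H] [CompleteSpace H] {S : Std A H}

omit [PartialOrder A] [StarOrderedRing A] in
lemma trunc_rsmul (S : Std A H) (c : ℝ) (a : A) : S.π (c • a) S.ξ = (c : ℂ) • S.π a S.ξ := by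
  rw [← Complex.coe_smul, map_smul, _root_.smul_apply]

/-- The invariant nearest point of an order interval. -/
lemma trunc_near {D : MD S} {β : H} (hβ : D.Fix β) {a : A} (ha : D.Inv a) (h0 : 0 ≤ a) :
    ∃ x0, D.Inv x0 ∧ 0 ≤ x0 ∧ x0 ≤ a ∧ ∀ x, 0 ≤ x → x ≤ a →
      (⟪β - S.π x0 S.ξ, S.π x S.ξ - S.π x0 S.ξ⟫_ℂ).re ≤ 0 := by
  obtain ⟨q, hq, h1, h2⟩ := exists_near_inv
    (K := {γ | ∃ x, (0 ≤ x ∧ x ≤ a) ∧ S.π x S.ξ = γ}) ⟨_, 0, ⟨le_rfl, h0⟩, rfl⟩ (by
      rintro _ ⟨x, hx, rfl⟩ _ ⟨y, hy, rfl⟩ c d hc hd hcd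
      refine ⟨c • x + d • y, ⟨add_nonneg (smul_nonneg hc hx.1) (smul_nonneg hd hy.1), ?_⟩, ?_⟩
      · refine (add_le_add (smul_le_smul_of_nonneg_left hx.2 hc)
          (smul_le_smul_of_nonneg_left hy.2 hd)).trans_eq ?_
        rw [← add_smul, hcd, one_smul]
      · rw [map_add, _root_.add_apply, trunc_rsmul, trunc_rsmul, Complex.coe_smul,
          Complex.coe_smul]) β D.U D.toFC.norm_U hβ (by
      rintro t _ ⟨x, hx, rfl⟩
      exact ⟨D.σ t x, ⟨by simpa using MD.σ_mono (D := D) t hx.1,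
        (MD.σ_mono t hx.2).trans_eq (MD.inv_iff.1 ha t)⟩, D.π_σ_ξ t x⟩)
  obtain ⟨l, y, hl, h3, h4, rfl⟩ := S.exists_lim (r := ‖a‖)
    (fun x hx => CStarAlgebra.norm_le_norm_of_nonneg_of_le hx.1 hx.2) hq
  exact ⟨y, MD.inv_iff_fix.2 h2, Rep.T_nonneg h4 (h3.mono fun _ h => h.1),
    Rep.T_le h4 (h3.mono fun _ h => h.2), fun x hx hx' => h1 _ (subset_closure ⟨x, ⟨hx, hx'⟩, rfl⟩)⟩

lemma trunc_le {e y : A} (he : IsStarProjection e) (hy : y * e = y) :
    star y * y ≤ ‖star y * y‖ • e := by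
  have h1 : e * star y = star y := by
    simpa [he.isSelfAdjoint.star_eq] using congrArg star hy
  have h2 := he.isSelfAdjoint.conjugate_le_conjugate
    (IsSelfAdjoint.le_algebraMap_norm_self (IsSelfAdjoint.star_mul_self y))
  rwa [Algebra.algebraMap_eq_smul_one, mul_smul_comm, smul_mul_assoc, mul_one,
    he.isIdempotentElem.eq, ← mul_assoc, h1, mul_assoc, hy] at h2

omit [PartialOrder A] [StarOrderedRing A] in
lemma trunc_pair (S : Std A H) {e y : A} (he : IsStarProjection e) (hy : y * e = y) :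
    (⟪S.π e S.ξ, S.π (star y * y) S.ξ⟫_ℂ).re = ‖S.π y S.ξ‖ ^ 2 := by
  have h1 : star e * star y = star y := by rw [← star_mul, hy]
  rw [← S.inner_star_right, ← S.mul_apply, ← mul_assoc, h1, S.norm_sq]

theorem lemT {D : MD S} {β : H} (hβ : D.Fix β) {p : A} (hp : D.IP p) {s : ℝ} (hs : 0 < s) {x : A}
    (h0 : 0 ≤ x) (h1 : x ≤ s • p)
    (h : 0 < (⟪β - (s : ℂ) • S.π p S.ξ, S.π x S.ξ - (s : ℂ) • S.π p S.ξ⟫_ℂ).re) :
    ∃ (e : A) (b : ℝ), D.IP e ∧ p * e = e ∧ b < s ∧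
      ∀ y, y * e = y → (⟪β, S.π (star y * y) S.ξ⟫_ℂ).re ≤ b * ‖S.π y S.ξ‖ ^ 2 := by
  have hsp : D.Inv (s • p) := hp.2.2.rsmul s
  obtain ⟨x0, hi, h2, h3, h4⟩ := trunc_near hβ hsp (h0.trans h1)
  obtain ⟨δ, e, hδ, he, h5⟩ := (hsp.sub hi).exists_cut (sub_nonneg.2 h3) fun hg => by
    have h6 := h4 x h0 h1
    rw [← sub_eq_zero.1 hg, trunc_rsmul] at h6
    exact absurd h (not_lt.2 h6)
  have h7 : e * p = e := by
    have := mul_eq_zero_of_le hδ he.1 (h5.trans (sub_le_self _ h2)) (y := 1 - p) (by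
      rw [smul_mul_assoc, hp.1.isIdempotentElem.mul_one_sub_self, smul_zero])
    rw [mul_sub, mul_one, sub_eq_zero] at this
    exact this.symm
  refine ⟨e, s - δ, he, ?_, by linarith, fun y hy => ?_⟩
  · simpa [he.1.isSelfAdjoint.star_eq, hp.1.isSelfAdjoint.star_eq] using congrArg star h7
  have hz := star_mul_self_nonneg y
  have ht : 0 < δ / (‖star y * y‖ + 1) := by positivity
  have h8 : (δ / (‖star y * y‖ + 1)) • (star y * y) ≤ δ • e := by
    refine (smul_le_smul_of_nonneg_left (trunc_le he.1 hy) ht.le).trans ?_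
    rw [smul_smul]
    refine smul_le_smul_of_nonneg_right ?_ he.1.nonneg
    rw [div_mul_eq_mul_div, div_le_iff₀ (by positivity)]
    linarith
  have h9 := h4 (x0 + (δ / (‖star y * y‖ + 1)) • (star y * y))
    (add_nonneg h2 (smul_nonneg ht.le hz)) (le_sub_iff_add_le'.1 (h8.trans h5))
  rw [map_add, _root_.add_apply, add_sub_cancel_left, trunc_rsmul, inner_smul_right,
    Complex.re_ofReal_mul, inner_sub_left, Complex.sub_re] at h9
  have h10 := ((hsp.sub hi).sub (he.2.2.rsmul δ)).pair_nonneg (sub_nonneg.2 h5) hz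
  have hyp : y * p = y := by rw [← hy, mul_assoc, h7]
  simp only [map_sub, _root_.sub_apply, trunc_rsmul, inner_sub_left, inner_smul_left,
    Complex.conj_ofReal, Complex.sub_re, Complex.re_ofReal_mul, trunc_pair S he.1 hy,
    trunc_pair S hp.1 hyp] at h10
  have h11 := nonpos_of_mul_nonpos_right h9 ht
  linarith

theorem lemT' {D : MD S} {β : H} (hβ : D.Fix β) {p : A} (hp : D.IP p) {s : ℝ} (hs : 0 < s)
    (h : (⟪β, S.π p S.ξ⟫_ℂ).re < s * ‖S.π p S.ξ‖ ^ 2) :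
    ∃ e : A, D.IP e ∧ p * e = e ∧
      ∀ y, y * e = y → (⟪β, S.π (star y * y) S.ξ⟫_ℂ).re ≤ s * ‖S.π y S.ξ‖ ^ 2 := by
  obtain ⟨e, b, he, h1, h2, h3⟩ := lemT hβ hp hs le_rfl (smul_nonneg hs.le hp.1.nonneg) (by
    rw [map_zero, _root_.zero_apply, zero_sub, inner_neg_right, inner_smul_right, Complex.neg_re,
      Complex.re_ofReal_mul, inner_sub_left, Complex.sub_re, ← inner_conj_symm (_ • _),
      Complex.conj_re, re_inner_rsmul]
    nlinarith)
  exact ⟨e, he, h1, fun y hy => (h3 y hy).trans (mul_le_mul_of_nonneg_right h2.le (sq_nonneg _))⟩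

end Vale.Agent.P132
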