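import Vale.Agent.P132.Avg
import Vale.Agent.P132.Key
import Vale.Agent.P132.Trunc

/-! Invariant vectors of V are scalar. -/

namespace Vale.Agent.P132

open scoped InnerProductSpace ComplexConjugate Topology
open Vale.Agent.P082 Filter Finset

variable {A : Type*} [CStarAlgebra A] [PartialOrder A] [StarOrderedRing A] {H : Type*}
  [NormedAddCommGroup H] [InnerProductSpace ℂ H] [CompleteSpace H] {S : Std A H}

lemma step2_pos {D : MD S} (h : D.H3) {ζ : H} (hζ : ζ ∈ D.V) (hf : D.Fix ζ)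
    (h0 : (⟪ζ, S.ξ⟫_ℂ).re = 0) {z : A} (z1 : 0 ≤ z) (z2 : z ≤ 1) : (⟪ζ, S.π z S.ξ⟫_ℂ).re ≤ 0 := by
  by_contra! hz
  obtain ⟨e, b, he, -, hb, h1⟩ := lemT (D := D) (β := S.ξ - ζ)
    (fun t => by rw [map_sub, D.U_ξ, hf]) MD.ip_one one_pos (x := 1 - z) (sub_nonneg.2 z2)
    (by simpa using z1) (by simpa using hz)
  set s := (1 - b) / 2 with hs
  have s0 : 0 < s := by linarith
  obtain ⟨f, hf', -, h2⟩ := lemT' hf MD.ip_one s0 (by simpa [h0, S.norm_ξ] using s0)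
  set K₁ := (‖S.π e S.ξ‖ ^ 2)⁻¹
  set K₂ := 1 ^ 2 / ‖S.π f S.ξ‖ ^ 2
  have k1 : 0 ≤ K₁ := by positivity
  have k2 : 0 ≤ K₂ := by positivity
  obtain ⟨δ, hδ, hk⟩ := key hζ (K₁ + K₂ + K₂ + 2) (show 0 < s / 4 by positivity)
  obtain ⟨ε, ε0, ε1, ε2, ε3, ε4⟩ : ∃ ε : ℝ, 0 < ε ∧ ε ≤ 1 / 8 ∧ ε ≤ δ / 2 ∧
      K₂ * ε ≤ (s / (4 * (‖ζ‖ + 1))) ^ 2 ∧ K₂ * ε ≤ 1 := by
    refine ⟨min (min (1 / 8) (δ / 2)) (min ((s / (4 * (‖ζ‖ + 1))) ^ 2) 1 / (K₂ + 1)),
      by positivity, (min_le_left _ _).trans (min_le_left _ _),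
      (min_le_left _ _).trans (min_le_right _ _), ?_⟩
    rw [← le_min_iff]
    refine (mul_le_mul_of_nonneg_left (min_le_right _ _) k2).trans ?_
    rw [mul_div_left_comm]
    exact mul_le_of_le_one_right (by positivity) (div_le_one_of_le₀ (by linarith) (by linarith))
  obtain ⟨ι, _, w, hw⟩ := h e f he hf' 1 (ε * ε) one_pos (by positivity)
  have εε : ε * ε ≤ ε := by nlinarith
  have c1 : ∑ i, star (w i) * w i ≤ K₁ • (1 : A) :=
    hw.col.trans (smul_le_smul_of_nonneg_left he.1.le_one k1)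
  have c2 : ∑ i, w i * star (w i) ≤ K₂ • (1 : A) :=
    hw.row.trans (smul_le_smul_of_nonneg_left hf'.1.le_one k2)
  have d1 : ∀ i, ‖S.π (star (w i)) S.ξ - D.ρ (star (w i)) S.ξ‖ =
      ‖D.ρ (w i) S.ξ - ((1 : ℝ) : ℂ) • S.π (w i) S.ξ‖ := fun i => by
    simpa using D.norm_def_star (w i) 1
  have d2 : ∑ i, ‖S.π (star (w i)) S.ξ - D.ρ (star (w i)) S.ξ‖ ^ 2 ≤ ε * ε := by
    simpa only [d1, MD.cost] using hw.cst
  set g := ∑ i, S.π (w i) (S.π (star (w i)) S.ξ - D.ρ (star (w i)) S.ξ) with hg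
  have g1 : ‖g‖ ^ 2 ≤ K₂ * ε := (S.row_le c2 _).trans (by gcongr; exact d2.trans εε)
  have e1 : ∑ i, (S.π (star (w i)) (S.π (w i) S.ξ) - D.ρ (star (w i)) (S.π (w i) S.ξ)) =
      S.π (∑ i, star (w i) * w i) S.ξ - S.π (∑ i, w i * star (w i)) S.ξ + g := by
    simp only [hg, map_sum, _root_.sum_apply, S.mul_apply, map_sub, sum_sub_distrib, D.π_ρ]
    abel
  have n1 : ∀ {x : A} {K : ℝ}, 0 ≤ K → 0 ≤ x → x ≤ K • 1 → ‖S.π x S.ξ‖ ≤ K := fun hK h0 h1 =>
    (S.norm_apply_le _ _).trans (by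
      rw [S.norm_ξ, mul_one]
      exact (CStarAlgebra.norm_le_iff_le_algebraMap _ hK h0).2
        (by rwa [Algebra.algebraMap_eq_smul_one]))
  have hk' := hk ι (fun i => star (w i)) (fun i => S.π (w i) S.ξ)
    ((mul_le_mul (d2.trans εε) (hw.up.trans (show _ ≤ 2 by linarith)) (by positivity) ε0.le).trans
      (by linarith)) (by
      rw [e1]
      have a1 := n1 k1 (sum_nonneg fun i _ => star_mul_self_nonneg _) c1
      have a2 := n1 k2 (sum_nonneg fun i _ => mul_star_self_nonneg _) c2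
      have a3 : ‖g‖ ≤ 1 := (abs_le_of_sq_le_sq' (by linarith) zero_le_one).2
      linarith [norm_add_le (S.π (∑ i, star (w i) * w i) S.ξ - S.π (∑ i, w i * star (w i)) S.ξ) g,
        norm_sub_le (S.π (∑ i, star (w i) * w i) S.ξ) (S.π (∑ i, w i * star (w i)) S.ξ)])
  have p1 : 2 * s * (1 - ε * ε) ≤ (⟪ζ, S.π (∑ i, star (w i) * w i) S.ξ⟫_ℂ).re := by
    refine (mul_le_mul_of_nonneg_left hw.low (by positivity)).trans ?_
    simp only [map_sum, _root_.sum_apply, inner_sum, Complex.re_sum, mul_sum]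
    refine sum_le_sum fun i _ => ?_
    have := h1 (w i) (by rw [← hw.cor i, mul_assoc _ e, he.1.isIdempotentElem.eq])
    rw [inner_sub_left, Complex.sub_re, ← S.norm_sq] at this
    rw [hs]; linarith
  have p2 : (⟪ζ, S.π (∑ i, w i * star (w i)) S.ξ⟫_ℂ).re ≤
      s * ∑ i, ‖S.π (star (w i)) S.ξ‖ ^ 2 := by
    simp only [map_sum, _root_.sum_apply, inner_sum, Complex.re_sum, mul_sum]
    refine sum_le_sum fun i _ => ?_
    simpa only [star_star] using h2 (star (w i)) (by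
      rw [← hf'.1.isSelfAdjoint.star_eq, ← star_mul, ← hw.cor i, ← mul_assoc, ← mul_assoc,
        hf'.1.isIdempotentElem.eq])
  have p3 : ∑ i, ‖S.π (star (w i)) S.ξ‖ ^ 2 ≤ (1 + ε) * (1 + ε * ε) + (1 + ε⁻¹) * (ε * ε) := by
    refine le_trans ?_ (add_le_add (mul_le_mul_of_nonneg_left hw.up (by positivity))
      (mul_le_mul_of_nonneg_left hw.cst (by positivity)))
    rw [MD.cost, mul_sum, mul_sum, ← sum_add_distrib]
    refine sum_le_sum fun i _ => ?_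
    have a1 := norm_le_norm_add_norm_sub' (D.ρ (w i) S.ξ) (((1 : ℝ) : ℂ) • S.π (w i) S.ξ)
    rw [← D.norm_ρ_ξ]
    generalize ‖D.ρ (w i) S.ξ - ((1 : ℝ) : ℂ) • S.π (w i) S.ξ‖ = y at *
    rw [Complex.ofReal_one, one_smul] at a1
    have a2 := pow_le_pow_left₀ (norm_nonneg _) a1 2
    have a3 : 2 * ‖S.π (w i) S.ξ‖ * y ≤ ε * ‖S.π (w i) S.ξ‖ ^ 2 + ε⁻¹ * y ^ 2 := by
      have := mul_nonneg (inv_pos.2 ε0).le (sq_nonneg (ε * ‖S.π (w i) S.ξ‖ - y))
      field_simp at this ⊢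
      nlinarith
    nlinarith
  have p4 : ‖⟪ζ, g⟫_ℂ‖ ≤ s / 4 := by
    have a1 : ‖g‖ ≤ s / (4 * (‖ζ‖ + 1)) := (abs_le_of_sq_le_sq' (g1.trans ε3) (by positivity)).2
    refine (norm_inner_le_norm _ _).trans ((mul_le_mul (le_add_of_nonneg_right zero_le_one) a1
      (norm_nonneg _) (by positivity)).trans_eq ?_)
    field_simp
  rw [e1, inner_add_right, inner_sub_right] at hk'
  have p5 := (Complex.re_le_norm _).trans hk'
  have p6 := (Complex.abs_re_le_norm _).trans p4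
  rw [Complex.add_re, Complex.sub_re] at p5
  have p7 : (1 + ε⁻¹) * (ε * ε) = ε * ε + ε := by field_simp
  have p8 := mul_le_mul_of_nonneg_left p3 s0.le
  have p9 : 2 * (ε * ε) + ((1 + ε) * (1 + ε * ε) + (ε * ε + ε)) < 3 / 2 := by nlinarith
  rw [p7] at p8
  nlinarith [(abs_le.1 p6).1]

theorem step2 {D : MD S} (h : D.H3) {ζ : H} (hζ : ζ ∈ D.V) (hf : D.Fix ζ) :
    ∃ c : ℂ, ζ = c • S.ξ := by
  refine ⟨⟪S.ξ, ζ⟫_ℂ, sub_eq_zero.1 ?_⟩
  set γ := ζ - ⟪S.ξ, ζ⟫_ℂ • S.ξ with hγ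
  have h1 : γ ∈ D.V := by
    simpa [hγ, sub_eq_add_neg] using MD.V_add hζ (MD.V_smul MD.V_ξ (-⟪S.ξ, ζ⟫_ℂ))
  have h2 : D.Fix γ := fun t => by rw [hγ, map_sub, map_smul, D.U_ξ, hf]
  have h3 : ⟪γ, S.ξ⟫_ℂ = 0 := by
    simp [hγ, S.norm_ξ]
  have h4 : ∀ z : A, 0 ≤ z → z ≤ 1 → ⟪γ, S.π z S.ξ⟫_ℂ = 0 := fun z z1 z2 => by
    have a := fun c : ℂ => step2_pos h (MD.V_smul h1 c) (fun t => by rw [map_smul, h2])
      (by rw [inner_smul_left, h3, mul_zero, Complex.zero_re]) z1 z2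
    have a1 := a 1
    have a2 := a (-1)
    have a3 := a Complex.I
    have a4 := a (-Complex.I)
    simp only [inner_smul_left, map_one, one_mul, map_neg, neg_mul, Complex.neg_re, Complex.conj_I,
      Complex.mul_re, Complex.I_re, Complex.I_im, zero_mul, neg_neg] at a1 a2 a3 a4
    exact Complex.ext (by simp only [Complex.zero_re]; linarith)
      (by simp only [Complex.zero_im]; linarith)
  refine S.dense_sa fun a ha => ?_
  have r0 : 0 < 2 * (‖a‖ + 1) := by positivity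
  have h5 := h4 ((2 * (‖a‖ + 1))⁻¹ • (a + (‖a‖ + 1) • 1)) (smul_nonneg (by positivity) (by
    rw [← neg_le_iff_add_nonneg', add_smul, one_smul, ← Algebra.algebraMap_eq_smul_one]
    exact ha.neg.le_algebraMap_norm_self.trans (by simp))) (by
    rw [inv_smul_le_iff_of_pos r0, two_mul, add_smul (‖a‖ + 1) (‖a‖ + 1), add_le_add_iff_right,
      add_smul, one_smul,
      ← Algebra.algebraMap_eq_smul_one]
    exact ha.le_algebraMap_norm_self.trans (by simp))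
  simp only [← Complex.coe_smul, map_smul, map_add, map_one, smul_apply, add_apply,
    one_apply_eq_self, inner_smul_right, inner_add_right, h3, mul_zero, add_zero, mul_eq_zero,
    Complex.ofReal_eq_zero, (inv_pos.2 r0).ne', false_or] at h5
  rwa [inner_eq_zero_symm]

end Vale.Agent.P132
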