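import Vale.Agent.P132.ApiP

/-! Projections of countably decomposable type III factors. -/

namespace Vale.Agent.P132

open scoped InnerProductSpace ComplexConjugate Topology
open Vale.Agent.P082 Filter

variable {A : Type*} [CStarAlgebra A] [PartialOrder A] [StarOrderedRing A] {H : Type*}
  [NormedAddCommGroup H] [InnerProductSpace ℂ H] [CompleteSpace H] {S : Std A H}

omit [PartialOrder A] [StarOrderedRing A] in
/-- Wandering projections give orthogonal copies. -/
lemma wander {u r e : A} (hu : star u * u = e) (h1 : e * u = u) (h2 : e * r = r) (h3 : r * u = 0)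
    (hr : IsStarProjection r) : (∀ n, e * (u ^ n * r) = u ^ n * r) ∧
      (∀ n, star (u ^ n * r) * (u ^ n * r) = r) ∧
      ∀ n m, n ≠ m → star (u ^ n * r) * (u ^ m * r) = 0 := by
  have a1 : ∀ n, e * (u ^ n * r) = u ^ n * r := fun n => by
    cases n with
    | zero => simpa using h2
    | succ n => rw [pow_succ', mul_assoc, ← mul_assoc, h1]
  have a2 : ∀ n k, star (u ^ n * r) * (u ^ (n + k) * r) = r * (u ^ k * r) := fun n k => by
    induction n with
    | zero => simp [hr.isSelfAdjoint.star_eq]
    | succ n ih =>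
      rw [add_right_comm, pow_succ', pow_succ', mul_assoc u, mul_assoc u, star_mul, mul_assoc,
        ← mul_assoc (star u), hu, a1, ih]
  have a3 : ∀ n m, n < m → star (u ^ n * r) * (u ^ m * r) = 0 := fun n m h => by
    obtain ⟨k, rfl⟩ := Nat.exists_eq_add_of_lt h
    rw [add_assoc, a2, pow_succ', mul_assoc, ← mul_assoc, h3, zero_mul]
  refine ⟨a1, fun n => by simpa [hr.isIdempotentElem.eq] using a2 n 0, fun n m h => ?_⟩
  rcases h.lt_or_gt with h | h
  · exact a3 n m h
  · rw [← star_eq_zero, star_mul, star_star, a3 m n h]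

omit [PartialOrder A] [StarOrderedRing A] in
/-- The Schroeder-Bernstein argument. -/
lemma equiv_of_iso (R : Rep A H) {e s : A} (he : IsStarProjection e) (hs : star s * s = 1)
    (h : e * s = s) : ∃ v, star v * v = 1 ∧ v * star v = e := by
  obtain ⟨-, h1, h2⟩ := wander hs (one_mul s) (one_mul (1 - e))
    (by rw [sub_mul, one_mul, h, sub_self]) he.one_sub
  set x := fun n => s ^ n * (1 - e) * star (s ^ n * (1 - e)) with hx
  have hp : ∀ n, IsStarProjection (x n) := fun n => piso_star (by rw [h1]; exact he.one_sub)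
  have ho : ∀ n m, n ≠ m → x n * x m = 0 := fun n m h => by
    rw [hx, mul_assoc, ← mul_assoc (star _), h2 n m h, zero_mul, mul_zero]
  obtain ⟨q, hq⟩ := exists_HS_proj R hp ho
  have hqp := hq.proj hp ho
  have x0 : x 0 = 1 - e := by
    simp only [hx, pow_zero, one_mul, he.one_sub.isSelfAdjoint.star_eq,
      he.one_sub.isIdempotentElem.eq]
  have hq' : HS R (fun n => x (n + 1)) (s * q * star s) :=
    ((hq.mul_left s).mul_right (star s)).congr fun n => by
      simp only [hx, pow_succ', star_mul, mul_assoc]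
  have b1 : ∀ n, q * x n = x n := fun n => ((hq.mul_right _).single n fun m hm =>
    ho m n hm).trans (hp n).isIdempotentElem.eq
  have b2 : (s * q * star s + x 0) * q = q := ((hq.mul_left _).congr fun n => by
    cases n with
    | zero => rw [add_mul, (hq'.mul_right _).zero fun m => ho _ _ m.succ_ne_zero, zero_add,
        (hp 0).isIdempotentElem.eq]
    | succ n =>
      rw [add_mul, (hq'.mul_right _).single n fun m hm => ho _ _ (by omega), ho 0 _ (by omega),
        add_zero, (hp _).isIdempotentElem.eq]).unique hq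
  have b3 : q * (s * q * star s) = s * q * star s :=
    ((hq'.mul_left q).congr fun n => b1 _).unique hq'
  have b4 : s * q * star s + (1 - e) = q := by
    have := congrArg star b2
    rwa [star_mul, star_add, star_mul, star_mul, star_star, hqp.isSelfAdjoint.star_eq,
      (hp 0).isSelfAdjoint.star_eq, ← mul_assoc s, mul_add, b3, b1, x0] at this
  have b5 : q * s = s * q := by
    nth_rw 1 [← b4]
    rw [add_mul, sub_mul, one_mul, h, sub_self, add_zero, mul_assoc, hs, mul_one]
  have qq := hqp.isIdempotentElem.eq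
  have b6 : star s * q = q * star s := by
    simpa [hqp.isSelfAdjoint.star_eq] using congrArg star b5
  refine ⟨s * q + (1 - q), ?_, ?_⟩ <;>
    rw [star_add, star_mul, hqp.isSelfAdjoint.star_eq, hqp.one_sub.isSelfAdjoint.star_eq]
  · calc _ = q * (star s * s) * q + (1 - q) * (1 - q) + q * star s * (1 - q) +
          (1 - q) * (s * q) := by noncomm_ring
      _ = 1 := by
        rw [hs, mul_one, qq, hqp.one_sub.isIdempotentElem.eq, ← b6, ← b5, mul_assoc,
          ← mul_assoc _ q s, hqp.isIdempotentElem.mul_one_sub_self,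
          hqp.isIdempotentElem.one_sub_mul_self]
        simp
  · calc _ = s * (q * q) * star s + (1 - q) * (1 - q) + s * (q * (1 - q)) +
          (1 - q) * q * star s := by noncomm_ring
      _ = e := by
        rw [qq, hqp.one_sub.isIdempotentElem.eq, hqp.isIdempotentElem.mul_one_sub_self,
          hqp.isIdempotentElem.one_sub_mul_self, eq_sub_of_add_eq b4]
        simp

/-- A countable partition of unity by pieces of a given projection. -/
lemma exists_pieces (S : Std A H) (hF : ∀ z : A, (∀ x, z * x = x * z) → ∃ c : ℂ, z = c • 1)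
    {r : A} (hr : IsStarProjection r) (h0 : r ≠ 0) : ∃ T : Set A, Countable T ∧
      (∀ y : T, r * y = y) ∧ (∀ y z : T, y ≠ z → (y : A) * star (z : A) = 0) ∧
      (∀ y : T, IsStarProjection (star (y : A) * y)) ∧
      HS S.toRep (fun y : T => star (y : A) * y) 1 := by
  obtain ⟨T, h1, h2, h3⟩ := exists_max_fam
    (fun y : A => y ≠ 0 ∧ IsStarProjection (star y * y) ∧ r * y = y)
    (fun y z => y * star z = 0) fun x y h => by simpa using congrArg star h
  have ho : ∀ a b : T, a ≠ b → star (a : A) * a * (star (b : A) * b) = 0 := fun a b h => by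
    rw [mul_assoc, ← mul_assoc (a : A), h2 a b h, zero_mul, mul_zero]
  obtain ⟨Q, hQ⟩ := exists_HS_proj S.toRep (fun a : T => (h1 a).2.1) ho
  have hQp := hQ.proj (fun a : T => (h1 a).2.1) ho
  have e1 : ∀ a : T, (a : A) * (1 - Q) = 0 := fun a => by
    rw [mul_sub, (hQ.mul_left (a : A)).single a fun b hb => by
      rw [← mul_assoc, h2 a b hb.symm, zero_mul], piso_mul (h1 a).2.1, mul_one, sub_self]
  have e2 : ∀ x, r * x * (1 - Q) = 0 := fun x => by
    by_contra hx
    obtain ⟨y, y0, y1, y2⟩ := exists_piso S.toRep hx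
    have y3 := y2 _ hQp.one_sub (by rw [mul_assoc, hQp.one_sub.isIdempotentElem.eq])
    have y4 : r * (r * x * (1 - Q) * y) = r * x * (1 - Q) * y := by
      simp only [← mul_assoc, hr.isIdempotentElem.eq]
    generalize r * x * (1 - Q) * y = v at y0 y1 y3 y4
    exact y0 (y3.symm.trans (e1 ⟨v, h3 v ⟨y0, y1, y4⟩ fun a => by
      rw [← y3, star_mul, hQp.one_sub.isSelfAdjoint.star_eq, ← mul_assoc, e1, zero_mul]⟩))
  obtain ⟨c, -, hz, c1, c2⟩ := exists_central S.toRep e2
  obtain ⟨t, rfl⟩ := hF c hz
  obtain rfl : 1 = Q := by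
    rw [smul_mul_assoc, one_mul, smul_eq_zero, sub_eq_zero] at c2
    exact c2.resolve_left fun h => h0 (by rw [← c1, h, zero_smul, mul_zero])
  refine ⟨T, ?_, fun a => (h1 a).2.2, h2, fun a => (h1 a).2.1, hQ⟩
  have hs : Summable fun a : T => ‖S.π a S.ξ‖ ^ 2 :=
    summable_of_sum_le (c := 1 * ‖S.ξ‖ ^ 2) (fun _ => sq_nonneg _) fun F => by
      have ho' : ∀ a b : F, a ≠ b → star (a.1 : A) * a.1 * (star (b.1 : A) * b.1) = 0 :=
        fun a b h => ho _ _ (Subtype.coe_ne_coe.2 h)
      obtain ⟨P, hP⟩ := exists_HS_proj S.toRep (fun a : F => (h1 a).2.1) ho'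
      rw [← Finset.sum_coe_sort]
      refine S.col_le ?_ _
      rw [← hP.fin, one_smul]
      exact (hP.proj (fun a : F => (h1 a).2.1) ho').le_one
  exact Set.countable_univ_iff.1 (hs.countable_support.mono fun a _ =>
    pow_ne_zero 2 (norm_ne_zero_iff.2 fun h => (h1 a).1 (S.sep _ h)))

theorem equiv_one (S : Std A H) (hF : ∀ z : A, (∀ x, z * x = x * z) → ∃ c : ℂ, z = c • 1)
    (h3 : ∀ p : A, IsStarProjection p → p ≠ 0 → ∃ v, star v * v = p ∧ p * v = v ∧ v * star v ≠ p)
    {e : A} (he : IsStarProjection e) (h0 : e ≠ 0) : ∃ v, star v * v = 1 ∧ v * star v = e := by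
  obtain ⟨u, u1, u2, u3⟩ := h3 e he h0
  have hu : IsStarProjection (star u * u) := u1 ▸ he
  have hr : IsStarProjection (e - u * star u) :=
    (piso_star hu).sub_of_mul_eq_right he (by rw [← mul_assoc, u2])
  obtain ⟨w1, w2, w3⟩ := wander u1 u2 (by rw [mul_sub, he.isIdempotentElem.eq, ← mul_assoc, u2])
    (by rw [sub_mul, u2, mul_assoc, piso_mul hu, sub_self]) hr
  obtain ⟨T, hT, t1, t2, t3, t4⟩ := exists_pieces S hF hr (sub_ne_zero.2 u3.symm)
  obtain ⟨σ, hσ⟩ := exists_injective_nat T
  generalize e - u * star u = r at *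
  have k1 : ∀ a : T, star (u ^ σ a * r * a) * (u ^ σ a * r * a) = star (a : A) * a := fun a => by
    rw [star_mul, mul_assoc, ← mul_assoc (star _) _ (a : A), w2, t1]
  have k2 : ∀ a b : T, a ≠ b → star (u ^ σ a * r * a) * (u ^ σ b * r * b) = 0 := fun a b h => by
    rw [star_mul, mul_assoc, ← mul_assoc (star _) _ (b : A), w3 _ _ (hσ.ne h), zero_mul, mul_zero]
  obtain ⟨s, hs⟩ := exists_HS S.toRep (x := fun a : T => u ^ σ a * r * a) (fun a => k1 a ▸ t3 a) k2
    fun a b h => by rw [star_mul, mul_assoc, ← mul_assoc (a : A), t2 a b h, zero_mul, mul_zero]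
  exact equiv_of_iso S.toRep he (((hs.prod hs k2).congr k1).unique t4)
    (((hs.mul_left e).congr fun a => by rw [← mul_assoc, w1]).unique hs)

end Vale.Agent.P132
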