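import Vale.Agent.P132.TT
import Vale.Agent.P132.Corner
import Vale.Agent.P132.Spec
import Vale.Agent.P132.Step1
import Vale.Agent.P132.Step2
import Vale.Agent.P132.GNS
import Vale.Agent.P132.Three

/-! Assembly. -/

namespace Vale.Agent.P132

open scoped InnerProductSpace ComplexConjugate Topology ComplexOrder
open Vale.Agent.P082 Filter

universe u

variable {A : Type u} [CStarAlgebra A] {H : Type*} [NormedAddCommGroup H] [InnerProductSpace ℂ H]
  [CompleteSpace H] {π : A →⋆ₐ[ℂ] (H →L[ℂ] H)} {φ : A →L[ℂ] ℂ}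

/-- The state induced on a corner through an isometry. -/
lemma IsFNState.cor (hφ : IsFNState π φ) {v : A} (hv : star v * v = 1) {r : ℝ}
    (hr : 0 < r) (h : φ (v * star v) = r) :
    IsFNState π (((r⁻¹ : ℝ) : ℂ) • φ.comp (ContinuousLinearMap.mulLeftRight ℂ _ v (star v))) := by
  have e1 : ∀ x : A, v * (star x * x) * star v =
      star (x * star v) * (x * star v) := fun x => by simp [mul_assoc]
  have n1 : ‖v‖ ≤ 1 := norm_le_one_of_iso hv
  have n2 : ∀ x : A, ‖x‖ ≤ 1 → ‖v * x * star v‖ ≤ 1 := fun x hx =>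
    (norm_mul_le _ _).trans (mul_le_one₀ ((norm_mul_le _ _).trans
      (mul_le_one₀ n1 (norm_nonneg _) hx)) (norm_nonneg _) ((norm_star v).trans_le n1))
  refine ⟨?_, fun x => ?_, fun x hx => ?_, fun l y hy hl hw => ?_⟩
  · simp [h, hr.ne']
  · simp only [smul_apply, ContinuousLinearMap.comp_apply, ContinuousLinearMap.mulLeftRight_apply,
      e1, smul_eq_mul]
    exact mul_nonneg (by exact_mod_cast (inv_pos.2 hr).le) (hφ.pos _)
  · simp only [smul_apply, ContinuousLinearMap.comp_apply, ContinuousLinearMap.mulLeftRight_apply,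
      e1, smul_eq_mul, mul_eq_zero, Complex.ofReal_eq_zero, (inv_pos.2 hr).ne', false_or] at hx
    rw [← mul_one x, ← hv, ← mul_assoc, hφ.faithful _ hx, zero_mul]
  · refine Tendsto.const_smul (f := fun x => φ (v * x * star v)) ?_ ((r⁻¹ : ℝ) : ℂ)
    refine (hφ.normal (l.map fun x => v * x * star v) (v * y * star v) (n2 y hy) (hl.mono n2)
      fun ξ η => ?_)
    have := hw (π (star v) ξ) (π (star v) η)
    rw [tendsto_map'_iff]
    simpa only [map_star, ContinuousLinearMap.star_eq_adjoint, map_mul, mul_apply_eq_comp,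
      ContinuousLinearMap.adjoint_inner_left, Function.comp_def] using this

lemma mem_V (hφ : IsFNState π φ) {K : Type u} [NormedAddCommGroup K] [InnerProductSpace ℂ K]
    [CompleteSpace K] {S : Std A K} (hS : ∀ x, φ x = ⟪S.ξ, S.π x S.ξ⟫_ℂ)
    (D : MD S) {a : A} (ha : a ∈ bicentralizer π φ) : S.π a S.ξ ∈ D.V := by
  intro ε hε
  by_contra! h
  choose u hu h1 h2 using fun n : ℕ => h (1 / ((n : ℝ) + 1)) (by positivity)
  have t0 : Tendsto (fun n => ‖S.π (u n) S.ξ - D.ρ (u n) S.ξ‖) atTop (𝓝 0) :=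
    squeeze_zero (fun _ => norm_nonneg _) h1 tendsto_one_div_add_atTop_nhds_zero_nat
  have n1 : ∀ n, ‖u n‖ ≤ 1 := fun n => norm_le_one_of_iso (hu n).1
  have t1 := ha u ⟨⟨1, n1⟩, squeeze_zero (fun _ => norm_nonneg _) (fun n => ?_)
    (by simpa using t0.const_mul 2)⟩
  · set r := 2 * ‖a‖ + 1 with hr
    have r0 : 0 < r := by positivity
    let d : ℕ → A := fun n => ((r⁻¹ : ℝ) : ℂ) • (a * u n - u n * a)
    have n2 : ∀ n, ‖d n‖ ≤ 1 := fun n => by
      rw [norm_smul, Complex.norm_real, Real.norm_of_nonneg (by positivity), inv_mul_le_one₀ r0]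
      nlinarith [norm_sub_le (a * u n) (u n * a), norm_mul_le a (u n), norm_mul_le (u n) a, n1 n,
        norm_nonneg a]
    have t2 : ∀ η, Tendsto (fun n => π (d n) η) atTop (𝓝 0) := fun η => by
      have := (t1 η).const_smul ((r⁻¹ : ℝ) : ℂ)
      rw [smul_zero] at this
      simpa only [d, map_smul, smul_apply] using this
    have t3 := hφ.normal (atTop.map fun n => star (d n) * d n) 0 (by simp)
      (eventually_map.2 (Eventually.of_forall fun n => (norm_mul_le _ _).trans
        (mul_le_one₀ ((norm_star _).trans_le (n2 n)) (norm_nonneg _) (n2 n)))) fun ξ η => by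
      have := (t2 η).inner (𝕜 := ℂ) (t2 ξ)
      simp only [← ContinuousLinearMap.adjoint_inner_right, inner_zero_left] at this
      rw [map_zero, zero_apply, inner_zero_right, tendsto_map'_iff]
      simpa only [map_star, ContinuousLinearMap.star_eq_adjoint, map_mul, mul_apply_eq_comp,
        Function.comp_def] using this
    have t4 : Tendsto (fun n => ‖S.π (d n) S.ξ‖) atTop (𝓝 0) := by
      have := (Real.continuous_sqrt.tendsto _).comp ((Complex.continuous_re.tendsto _).comp t3)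
      simp only [map_zero, Complex.zero_re, Real.sqrt_zero, tendsto_map'_iff] at this
      refine this.congr fun n => ?_
      simp only [Function.comp, hS, ← S.norm_sq, Real.sqrt_sq (norm_nonneg _)]
    have t5 := (t4.const_mul r).add (t0.const_mul ‖a‖)
    rw [mul_zero, mul_zero, add_zero] at t5
    obtain ⟨n, hn⟩ := (t5.eventually (gt_mem_nhds hε)).exists
    refine (h2 n).not_ge (le_trans ?_ hn.le)
    have e1 : S.π (u n) (S.π a S.ξ) - D.ρ (u n) (S.π a S.ξ) =
        S.π a (S.π (u n) S.ξ - D.ρ (u n) S.ξ) - (r : ℂ) • S.π (d n) S.ξ := by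
      simp only [d, map_smul, smul_apply, smul_smul, ← Complex.ofReal_mul, mul_inv_cancel₀ r0.ne',
        Complex.ofReal_one, one_smul, map_sub, sub_apply, S.mul_apply, D.π_ρ]
      abel
    rw [e1, add_comm]
    refine (norm_sub_le _ _).trans (add_le_add (S.norm_apply_le _ _) ?_)
    rw [norm_smul, Complex.norm_real, Real.norm_of_nonneg r0.le]
  · refine ContinuousLinearMap.opNorm_le_bound _ (by positivity) fun y => ?_
    have e1 : φ (y * u n) - φ (u n * y) = ⟪S.ξ, S.π y (S.π (u n) S.ξ - D.ρ (u n) S.ξ)⟫_ℂ -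
        ⟪S.π (star (u n)) S.ξ - D.ρ (star (u n)) S.ξ, S.π y S.ξ⟫_ℂ := by
      simp only [hS, S.mul_apply, map_sub, inner_sub_left, inner_sub_right, S.inner_star_left,
        D.inner_ρ_left, D.π_ρ]
      ring
    have e2 := norm_inner_le_norm (𝕜 := ℂ) S.ξ (S.π y (S.π (u n) S.ξ - D.ρ (u n) S.ξ))
    have e3 := norm_inner_le_norm (𝕜 := ℂ) (S.π (star (u n)) S.ξ - D.ρ (star (u n)) S.ξ) (S.π y S.ξ)
    have e4 := S.norm_apply_le y S.ξ
    have e5 := S.norm_apply_le y (S.π (u n) S.ξ - D.ρ (u n) S.ξ)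
    rw [MD.norm_ad_star] at e3
    rw [S.norm_ξ] at e2 e4
    refine (congrArg norm e1).trans_le ((norm_sub_le _ _).trans ?_)
    nlinarith [norm_nonneg (S.π (u n) S.ξ - D.ρ (u n) S.ξ)]

theorem bicentralizer_trivial (hπ : Function.Injective π) (M : VonNeumannAlgebra H)
    (hM : Set.range π = M) (hF : IsFactor A) (h3 : IsTypeIII A)
    (hS : ∀ r : ℝ, 0 ≤ r → (r : ℂ) ∈ specS π) (hφ : IsFNState π φ) :
    bicentralizer π φ = {a | ∃ c : ℂ, a = c • 1} := by
  let := CStarAlgebra.spectralOrder A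
  have := CStarAlgebra.spectralOrderedRing A
  let R : Rep A H := ⟨π, hπ, fun T h => by
    change T ∈ Set.range π
    rw [hM, SetLike.mem_coe, ← M.commutant_commutant, VonNeumannAlgebra.mem_commutant_iff]
    exact fun S hS => h S fun a => (VonNeumannAlgebra.mem_commutant_iff.1 hS _
      (by rw [← SetLike.mem_coe, ← hM]; exact ⟨a, rfl⟩)).symm⟩
  refine Set.Subset.antisymm (fun a ha => ?_) ?_
  swap
  · rintro _ ⟨c, rfl⟩ w _ η
    simp
  obtain ⟨K, _, _, _, S, hξ⟩ := exists_std R φ hφ.one hφ.pos hφ.faithful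
    fun l y hy hl hw => hφ.normal l y hy hl (Rep.W_T.1 hw)
  obtain ⟨D⟩ := exists_MD S
  have H1 : D.H1 := fun e he c κ hc hκ => by
    obtain ⟨v, v1, v2⟩ := equiv_one S hF h3 he.1 he.2.1
    refine ap_of_spec he v1 v2 hc (fun K' _ _ _ Λ h1 h2 => ?_) hκ
    have h4 : ((c ^ 2 : ℝ) : ℂ) ∈ specS π := hS _ (sq_nonneg c)
    refine h4 _ (hφ.cor v1 (pow_pos he.pos 2) (by rw [v2, hξ, he.inner_ξ])) K' Λ h1 fun x y => ?_
    simp [h2, hξ]
  have H3 := h3_of_h2 (h2_of_h1 hF H1)
  have hV := mem_V hφ hξ D ha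
  obtain ⟨c, hc⟩ := step2 H3 hV (step1 H3 hV)
  exact ⟨c, sub_eq_zero.1 (S.sep _ (by simp [hc]))⟩

end Vale.Agent.P132
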