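import Vale.Agent.P132.ApiM

/-! The space V and conjugation operators. -/

namespace Vale.Agent.P132

open scoped InnerProductSpace ComplexConjugate Topology
open Vale.Agent.P082 Filter

variable {A : Type*} [CStarAlgebra A] [PartialOrder A] [StarOrderedRing A] {H : Type*}
  [NormedAddCommGroup H] [InnerProductSpace ℂ H] [CompleteSpace H] {S : Std A H}

namespace MD

variable {D : MD S} {ζ ζ' : H}

omit [PartialOrder A] [StarOrderedRing A]

lemma norm_π_un {u : A} (hu : u ∈ unitary A) (α : H) : ‖S.π u α‖ = ‖α‖ := by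
  have := S.norm_sq u α
  rw [hu.1, map_one, one_apply_eq_self, inner_self_eq_norm_sq_to_K] at this
  exact (sq_eq_sq₀ (norm_nonneg _) (norm_nonneg _)).1 (by exact_mod_cast this)

lemma norm_ρ_un {u : A} (hu : u ∈ unitary A) (α : H) : ‖D.ρ u α‖ = ‖α‖ := by
  rw [D.ρ_apply, D.norm_J, norm_π_un (Unitary.star_mem hu), D.norm_J]

lemma V_ξ : S.ξ ∈ D.V := fun ε hε => ⟨ε, hε, fun _ _ h => h⟩

lemma V_add (h : ζ ∈ D.V) (h' : ζ' ∈ D.V) : ζ + ζ' ∈ D.V := fun ε hε => by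
  obtain ⟨η, h1, h2⟩ := h _ (half_pos hε)
  obtain ⟨η', h1', h2'⟩ := h' _ (half_pos hε)
  refine ⟨min η η', lt_min h1 h1', fun u hu h => ?_⟩
  rw [map_add, map_add, add_sub_add_comm]
  refine (norm_add_le _ _).trans ?_
  linarith [h2 u hu (h.trans (min_le_left _ _)), h2' u hu (h.trans (min_le_right _ _))]

lemma V_smul (h : ζ ∈ D.V) (c : ℂ) : c • ζ ∈ D.V := fun ε hε => by
  obtain ⟨η, h1, h2⟩ := h (ε / (‖c‖ + 1)) (by positivity)
  refine ⟨η, h1, fun u hu h => ?_⟩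
  rw [map_smul, map_smul, ← smul_sub, norm_smul]
  have := (le_div_iff₀ (by positivity)).1 (h2 u hu h)
  nlinarith [norm_nonneg (S.π u ζ - D.ρ u ζ)]

lemma V_closed : IsClosed D.V := by
  refine isClosed_of_closure_subset fun ζ hζ ε hε => ?_
  obtain ⟨ζ', h, hd⟩ := Metric.mem_closure_iff.1 hζ (ε / 3) (by positivity)
  obtain ⟨η, h1, h2⟩ := h (ε / 3) (by positivity)
  refine ⟨η, h1, fun u hu h => ?_⟩
  have : S.π u ζ - D.ρ u ζ = S.π u (ζ - ζ') - D.ρ u (ζ - ζ') + (S.π u ζ' - D.ρ u ζ') := by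
    simp only [map_sub]; abel
  rw [this, dist_eq_norm] at *
  refine (norm_add_le _ _).trans ?_
  have := norm_sub_le (S.π u (ζ - ζ')) (D.ρ u (ζ - ζ'))
  rw [norm_π_un hu, norm_ρ_un hu] at this
  linarith [h2 u hu h]

lemma V_U (h : ζ ∈ D.V) (t : ℝ) : D.U t ζ ∈ D.V := fun ε hε => by
  obtain ⟨η, h1, h2⟩ := h ε hε
  refine ⟨η, h1, fun u hu h => ?_⟩
  have := h2 (D.σ (-t) u) (Unitary.map_mem _ hu) (by
    rwa [D.π_σ_ξ, D.ρ_σ_ξ, ← map_sub, D.norm_U])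
  rwa [D.π_σ, D.ρ_σ, ← map_sub, D.norm_U, neg_neg] at this

lemma norm_ad_star (a : A) :
    ‖S.π (star a) S.ξ - D.ρ (star a) S.ξ‖ = ‖S.π a S.ξ - D.ρ a S.ξ‖ := by
  simpa [norm_sub_rev (D.ρ a S.ξ)] using D.norm_def_star a 1

lemma V_J (h : ζ ∈ D.V) : D.J ζ ∈ D.V := fun ε hε => by
  obtain ⟨η, h1, h2⟩ := h ε hε
  refine ⟨η, h1, fun u hu h => ?_⟩
  have := h2 (star u) (Unitary.star_mem hu) (by rwa [norm_ad_star])
  rwa [← D.norm_J, map_sub, D.J_π, D.J_ρ, star_star, norm_sub_rev] at this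

lemma V_fb (h : ζ ∈ D.V) {F : ℝ → ℂ} (hF : BC F) : D.fb F ζ ∈ D.V :=
  D.mem_of_inv (K := ⟨⟨⟨D.V, V_add⟩, by simpa using V_smul (D := D) V_ξ 0⟩,
    fun c _ h => V_smul h c⟩) V_closed (fun t _ h => V_U h t) hF h

variable (D) in
/-- Conjugation by a unitary. -/
noncomputable def Wu (u : A) : H →L[ℂ] H := S.π u * D.ρ (star u)

lemma Wu_mul (u v : A) : D.Wu (u * v) = D.Wu u * D.Wu v := by
  simp only [Wu, star_mul, map_mul, D.ρ_mul, mul_assoc]
  rw [← mul_assoc (S.π v), D.π_mul_ρ, mul_assoc]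

lemma Wu_star (u : A) : D.Wu (star u) = star (D.Wu u) := by
  simp only [Wu, star_mul, map_star, D.ρ_star, star_star]
  rw [← map_star, D.π_mul_ρ]

lemma norm_Wu {u : A} (hu : u ∈ unitary A) (α : H) : ‖D.Wu u α‖ = ‖α‖ := by
  rw [Wu, mul_apply_eq_comp, norm_π_un hu, norm_ρ_un (Unitary.star_mem hu)]

lemma norm_Wu_sub {u : A} (hu : u ∈ unitary A) (α : H) :
    ‖D.Wu u α - α‖ = ‖S.π u α - D.ρ u α‖ := by
  rw [← norm_ρ_un (D := D) hu, map_sub, Wu, mul_apply_eq_comp, ← D.π_ρ, ← D.ρ_mul_apply, hu.1,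
    D.ρ_one, one_apply_eq_self]

lemma Wu_sq {u : A} (hu : u ∈ unitary A) (α : H) :
    ‖S.π u α - D.ρ u α‖ ^ 2 = 2 * ‖α‖ ^ 2 - 2 * (⟪α, D.Wu u α⟫_ℂ).re := by
  rw [← norm_Wu_sub hu, norm_sub_rev, @norm_sub_sq ℂ, norm_Wu hu, RCLike.re_to_complex]
  ring

lemma pow_def {T : H →L[ℂ] H} (hT : IsSelfAdjoint T) (h1 : ‖T‖ ≤ 1) (m : ℕ) (α : H) :
    ‖α‖ ^ 2 - (⟪α, (T ^ m) α⟫_ℂ).re ≤ m * (‖α‖ ^ 2 - (⟪α, T α⟫_ℂ).re) := by
  have h2 : ∀ k : ℕ, 0 ≤ 1 - T ^ k := fun k => by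
    have h3 : ‖T ^ k‖ ≤ 1 := (norm_pow_le_of_le_one k)
    exact sub_nonneg.2 ((hT.pow k).le_algebraMap_norm_self.trans (by
      simpa using (algebraMap_mono (H →L[ℂ] H) h3)))
  induction m with
  | zero => simp [← Complex.ofReal_pow]
  | succ m ih =>
    have h4 : 0 ≤ (1 - T ^ 1) * (1 - T ^ m) := Commute.mul_nonneg (h2 1) (h2 m)
      (((Commute.one_left _).sub_left ((Commute.one_right _).sub_right
        ((Commute.refl T).pow_pow 1 m))))
    have h5 := ((ContinuousLinearMap.nonneg_iff_isPositive _).1 h4).re_inner_nonneg_right α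
    have h6 : (1 - T ^ 1) * (1 - T ^ m) = 1 - T - T ^ m + T ^ (m + 1) := by
      rw [pow_succ' T m]; noncomm_ring
    rw [h6] at h5
    simp only [add_apply, sub_apply, one_apply_eq_self, inner_add_right, inner_sub_right,
      inner_self_eq_norm_sq_to_K, map_add, map_sub, RCLike.re_to_complex] at h5
    have h7 : (((‖α‖ : ℝ) : ℂ) ^ 2).re = ‖α‖ ^ 2 := by norm_cast
    rw [Nat.cast_succ]
    erw [h7] at h5
    linarith
  where norm_pow_le_of_le_one (k : ℕ) : ‖T ^ k‖ ≤ 1 := by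
          induction k with
          | zero => exact norm_one_le
          | succ k ih =>
            rw [pow_succ]
            exact (norm_mul_le _ _).trans (mul_le_one₀ ih (norm_nonneg _) h1)

end MD

end Vale.Agent.P132
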