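import Vale.Agent.P132.Trunc
import Mathlib.Analysis.InnerProductSpace.ProdL2

/-! Families of approximate eigenoperators with almost constant sums. -/

namespace Vale.Agent.P132

open scoped InnerProductSpace ComplexConjugate Topology
open Vale.Agent.P082 Filter

variable {A : Type*} [CStarAlgebra A] [PartialOrder A] [StarOrderedRing A] {H : Type*}
  [NormedAddCommGroup H] [InnerProductSpace ℂ H] [CompleteSpace H] {S : Std A H}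

namespace Mn

lemma near2 {K : Set (H × H)} (hne : K.Nonempty) (hc : Convex ℝ K) {ι : Type*}
    (T : ι → H →L[ℂ] H) (h1 : ∀ i α, ‖T i α‖ = ‖α‖) (h3 : ∀ i, ∀ q ∈ K, (T i q.1, T i q.2) ∈ K) :
    ∃ β : H × H, β ∈ closure K ∧
      (∀ q ∈ K, ‖β.1‖ ^ 2 + ‖β.2‖ ^ 2 ≤ (⟪β.1, q.1⟫_ℂ).re + (⟪β.2, q.2⟫_ℂ).re) ∧
      ∀ i, T i β.1 = β.1 ∧ T i β.2 = β.2 := by
  let e := WithLp.prodContinuousLinearEquiv 2 ℂ H H
  obtain ⟨p, hp, h4, h5⟩ := exists_near_inv (H := WithLp 2 (H × H)) (K := e ⁻¹' K)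
    (hne.preimage e.surjective) (hc.linear_preimage (e.toLinearMap.restrictScalars ℝ)) 0
    (fun i => e.symm.toContinuousLinearMap ∘L (T i).prodMap (T i) ∘L e.toContinuousLinearMap)
    (fun i α => by
      rw [← sq_eq_sq₀ (norm_nonneg _) (norm_nonneg _), WithLp.prod_norm_sq_eq_of_L2,
        WithLp.prod_norm_sq_eq_of_L2, ← h1 i α.fst, ← h1 i α.snd]
      rfl)
    (fun i => map_zero _) fun i q hq => h3 i _ hq
  refine ⟨e p, map_mem_closure e.continuous hp fun _ h => h, fun q hq => ?_,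
    fun i => ⟨congrArg WithLp.fst (h5 i), congrArg WithLp.snd (h5 i)⟩⟩
  have h6 := h4 (e.symm q) (subset_closure (by simpa using hq))
  rw [zero_sub, inner_neg_left, inner_sub_right, Complex.neg_re, Complex.sub_re,
    WithLp.prod_inner_apply, Complex.add_re] at h6
  have h7 : (⟪p, p⟫_ℂ).re = ‖p‖ ^ 2 := inner_self_eq_norm_sq (𝕜 := ℂ) p
  rw [h7, WithLp.prod_norm_sq_eq_of_L2] at h6
  exact sub_nonneg.1 (neg_nonpos.1 h6)

omit [PartialOrder A] [StarOrderedRing A] in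
lemma π_rsmul (S : Std A H) (c : ℝ) (a : A) (α : H) : S.π (c • a) α = (c : ℂ) • S.π a α := by
  rw [← Complex.coe_smul, map_smul]; rfl

omit [CompleteSpace H] in
lemma sq_bounds (x p : H) {c κ : ℝ} (hc : 0 ≤ c) (hκ : 0 < κ) :
    c ^ 2 * ‖p‖ ^ 2 - c * (‖x - (c : ℂ) • p‖ ^ 2 / κ + κ * ‖p‖ ^ 2) ≤ ‖x‖ ^ 2 ∧
      ‖x‖ ^ 2 ≤ ‖x - (c : ℂ) • p‖ ^ 2 + c ^ 2 * ‖p‖ ^ 2 +
        c * (‖x - (c : ℂ) • p‖ ^ 2 / κ + κ * ‖p‖ ^ 2) := by
  have h1 := abs_le.1 (abs_norm_sub_norm_le x ((c : ℂ) • p))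
  rw [norm_smul, Complex.norm_real, Real.norm_of_nonneg hc] at h1
  generalize ‖x - (c : ℂ) • p‖ = d at *
  have h2 : 2 * (d * ‖p‖) ≤ d ^ 2 / κ + κ * ‖p‖ ^ 2 := by
    rw [div_add' _ _ _ hκ.ne', le_div_iff₀ hκ]
    nlinarith [sq_nonneg (d - κ * ‖p‖)]
  have h3 := mul_le_mul_of_nonneg_left h2 hc
  have h4 := norm_nonneg x
  have h5 := mul_nonneg hc (norm_nonneg p)
  constructor
  · rcases le_total (c * ‖p‖) d with h | h <;> nlinarith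
  · nlinarith

omit [PartialOrder A] [StarOrderedRing A] in
lemma rho_bounds (D : MD S) {ι : Type} [Fintype ι] {w : ι → A} {c κ : ℝ} (hc : 0 ≤ c) (hκ : 0 < κ)
    (h1 : ∑ i, ‖S.π (w i) S.ξ‖ ^ 2 = 1) (h2 : D.cost c w ≤ κ ^ 2) :
    c ^ 2 - 2 * c * κ ≤ ∑ i, ‖D.ρ (w i) S.ξ‖ ^ 2 ∧ ∑ i, ‖D.ρ (w i) S.ξ‖ ^ 2 ≤ (c + κ) ^ 2 := by
  have h3 := Finset.sum_le_sum fun i (_ : i ∈ Finset.univ) =>
    (sq_bounds (D.ρ (w i) S.ξ) (S.π (w i) S.ξ) hc hκ).1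
  have h4 := Finset.sum_le_sum fun i (_ : i ∈ Finset.univ) =>
    (sq_bounds (D.ρ (w i) S.ξ) (S.π (w i) S.ξ) hc hκ).2
  simp only [Finset.sum_add_distrib, Finset.sum_sub_distrib, ← Finset.mul_sum, ← Finset.sum_div,
    h1] at h3 h4
  have h5 : D.cost c w / κ ≤ κ := by rw [div_le_iff₀ hκ]; linarith
  have h6 := mul_le_mul_of_nonneg_left h5 hc
  unfold MD.cost at h2 h6
  constructor <;> nlinarith

/-- admissible families -/
def Ad (D : MD S) (e f : A) (c κ : ℝ) {ι : Type} [Fintype ι] (w : ι → A) : Prop :=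
  (∀ i, f * w i * e = w i) ∧ ∑ i, ‖S.π (w i) S.ξ‖ ^ 2 = 1 ∧ D.cost c w ≤ κ ^ 2

/-- the points of admissible families -/
def CC (D : MD S) (e f : A) (a c κ : ℝ) : Set (H × H) :=
  {q | ∃ (ι : Type) (_ : Fintype ι) (w : ι → A), Ad D e f c κ w ∧
    q = ((a : ℂ) • S.π (∑ i, star (w i) * w i) S.ξ, S.π (∑ i, w i * star (w i)) S.ξ)}

omit [PartialOrder A] [StarOrderedRing A] in
lemma convex_CC (D : MD S) (e f : A) (a c κ : ℝ) : Convex ℝ (CC D e f a c κ) := by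
  rintro _ ⟨ι, _, w, ⟨h1, h2, h3⟩, rfl⟩ _ ⟨ι', _, w', ⟨h1', h2', h3'⟩, rfl⟩ s t hs ht hst
  have k1 : ∀ {r : ℝ}, 0 ≤ r → ∀ α : H, ‖(√r : ℂ) • α‖ ^ 2 = r * ‖α‖ ^ 2 := fun hr α => by
    rw [norm_smul, mul_pow, Complex.norm_real, Real.norm_eq_abs, sq_abs, Real.sq_sqrt hr]
  have k2 : ∀ {r : ℝ}, 0 ≤ r → ∀ x y : A, (√r • x) * (√r • y) = r • (x * y) := fun hr x y => by
    rw [smul_mul_smul_comm, Real.mul_self_sqrt hr]
  have k3 : ∀ (r : ℝ) (x : A), D.ρ (r • x) S.ξ - (c : ℂ) • S.π (r • x) S.ξ =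
      (r : ℂ) • (D.ρ x S.ξ - (c : ℂ) • S.π x S.ξ) := fun r x => by
    rw [D.ρ_rsmul, π_rsmul, smul_sub, smul_comm (c : ℂ)]; rfl
  refine ⟨ι ⊕ ι', inferInstance, Sum.elim (fun i => √s • w i) fun i => √t • w' i,
    ⟨?_, ?_, ?_⟩, ?_⟩
  · rintro (i | i) <;> simp [h1, h1']
  · simp only [Fintype.sum_sum_type, Sum.elim_inl, Sum.elim_inr, π_rsmul, k1 hs, k1 ht,
      ← Finset.mul_sum, h2, h2']
    linarith
  · unfold MD.cost at h3 h3' ⊢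
    simp only [Fintype.sum_sum_type, Sum.elim_inl, Sum.elim_inr, k3, k1 hs, k1 ht,
      ← Finset.mul_sum]
    nlinarith
  · simp only [Fintype.sum_sum_type, Sum.elim_inl, Sum.elim_inr, star_smul, star_trivial, k2 hs,
      k2 ht, ← Finset.smul_sum, map_add, _root_.add_apply, π_rsmul, Prod.smul_mk, Prod.mk_add_mk,
      smul_add, Complex.coe_smul, smul_comm a]

omit [PartialOrder A] [StarOrderedRing A] in
lemma inv_CC {D : MD S} {e f : A} (he : D.Inv e) (hf : D.Inv f) (a c κ t : ℝ) :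
    ∀ q ∈ CC D e f a c κ, (D.U t q.1, D.U t q.2) ∈ CC D e f a c κ := by
  rintro _ ⟨ι, _, w, ⟨h1, h2, h3⟩, rfl⟩
  refine ⟨ι, inferInstance, fun i => D.σ t (w i), ⟨fun i => ?_, ?_, ?_⟩, ?_⟩
  · have := congrArg (D.σ t) (h1 i)
    rwa [map_mul, map_mul, MD.inv_iff.1 he, MD.inv_iff.1 hf] at this
  · simpa only [D.π_σ_ξ, D.norm_U] using h2
  · unfold MD.cost at h3 ⊢
    simpa only [D.π_σ_ξ, D.ρ_σ_ξ, ← map_smul, ← map_sub, D.norm_U] using h3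
  · simp only [← map_star, ← map_mul, ← map_sum, D.π_σ_ξ, map_smul]

omit [PartialOrder A] [StarOrderedRing A] in
lemma ad_single {D : MD S} {e f y : A} {c κ : ℝ} (h1 : f * y * e = y) (h2 : D.Ap c κ y) :
    Ad D e f c κ fun _ : Unit => ‖S.π y S.ξ‖⁻¹ • y := by
  have h0 : 0 < ‖S.π y S.ξ‖ := norm_pos_iff.2 h2.1
  refine ⟨fun _ => by simp [h1], ?_, ?_⟩
  · simp [π_rsmul, norm_smul, h0.ne']
  · simp only [MD.cost, Finset.univ_unique, Finset.sum_singleton]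
    rw [D.ρ_rsmul, π_rsmul, smul_comm (c : ℂ), _root_.smul_apply, ← smul_sub, norm_smul,
      Complex.norm_real, norm_inv, norm_norm]
    refine pow_le_pow_left₀ (by positivity) ?_ 2
    rw [inv_mul_le_iff₀ h0, mul_comm]
    exact h2.2

omit [PartialOrder A] [StarOrderedRing A] in
lemma re_proj (S : Std A H) {b e : A} (hb : IsSelfAdjoint b) (h : b * e = b) :
    (⟪S.π b S.ξ, S.π e S.ξ⟫_ℂ).re = (⟪S.ξ, S.π b S.ξ⟫_ℂ).re := by
  rw [← S.inner_star_right, ← S.mul_apply, hb.star_eq, h]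

omit [PartialOrder A] [StarOrderedRing A] in
lemma CC_pair {D : MD S} {e f : A} (he : IsStarProjection e) (hf : IsStarProjection f) {a c κ : ℝ}
    (hc : 0 ≤ c) (hκ : 0 < κ) {q : H × H} (hq : q ∈ closure (CC D e f a c κ)) :
    (⟪q.1, S.π e S.ξ⟫_ℂ).re = a ∧ c ^ 2 - 2 * c * κ ≤ (⟪q.2, S.π f S.ξ⟫_ℂ).re ∧
      (⟪q.2, S.π f S.ξ⟫_ℂ).re ≤ (c + κ) ^ 2 := by
  have c1 : Continuous fun q : H × H => (⟪q.1, S.π e S.ξ⟫_ℂ).re := by fun_prop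
  have c2 : Continuous fun q : H × H => (⟪q.2, S.π f S.ξ⟫_ℂ).re := by fun_prop
  refine closure_minimal (t := {q : H × H | (⟪q.1, S.π e S.ξ⟫_ℂ).re = a ∧
    c ^ 2 - 2 * c * κ ≤ (⟪q.2, S.π f S.ξ⟫_ℂ).re ∧ (⟪q.2, S.π f S.ξ⟫_ℂ).re ≤ (c + κ) ^ 2}) ?_
    ((isClosed_eq c1 continuous_const).inter ((isClosed_le continuous_const c2).inter
      (isClosed_le c2 continuous_const))) hq
  rintro _ ⟨ι, _, w, ⟨h1, h2, h3⟩, rfl⟩
  have e1 : ∀ i, w i * e = w i := fun i => by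
    rw [← h1 i, mul_assoc, he.isIdempotentElem.eq]
  have e2 : ∀ i, star (w i) * f = star (w i) := fun i => by
    rw [← h1 i, star_mul, star_mul, hf.isSelfAdjoint.star_eq, mul_assoc, mul_assoc,
      hf.isIdempotentElem.eq]
  have h4 := rho_bounds D hc hκ h2 h3
  have h5 : ∑ i, ‖D.ρ (w i) S.ξ‖ ^ 2 = (⟪S.π (∑ i, w i * star (w i)) S.ξ, S.π f S.ξ⟫_ℂ).re := by
    rw [re_proj S (isSelfAdjoint_sum _ fun i _ => .mul_star_self _)
      (by simp only [Finset.sum_mul, mul_assoc, e2])]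
    simpa only [star_star, D.norm_ρ_ξ] using S.col_eq (fun i => star (w i)) S.ξ
  refine ⟨?_, h5 ▸ h4.1, h5 ▸ h4.2⟩
  rw [inner_smul_left, Complex.conj_ofReal, Complex.re_ofReal_mul,
    re_proj S (isSelfAdjoint_sum _ fun i _ => .star_mul_self _)
      (by simp only [Finset.sum_mul, mul_assoc, e1]), ← S.col_eq, h2, mul_one]

omit [CompleteSpace H] in
lemma expand_sq (β v : H) (r : ℝ) :
    ‖β - (r : ℂ) • v‖ ^ 2 = ‖β‖ ^ 2 - 2 * r * (⟪β, v⟫_ℂ).re + r ^ 2 * ‖v‖ ^ 2 := by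
  rw [norm_sub_sq (𝕜 := ℂ), inner_smul_right, norm_smul, mul_pow, Complex.norm_real,
    Real.norm_eq_abs, sq_abs, RCLike.re_to_complex, Complex.re_ofReal_mul]
  ring

lemma main {D : MD S} (two : Prop) {e f : A} (he : D.IP e) (hf : D.IP f) {c : ℝ} (hc : 0 < c)
    {a κ : ℝ} (hκ : 0 < κ) (ha : a = 0 ∨ two ∧ a = 1)
    (h : ∀ e' f', D.IP e' → D.IP f' → e * e' = e' → f * f' = f' →
      ∃ y, f * y * e = y ∧ f' * y = y ∧ (two → y * e' = y) ∧ D.Ap c κ y) :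
    ∃ β ∈ closure (CC D e f a c κ),
      ‖β.1 - ((a / ‖S.π e S.ξ‖ ^ 2 : ℝ) : ℂ) • S.π e S.ξ‖ ^ 2 +
        ‖β.2 - ((c ^ 2 / ‖S.π f S.ξ‖ ^ 2 : ℝ) : ℂ) • S.π f S.ξ‖ ^ 2 ≤
        κ + κ * (c + κ) ^ 2 + ((c + κ) ^ 4 - c ^ 4 + 4 * c ^ 3 * κ) / ‖S.π f S.ξ‖ ^ 2 := by
  obtain ⟨y0, h1, -, -, h2⟩ := h e f he hf he.1.isIdempotentElem.eq hf.1.isIdempotentElem.eq
  obtain ⟨β, hβ, h3, h4⟩ := near2 (K := CC D e f a c κ) ⟨_, _, _, _, ad_single h1 h2, rfl⟩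
    (convex_CC D e f a c κ) D.U D.norm_U (inv_CC he.2.2 hf.2.2 a c κ)
  obtain ⟨p1, p2, p3⟩ := CC_pair he.1 hf.1 hc.le hκ hβ
  have n1 := pow_pos he.pos 2
  have n2 := pow_pos hf.pos 2
  obtain ⟨e', he', l1, l2⟩ := lemT' (β := β.1) (fun t => (h4 t).1) he
    (s := 1 / ‖S.π e S.ξ‖ ^ 2 + κ) (by positivity) (by
      rw [p1, add_mul, div_mul_cancel₀ _ n1.ne']
      have := mul_pos hκ n1
      rcases ha with rfl | ⟨-, rfl⟩ <;> linarith)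
  obtain ⟨f', hf', l3, l4⟩ := lemT' (β := β.2) (fun t => (h4 t).2) hf
    (s := (c + κ) ^ 2 / ‖S.π f S.ξ‖ ^ 2 + κ) (by positivity) (by
      rw [add_mul, div_mul_cancel₀ _ n2.ne']
      have := mul_pos hκ n2
      linarith)
  obtain ⟨y, k1, k2, k3, k4⟩ := h e' f' he' hf' l1 l3
  have k5 := ad_single k1 k4
  have k6 := h3 _ ⟨_, _, _, k5, rfl⟩
  have k7 := (rho_bounds D hc.le hκ k5.2.1 k5.2.2).2
  have k8 := k5.2.1
  simp only [Finset.univ_unique, Finset.sum_singleton] at k6 k7 k8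
  have k9 : f' * (‖S.π y S.ξ‖⁻¹ • y) = ‖S.π y S.ξ‖⁻¹ • y := by rw [mul_smul_comm, k2]
  have k10 : two → (‖S.π y S.ξ‖⁻¹ • y) * e' = ‖S.π y S.ξ‖⁻¹ • y := fun ht => by
    rw [smul_mul_assoc, k3 ht]
  generalize ‖S.π y S.ξ‖⁻¹ • y = z at *
  have m1 := l4 (star z) (by rw [← hf'.1.isSelfAdjoint.star_eq, ← star_mul, k9])
  rw [star_star, ← D.norm_ρ_ξ] at m1
  have m2 : (⟪β.1, (a : ℂ) • S.π (star z * z) S.ξ⟫_ℂ).re ≤ a * (1 / ‖S.π e S.ξ‖ ^ 2 + κ) := by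
    rcases ha with rfl | ⟨ht, rfl⟩
    · simp
    · simpa [k8] using l2 z (k10 ht)
  have m3 := m1.trans (mul_le_mul_of_nonneg_left k7 (by positivity))
  refine ⟨β, hβ, ?_⟩
  rw [expand_sq, expand_sq, p1]
  generalize ‖S.π e S.ξ‖ ^ 2 = u at *
  generalize ‖S.π f S.ξ‖ ^ 2 = v at *
  have m4 : (a / u) ^ 2 * u = a * (1 / u) := by
    rcases ha with rfl | ⟨-, rfl⟩
    · simp
    · field_simp
  have m5 : 2 * (a / u) * a = 2 * (a * (1 / u)) := by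
    rcases ha with rfl | ⟨-, rfl⟩ <;> simp
  have m6 : a * κ ≤ κ := by rcases ha with rfl | ⟨-, rfl⟩ <;> linarith
  have m7 : (c ^ 2 / v) ^ 2 * v = c ^ 4 / v := by field_simp
  have m8 := mul_le_mul_of_nonneg_left p2 (show 0 ≤ 2 * (c ^ 2 / v) by positivity)
  have m9 : ((c + κ) ^ 4 - c ^ 4 + 4 * c ^ 3 * κ) / v = (c + κ) ^ 2 / v * (c + κ) ^ 2 -
      2 * (c ^ 2 / v) * (c ^ 2 - 2 * c * κ) + c ^ 4 / v := by field_simp; ring
  rw [m4, m5, m7, m9]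
  linarith

end Mn

theorem minN {D : MD S} (two : Prop) {e f : A} (he : D.IP e) (hf : D.IP f) {c : ℝ} (hc : 0 < c)
    (h : ∀ κ : ℝ, 0 < κ → ∀ e' f', D.IP e' → D.IP f' → e * e' = e' → f * f' = f' →
      ∃ y, f * y * e = y ∧ f' * y = y ∧ (two → y * e' = y) ∧ D.Ap c κ y) {ε : ℝ} (hε : 0 < ε) :
    ∃ (ι : Type) (_ : Fintype ι) (w : ι → A), (∀ i, f * w i * e = w i) ∧
      ∑ i, ‖S.π (w i) S.ξ‖ ^ 2 = 1 ∧ D.cost c w ≤ ε ∧
      ‖S.π (∑ i, w i * star (w i) - (c ^ 2 / ‖S.π f S.ξ‖ ^ 2) • f) S.ξ‖ ≤ ε ∧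
      (two → ‖S.π (∑ i, star (w i) * w i - (‖S.π e S.ξ‖ ^ 2)⁻¹ • e) S.ξ‖ ≤ ε) := by
  classical
  have c1 : ∀ᶠ κ in 𝓝 (0 : ℝ), κ ^ 2 < ε :=
    ContinuousAt.eventually_lt (by fun_prop) (by fun_prop) (by simpa using hε)
  have c2 : ∀ᶠ κ in 𝓝 (0 : ℝ), κ + κ * (c + κ) ^ 2 +
      ((c + κ) ^ 4 - c ^ 4 + 4 * c ^ 3 * κ) / ‖S.π f S.ξ‖ ^ 2 < (ε / 2) ^ 2 :=
    ContinuousAt.eventually_lt (by fun_prop) (by fun_prop) (by simp; positivity)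
  obtain ⟨κ, ⟨k1, k2⟩, hκ⟩ := (((c1.and c2).filter_mono nhdsWithin_le_nhds).and
    (self_mem_nhdsWithin (s := Set.Ioi (0 : ℝ)))).exists
  obtain ⟨β, hβ, h1⟩ := Mn.main two he hf hc (a := if two then 1 else 0) hκ
    (by by_cases ht : two <;> simp [ht]) (h κ hκ)
  obtain ⟨_, ⟨ι, _, w, ⟨h2, h3, h4⟩, rfl⟩, h5⟩ := Metric.mem_closure_iff.1 hβ (ε / 2) (half_pos hε)
  rw [dist_comm, dist_eq_norm] at h5
  have h6 := (norm_fst_le _).trans h5.le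
  have h7 := (norm_snd_le _).trans h5.le
  have h8 := abs_le_of_sq_le_sq' ((le_add_of_nonneg_right (sq_nonneg _)).trans (h1.trans k2.le))
    (half_pos hε).le
  have h9 := abs_le_of_sq_le_sq' ((le_add_of_nonneg_left (sq_nonneg _)).trans (h1.trans k2.le))
    (half_pos hε).le
  refine ⟨ι, inferInstance, w, h2, h3, h4.trans k1.le, ?_, fun ht => ?_⟩
  · rw [map_sub, _root_.sub_apply, Mn.π_rsmul]
    exact (norm_sub_le_norm_sub_add_norm_sub _ β.2 _).trans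
      ((add_le_add h7 h9.2).trans (add_halves ε).le)
  · rw [map_sub, _root_.sub_apply, Mn.π_rsmul, ← one_div]
    simp only [if_pos ht, Prod.fst_sub, Complex.ofReal_one, one_smul] at h6 h8
    exact (norm_sub_le_norm_sub_add_norm_sub _ β.1 _).trans
      ((add_le_add h6 h8.2).trans (add_halves ε).le)

end Vale.Agent.P132
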