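import Vale.Agent.P132.ApiP
import Vale.Agent.P132.Pre

/-! The linear Radon-Nikodym lemma and the operator identity. -/

namespace Vale.Agent.P132

open scoped InnerProductSpace ComplexConjugate Topology
open Vale.Agent.P082 Filter

variable {A : Type*} [CStarAlgebra A] [PartialOrder A] [StarOrderedRing A] {H : Type*}
  [NormedAddCommGroup H] [InnerProductSpace ℂ H] [CompleteSpace H] {S : Std A H}

namespace RN

omit [PartialOrder A] [StarOrderedRing A] in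
lemma im_comm (S : Std A H) {x' : H →L[ℂ] H} (hx : ∀ a, x' * S.π a = S.π a * x')
    (hs : IsSelfAdjoint x') {a : A} (ha : IsSelfAdjoint a) : (⟪x' S.ξ, S.π a S.ξ⟫_ℂ).im = 0 := by
  have e1 : IsSelfAdjoint (x' * S.π a) := by
    rw [IsSelfAdjoint, star_mul, hs.star_eq, (ha.map S.π).star_eq, hx]
  rw [← ContinuousLinearMap.adjoint_inner_right, hs.adjoint_eq]
  exact e1.isSymmetric.im_inner_self_apply S.ξ

/-- The basic estimate. -/
lemma exists_sign (S : Std A H) {x' : H →L[ℂ] H} (hx : ∀ a, x' * S.π a = S.π a * x') {y : A}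
    (hy : IsSelfAdjoint y) {ε : ℝ} (hε : 0 < ε) : ∃ g : A, IsSelfAdjoint g ∧ ‖g‖ ≤ 1 ∧
      (⟪S.π y S.ξ, S.π g S.ξ⟫_ℂ).im = 0 ∧
      (⟪S.π y S.ξ, x' S.ξ⟫_ℂ).re ≤ ‖x'‖ * ((⟪S.π y S.ξ, S.π g S.ξ⟫_ℂ).re + ε) := by
  have hc : Continuous fun t : ℝ => t / (|t| + ε) :=
    continuous_id.div (by fun_prop) fun t => by positivity
  let g := cfc (fun t : ℝ => t / (|t| + ε)) y
  let u := cfc (fun t : ℝ => √t) y
  let v := cfc (fun t : ℝ => √(-t)) y
  have hg : IsSelfAdjoint g := cfc_predicate _ _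
  have hu : IsSelfAdjoint u := cfc_predicate _ _
  have hv : IsSelfAdjoint v := cfc_predicate _ _
  have e0 : y * g = cfc (fun t : ℝ => t * (t / (|t| + ε))) y := by
    rw [cfc_mul _ _ y (by fun_prop) hc.continuousOn, cfc_id' ℝ y]
  have e1 : y = star u * u - star v * v := by
    rw [hu.star_eq, hv.star_eq, ← cfc_mul .., ← cfc_mul .., ← cfc_sub ..]
    nth_rewrite 1 [← cfc_id' ℝ y]
    refine cfc_congr fun t _ => ?_
    simp only [← sq, Real.sq_sqrt']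
    rcases le_total 0 t with h | h <;> simp [h]
  have e2 : star u * u + star v * v ≤ y * g + algebraMap ℝ A ε := by
    rw [hu.star_eq, hv.star_eq, ← cfc_mul .., ← cfc_mul .., ← cfc_add .., e0, ← cfc_const ε y,
      ← cfc_add _ _ _ (by fun_prop)]
    refine cfc_mono (fun t _ => ?_) (by fun_prop) (by fun_prop)
    have h1 : max t 0 + max (-t) 0 = |t| := by
      rcases le_total 0 t with h | h <;> simp [h, abs_of_nonneg, abs_of_nonpos]
    simp only [← sq, Real.sq_sqrt', h1]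
    rw [← mul_div_assoc, ← abs_mul_abs_self t, div_add' _ _ _ (by positivity),
      le_div_iff₀ (by positivity)]
    nlinarith
  have e3 : ⟪S.π y S.ξ, S.π g S.ξ⟫_ℂ = ⟪S.ξ, S.π (y * g) S.ξ⟫_ℂ := by
    rw [S.mul_apply, ← S.inner_star_left y, hy.star_eq]
  have e4 : ∀ w : A, |(⟪S.π (star w * w) S.ξ, x' S.ξ⟫_ℂ).re| ≤
      ‖x'‖ * (⟪S.ξ, S.π (star w * w) S.ξ⟫_ℂ).re := fun w => by
    rw [← S.norm_sq, S.mul_apply, S.inner_star_left, ← ContinuousLinearMap.mul_apply _ x', ← hx]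
    refine (Complex.abs_re_le_norm _).trans ((norm_inner_le_norm _ _).trans ?_)
    exact (mul_le_mul_of_nonneg_left (x'.le_opNorm (S.π w S.ξ)) (norm_nonneg _)).trans_eq
      (by ring)
  refine ⟨g, hg, norm_cfc_le zero_le_one fun t _ => ?_, ?_, ?_⟩
  · rw [Real.norm_eq_abs, abs_div, abs_of_pos (by positivity : 0 < |t| + ε),
      div_le_one (by positivity)]
    linarith
  · have e5 : IsSelfAdjoint (S.π (y * g)) := IsSelfAdjoint.map (e0 ▸ cfc_predicate _ _) S.π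
    rw [e3]
    exact e5.isSymmetric.im_inner_self_apply S.ξ
  · have e5 := S.re_mono e2 S.ξ
    have e6 : (⟪S.ξ, S.π (algebraMap ℝ A ε) S.ξ⟫_ℂ).re = ε := by
      rw [Algebra.algebraMap_eq_smul_one, ← Complex.coe_smul, map_smul, map_one]
      simpa [S.norm_ξ] using re_inner_rsmul ε S.ξ
    simp only [map_add, ContinuousLinearMap.add_apply, inner_add_right, Complex.add_re, e6,
      ← e3] at e5
    nth_rewrite 1 [e1]
    rw [map_sub, ContinuousLinearMap.sub_apply, inner_sub_left, Complex.sub_re]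
    have e7 := mul_le_mul_of_nonneg_left e5 (norm_nonneg x')
    linarith [(abs_le.1 (e4 u)).2, (abs_le.1 (e4 v)).1]

end RN

theorem rn (S : Std A H) {x' : H →L[ℂ] H} (hx : ∀ a, x' * S.π a = S.π a * x')
    (hs : IsSelfAdjoint x') {c : ℂ} (hc : 0 < c.re) : ∃ x, IsSelfAdjoint x ∧
      ∀ y, IsSelfAdjoint y → (⟪x' S.ξ, S.π y S.ξ⟫_ℂ).re = (⟪c • S.π x S.ξ, S.π y S.ξ⟫_ℂ).re := by
  let K0 : Submodule ℝ H :=
    { carrier := {γ | ∃ a, IsSelfAdjoint a ∧ S.π a S.ξ = γ}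
      add_mem' := by
        rintro _ _ ⟨a, ha, rfl⟩ ⟨b, hb, rfl⟩
        exact ⟨a + b, ha.add hb, by simp⟩
      zero_mem' := ⟨0, .zero _, by simp⟩
      smul_mem' := by
        rintro c _ ⟨a, ha, rfl⟩
        exact ⟨c • a, (IsSelfAdjoint.all c).smul ha, by
          rw [← Complex.coe_smul, map_smul, ← Complex.coe_smul]; rfl⟩ }
  obtain ⟨P, p1, p2⟩ := Pre.exists_P K0.topologicalClosure K0.isClosed_topologicalClosure
  have p3 : ∀ α, ∀ k ∈ K0.topologicalClosure, (⟪k, P α⟫_ℂ).re = (⟪k, α⟫_ℂ).re := fun α k hk => by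
    have := p2 α k hk
    rwa [Pre.re_comm, inner_sub_right, Complex.sub_re, sub_eq_zero, eq_comm] at this
  set M := ‖x'‖ / c.re with hM
  have hM0 : 0 ≤ M := by positivity
  let C : Set H := {γ | ∃ x, (IsSelfAdjoint x ∧ ‖x‖ ≤ M) ∧ P (c • S.π x S.ξ) = γ}
  have hC : Convex ℝ C := by
    rintro _ ⟨x, ⟨x1, x2⟩, rfl⟩ _ ⟨y, ⟨y1, y2⟩, rfl⟩ s t hs ht hst
    refine ⟨s • x + t • y, ⟨((IsSelfAdjoint.all s).smul x1).add ((IsSelfAdjoint.all t).smul y1),
      mem_closedBall_zero_iff.1 (convex_closedBall 0 M (mem_closedBall_zero_iff.2 x2)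
        (mem_closedBall_zero_iff.2 y2) hs ht hst)⟩, ?_⟩
    rw [← P.map_smul, ← P.map_smul, ← P.map_add, ← Complex.coe_smul s x, ← Complex.coe_smul t y,
      map_add S.π, map_smul S.π, map_smul S.π, ← Complex.coe_smul, ← Complex.coe_smul]
    congr 1
    simp only [ContinuousLinearMap.add_apply, ContinuousLinearMap.smul_apply]
    module
  obtain ⟨p, hp, h1, -⟩ := exists_near (K := C) ⟨_, 0, ⟨.zero _, by simpa using hM0⟩, rfl⟩ hC
    (P (x' S.ξ))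
  have hk : P (x' S.ξ) - p ∈ K0.topologicalClosure := sub_mem (p1 _)
    (closure_minimal (by rintro _ ⟨x, -, rfl⟩; exact p1 _) K0.isClosed_topologicalClosure hp)
  have h2 : P (x' S.ξ) = p := by
    set k := P (x' S.ξ) - p with hkd
    have h3 : ∀ ε > 0, ‖k‖ ^ 2 - 0 ≤ ε * (‖c‖ * M + 2 * ‖x'‖) := fun ε hε => by
      obtain ⟨_, ⟨y, hy, rfl⟩, ey⟩ := Metric.mem_closure_iff.1 hk _ hε
      obtain ⟨g, g1, g2, g3, g4⟩ := RN.exists_sign S hx hy hε
      have a1 := h1 _ (subset_closure ⟨M • g, ⟨(IsSelfAdjoint.all M).smul g1, by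
        rw [norm_smul, Real.norm_of_nonneg hM0]
        exact mul_le_of_le_one_right hM0 g2⟩, rfl⟩)
      have a2 : p = P (x' S.ξ) - k := by rw [hkd, sub_sub_cancel]
      rw [a2, inner_sub_right, inner_sub_right, Complex.sub_re, Complex.sub_re, p3 _ k hk,
        p3 _ k hk, Pre.re_self] at a1
      have a3 : ∀ γ : H, |(⟪k, γ⟫_ℂ).re - (⟪S.π y S.ξ, γ⟫_ℂ).re| ≤ ε * ‖γ‖ := fun γ => by
        rw [← Complex.sub_re, ← inner_sub_left]
        exact (Complex.abs_re_le_norm _).trans ((norm_inner_le_norm _ _).trans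
          (mul_le_mul_of_nonneg_right (by rw [← dist_eq_norm]; exact ey.le) (norm_nonneg _)))
      have a4 : S.π (M • g) S.ξ = (M : ℂ) • S.π g S.ξ := by
        rw [← Complex.coe_smul, map_smul]; rfl
      have a5 : (⟪S.π y S.ξ, c • S.π (M • g) S.ξ⟫_ℂ).re =
          ‖x'‖ * (⟪S.π y S.ξ, S.π g S.ξ⟫_ℂ).re := by
        rw [a4, inner_smul_right, inner_smul_right, Complex.mul_re, Complex.re_ofReal_mul,
          Complex.im_ofReal_mul, g3, hM]
        field_simp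
        ring
      have a6 : ‖c • S.π (M • g) S.ξ‖ ≤ ‖c‖ * M := by
        rw [a4, norm_smul, norm_smul, Complex.norm_real, Real.norm_of_nonneg hM0]
        refine mul_le_mul_of_nonneg_left (mul_le_of_le_one_right hM0 ?_) (norm_nonneg _)
        simpa [S.norm_ξ] using (S.norm_apply_le g S.ξ).trans
          (mul_le_mul_of_nonneg_right g2 (norm_nonneg _))
      have a7 : ‖x' S.ξ‖ ≤ ‖x'‖ := by simpa [S.norm_ξ] using x'.le_opNorm S.ξ
      have a8 := (abs_le.1 (a3 (c • S.π (M • g) S.ξ))).1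
      have a9 := (abs_le.1 (a3 (x' S.ξ))).2
      nlinarith [mul_le_mul_of_nonneg_left a6 hε.le, mul_le_mul_of_nonneg_left a7 hε.le]
    have h4 : ‖k‖ ^ 2 = 0 := by
      have := Calc.eq_of_forall_le (H := ℂ) (u := (‖k‖ ^ 2 : ℝ)) (v := 0) fun ε hε => by
        simpa using h3 ε hε
      exact_mod_cast this
    exact sub_eq_zero.1 (norm_eq_zero.1 (pow_eq_zero_iff two_ne_zero |>.1 h4))
  obtain ⟨q, hq1, hq2⟩ := mem_closure_iff_seq_limit.1 hp
  choose x hx1 hx2 using hq1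
  obtain ⟨z, hz⟩ := S.W.exists_T (hyperfilter ℕ) (x := x) (Eventually.of_forall fun n => (hx1 n).2)
  refine ⟨z, (Rep.T_star hz).eq_of hz (Eventually.of_forall fun n => (hx1 n).1), fun y hy => ?_⟩
  have hyK : S.π y S.ξ ∈ K0.topologicalClosure := K0.le_topologicalClosure ⟨y, hy, rfl⟩
  have t1 := (Complex.continuous_re.tendsto _).comp
    ((Rep.W_T.1 hz S.ξ (S.π y S.ξ)).const_mul c)
  have t2 := ((Complex.continuous_re.tendsto _).comp
    ((tendsto_const_nhds (x := S.π y S.ξ)).inner (𝕜 := ℂ) hq2)).mono_left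
      (Nat.hyperfilter_le_atTop)
  rw [Pre.re_comm, Pre.re_comm (c • _), ← p3 _ _ hyK, h2, inner_smul_right]
  refine tendsto_nhds_unique t2 (t1.congr fun n => ?_)
  simp only [Function.comp_apply]
  rw [← hx2, p3 _ _ hyK, inner_smul_right]

namespace RN

lemma rn' (S : Std A H) {x' : H →L[ℂ] H} (hx : ∀ a, x' * S.π a = S.π a * x')
    (hs : IsSelfAdjoint x') {c : ℂ} (hc : 0 < c.re) : ∃ x, IsSelfAdjoint x ∧ ∀ a,
      2 * ⟪x' S.ξ, S.π a S.ξ⟫_ℂ =
        conj c * ⟪S.π x S.ξ, S.π a S.ξ⟫_ℂ + c * ⟪S.π (star a) S.ξ, S.π x S.ξ⟫_ℂ := by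
  obtain ⟨x, h1, h2⟩ := rn S hx hs hc
  have h3 : ∀ y, IsSelfAdjoint y → 2 * ⟪x' S.ξ, S.π y S.ξ⟫_ℂ =
      conj c * ⟪S.π x S.ξ, S.π y S.ξ⟫_ℂ + c * ⟪S.π y S.ξ, S.π x S.ξ⟫_ℂ := fun y hy => by
    rw [← inner_smul_left, ← inner_smul_right _ _ c, ← inner_conj_symm (S.π y S.ξ),
      Complex.add_conj, ← h2 y hy]
    exact Complex.ext (by simp) (by simp [im_comm S hx hs hy])
  refine ⟨x, h1, fun a => ?_⟩
  have e1 := h3 _ (realPart a).2
  have e2 := h3 _ (imaginaryPart a).2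
  rw [← realPart_add_I_smul_imaginaryPart a]
  simp only [star_add, star_smul, selfAdjoint.star_val_eq, map_add, map_smul,
    ContinuousLinearMap.add_apply, ContinuousLinearMap.smul_apply, inner_add_right,
    inner_add_left, inner_smul_left, inner_smul_right, Complex.star_def, Complex.conj_conj]
  linear_combination e1 + Complex.I * e2

omit [PartialOrder A] [StarOrderedRing A] in
lemma fb_sym (D : PM S) {f : ℝ → ℝ} (hF : BC fun s => f s) (α β : H) :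
    ⟪D.fb (fun s => f s) α, β⟫_ℂ = ⟪α, D.fb (fun s => f s) β⟫_ℂ := by
  rw [D.inner_left hF]
  simp only [Complex.conj_ofReal]

omit [PartialOrder A] [StarOrderedRing A] in
lemma rr_apply (D : PM S) (α : H) : D.fb rr α = α - D.fb pp α := by
  have := D.add bc_pp bc_rr
  simp only [pp_add_rr, D.one] at this
  simpa using (congr($this α - D.fb pp α)).symm

lemma partner (D : PM S) {y' : H →L[ℂ] H} (hy : ∀ a, y' * S.π a = S.π a * y')
    (hs : IsSelfAdjoint y') : ∃ y, IsSelfAdjoint y ∧ (∀ a, 2 * ⟪y' S.ξ, S.π a S.ξ⟫_ℂ =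
      ⟪S.π y S.ξ, S.π a S.ξ⟫_ℂ + ⟪S.π (star a) S.ξ, S.π y S.ξ⟫_ℂ) ∧
      D.fb pp (y' S.ξ) = (2 : ℂ)⁻¹ • S.π y S.ξ ∧
      D.fb qq (y' S.ξ) = (2 : ℂ)⁻¹ • D.J (S.π y S.ξ) := by
  obtain ⟨y, h1, h2⟩ := rn' S hy hs (c := 1) one_pos
  simp only [map_one, one_mul] at h2
  have g1 := D.gr1 y
  rw [h1.star_eq] at g1
  have h3 : D.fb pp (y' S.ξ) = (2 : ℂ)⁻¹ • S.π y S.ξ := ext_inner_right ℂ fun α => by
    have e1 : 2 * ⟪y' S.ξ, D.fb pp α⟫_ℂ =
        ⟪S.π y S.ξ, D.fb pp α⟫_ℂ + ⟪D.J (S.π y S.ξ), D.fb qq α⟫_ℂ := by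
      refine Calc.eq_of_forall_le (H := ℂ)
        (C := 2 * ‖y' S.ξ‖ + ‖S.π y S.ξ‖ + ‖D.J (S.π y S.ξ)‖) fun ε hε => ?_
      obtain ⟨a, a1, a2⟩ := D.gr2 α ε hε
      have e2 : 2 * ⟪y' S.ξ, D.fb pp α⟫_ℂ -
          (⟪S.π y S.ξ, D.fb pp α⟫_ℂ + ⟪D.J (S.π y S.ξ), D.fb qq α⟫_ℂ) =
          ⟪S.π y S.ξ, S.π a S.ξ - D.fb pp α⟫_ℂ +
            ⟪D.J (S.π y S.ξ), D.J (S.π (star a) S.ξ) - D.fb qq α⟫_ℂ -
              2 * ⟪y' S.ξ, S.π a S.ξ - D.fb pp α⟫_ℂ := by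
        simp only [inner_sub_right, D.inner_J]
        linear_combination h2 a
      have n : ∀ (u : H) {v : H}, ‖v‖ ≤ ε → ‖⟪u, v⟫_ℂ‖ ≤ ‖u‖ * ε := fun u v hv =>
        (norm_inner_le_norm _ _).trans (mul_le_mul_of_nonneg_left hv (norm_nonneg _))
      rw [e2]
      refine (norm_sub_le _ _).trans ((add_le_add (norm_add_le _ _) le_rfl).trans ?_)
      rw [norm_mul, Complex.norm_two]
      linarith [n (y' S.ξ) a1, n (S.π y S.ξ) a1, n (D.J (S.π y S.ξ)) a2]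
    have s1 := fb_sym D bc_pp
    have s2 := fb_sym D bc_qq
    change ∀ α β, ⟪D.fb pp α, β⟫_ℂ = ⟪α, D.fb pp β⟫_ℂ at s1
    change ∀ α β, ⟪D.fb qq α, β⟫_ℂ = ⟪α, D.fb qq β⟫_ℂ at s2
    rw [← s2, g1, rr_apply, inner_sub_left, s1] at e1
    rw [s1, inner_smul_left, map_inv₀, map_ofNat]
    linear_combination e1 / 2
  refine ⟨y, h1, h2, h3, sub_eq_zero.1 (D.inj bc_qq qq_ne ?_)⟩
  rw [map_sub, map_smul, g1, ← map_smul, ← h3, D.mul_apply bc_qq bc_qq, D.mul_apply bc_rr bc_pp,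
    sub_eq_zero]
  congr 2
  funext s
  rw [rr_eq, mul_assoc, mul_comm (EE s), ← qq_eq]

end RN

open RN in
theorem opid (D : PM S) {x' : H →L[ℂ] H} (hx : ∀ a, x' * S.π a = S.π a * x')
    (hs : IsSelfAdjoint x') {c : ℂ} (hc : 0 < c.re) : ∃ x, ∀ α,
      D.fb qq (D.J (x' (D.J (D.fb qq α)))) =
        c • D.fb rr (S.π x (D.fb pp α)) + conj c • D.fb pp (S.π x (D.fb rr α)) := by
  obtain ⟨x, h1, h2⟩ := rn' S hx hs (c := conj c) hc
  rw [Complex.conj_conj] at h2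
  have s1 := fb_sym D bc_pp
  have s2 := fb_sym D bc_qq
  change ∀ α β, ⟪D.fb pp α, β⟫_ℂ = ⟪α, D.fb pp β⟫_ℂ at s1
  change ∀ α β, ⟪D.fb qq α, β⟫_ℂ = ⟪α, D.fb qq β⟫_ℂ at s2
  let X : H →L[ℂ] H := D.J.comp (x'.comp D.J)
  let W : H →L[ℂ] H := D.fb qq * X * D.fb qq - (c • (D.fb rr * S.π ((2 : ℂ)⁻¹ • x) * D.fb pp) +
    conj c • (D.fb pp * S.π ((2 : ℂ)⁻¹ • x) * D.fb rr))
  have hW : ∀ α, W α = D.fb qq (D.J (x' (D.J (D.fb qq α)))) -
      (c • D.fb rr (S.π ((2 : ℂ)⁻¹ • x) (D.fb pp α)) +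
        conj c • D.fb pp (S.π ((2 : ℂ)⁻¹ • x) (D.fb rr α))) := fun _ => rfl
  have h3 : ∀ z' : H →L[ℂ] H, IsSelfAdjoint z' → (∀ a, z' * S.π a = S.π a * z') →
      W (z' S.ξ) = 0 := fun z' hz1 hz2 => S.dense_comm fun y' hy1 hy2 => by
    obtain ⟨y, y1, y2, y3, y4⟩ := partner D hy2 hy1
    obtain ⟨z, z1, z2, z3, z4⟩ := partner D hz2 hz1
    have e1 := h2 (z * y)
    have e2 := y2 (x * z)
    have e3 := congrArg conj (z2 (x * y))
    have sx : ∀ α β, ⟪S.π x α, β⟫_ℂ = ⟪α, S.π x β⟫_ℂ := fun α β => by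
      rw [← S.inner_star_left, h1.star_eq]
    have sy : ∀ α β, ⟪S.π y α, β⟫_ℂ = ⟪α, S.π y β⟫_ℂ := fun α β => by
      rw [← S.inner_star_left, y1.star_eq]
    have sz : ∀ α β, ⟪S.π z α, β⟫_ℂ = ⟪α, S.π z β⟫_ℂ := fun α β => by
      rw [← S.inner_star_left, z1.star_eq]
    simp only [star_mul, h1.star_eq, y1.star_eq, z1.star_eq, S.mul_apply, map_mul, map_add,
      map_ofNat, inner_conj_symm, ContinuousLinearMap.mul_apply] at e1 e2 e3
    rw [← sz, ← ContinuousLinearMap.mul_apply _ x', ← hx, ContinuousLinearMap.mul_apply,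
      sy (S.π z S.ξ), ← sz] at e1
    rw [sx, sx] at e3
    rw [hW, inner_sub_right, inner_add_right, inner_smul_right, inner_smul_right, ← s2, y4, z4,
      rr_apply, rr_apply, inner_sub_right, ← s1, ← s1, y3, z3]
    simp only [map_smul, map_smulₛₗ, D.JJ, inner_smul_left, inner_smul_right, D.inner_J,
      ContinuousLinearMap.smul_apply, map_sub, inner_sub_right, map_inv₀, map_ofNat]
    linear_combination e1 / 8 - c * e2 / 8 - conj c * e3 / 8
  refine ⟨(2 : ℂ)⁻¹ • x, fun α => sub_eq_zero.1 ((hW α).symm.trans ?_)⟩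
  have h4 : ∀ β, ContinuousLinearMap.adjoint W β = 0 := fun β => S.dense_comm fun z' h5 h6 => by
    rw [ContinuousLinearMap.adjoint_inner_right, h3 z' h5 h6, inner_zero_left]
  rw [← inner_self_eq_zero (𝕜 := ℂ), ← ContinuousLinearMap.adjoint_inner_right, h4,
    inner_zero_right]

end Vale.Agent.P132
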